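/-
P235-M, reduction, row C1 (helper90): the angle count.
-/
import Vale.Agent.P235.R2.RED.Stmts

namespace Vale.Agent.P235.R2.H90

open Equiv Vale.Agent.P235 Vale.Agent.P235.Red

/-- along a cycle of a permutation a property which holds at one point and fails at another one
stops somewhere -/
theorem cyc_change {D : Type} [Finite D] (π : Perm D) (P : D → Prop) {a b : D}
    (hab : π.SameCycle a b) (ha : P a) (hb : ¬ P b) :
    ∃ d, π.SameCycle a d ∧ P d ∧ ¬ P (π d) := by
  classical
  have := Fintype.ofFinite D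
  by_contra hcon
  push Not at hcon
  obtain ⟨i, -, hi⟩ := hab.exists_pow_eq'
  have key : ∀ i : ℕ, P ((π ^ i) a) := by
    intro i
    induction i with
    | zero => simpa using ha
    | succ i ih =>
      have := hcon ((π ^ i) a) ⟨i, by simp⟩ ih
      rwa [pow_succ', Perm.mul_apply]
  exact hb (hi ▸ key i)

/-- a strictly monotone quantity along a cycle of a permutation of a finite set is impossible -/
theorem no_mono_cycle {D : Type} [Finite D] (π : Perm D) (g : D → ℝ) (a : D)
    (hmono : ∀ d, π.SameCycle a d → g d < g (π d)) : False := by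
  classical
  have := Fintype.ofFinite D
  have key : ∀ i : ℕ, g a + 0 ≤ g ((π ^ i) a) ∧ (0 < i → g a < g ((π ^ i) a)) := by
    intro i
    induction i with
    | zero => simp
    | succ i ih =>
      have h1 := hmono ((π ^ i) a) ⟨i, by simp⟩
      rw [← Perm.mul_apply, ← pow_succ'] at h1
      exact ⟨by linarith [ih.1], fun _ => by linarith [ih.1]⟩
  have h2 := (key (orderOf π)).2 (orderOf_pos π)
  rw [pow_orderOf_eq_one] at h2
  simp at h2

/-- equality case of counting: a map from `A` whose image contains `S`, `#A ≤ #S`, is injective -/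
theorem inj_of_count {D X : Type} [DecidableEq X] (A : Finset D) (S : Finset X) (φ : D → X)
    (hS : ∀ x ∈ S, ∃ d ∈ A, φ d = x) (hc : A.card ≤ S.card) :
    Set.InjOn φ (A : Set D) := by
  have h1 : S ⊆ A.image φ := fun x hx => by
    obtain ⟨d, hd, rfl⟩ := hS x hx
    exact Finset.mem_image_of_mem _ hd
  have h2 := Finset.card_le_card h1
  have h3 : (A.image φ).card ≤ A.card := Finset.card_image_le
  exact Finset.card_image_iff.1 (by omega)

theorem rowC1 : RowC1 := by
  classical
  intro V _ G σ h s t hP hU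
  have := Fintype.ofFinite V
  have : DecidableRel G.Adj := Classical.decRel _
  have : Finite G.Dart := inferInstance
  -- the notions
  set up : G.Dart → Prop := fun d => h d.fst < h d.snd with hup
  have hsymm : ∀ d : G.Dart, up d.symm ↔ ¬ up d := by
    intro d
    simp only [hup, SimpleGraph.Dart.symm_toProd]
    have := hU.ne _ _ d.adj
    constructor
    · intro h1; exact not_lt.2 h1.le
    · intro h1; exact lt_of_le_of_ne (not_lt.1 h1) this.symm
  have hnup : ∀ d : G.Dart, ¬ up d ↔ h d.snd < h d.fst := by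
    intro d
    have := hU.ne _ _ d.adj
    simp only [hup]
    constructor
    · intro h1; exact lt_of_le_of_ne (not_lt.1 h1) this.symm
    · intro h1; exact not_lt.2 h1.le
  have hfn : ∀ d : G.Dart, faceNext σ d = σ d.symm := fun d => rfl
  have hfst : ∀ d : G.Dart, (faceNext σ d).fst = d.snd := by
    intro d
    rw [hfn, hP.fst]
    rfl
  -- darts at a vertex
  have hupdart : ∀ v, v ≠ t → ∃ d : G.Dart, d.fst = v ∧ up d := by
    intro v hv
    obtain ⟨u, hu, hu'⟩ := hU.high v hv
    exact ⟨⟨(v, u), hu⟩, rfl, hu'⟩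
  have hdowndart : ∀ v, v ≠ s → ∃ d : G.Dart, d.fst = v ∧ ¬ up d := by
    intro v hv
    obtain ⟨u, hu, hu'⟩ := hU.low v hv
    exact ⟨⟨(v, u), hu⟩, rfl, (hnup _).2 hu'⟩
  -- rotation keeps the vertex along cycles
  have hcycfst : ∀ a d : G.Dart, σ.SameCycle a d → d.fst = a.fst := by
    intro a d had
    have := Fintype.ofFinite G.Dart
    obtain ⟨i, -, hi⟩ := had.exists_pow_eq'
    have key : ∀ i : ℕ, ((σ ^ i) a).fst = a.fst := by
      intro i
      induction i with
      | zero => simp
      | succ i ih => rw [pow_succ', Perm.mul_apply, hP.fst, ih]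
    rw [← hi, key]
  have : Fintype G.Dart := Fintype.ofFinite _
  let S0 : Finset V := Finset.univ.filter fun v => v ≠ s ∧ v ≠ t
  let As : Finset G.Dart := Finset.univ.filter fun d => up d ∧ ¬ up (σ d)
  let Bs : Finset G.Dart := Finset.univ.filter fun d => ¬ up d ∧ up (σ d)
  let Af : Finset G.Dart := Finset.univ.filter fun d => up d ∧ ¬ up (faceNext σ d)
  let Bf : Finset G.Dart := Finset.univ.filter fun d => ¬ up d ∧ up (faceNext σ d)
  let F := Quotient (Perm.SameCycle.setoid (faceNext σ))
  have : Fintype F := Fintype.ofFinite _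
  let φ : G.Dart → V := fun d => d.fst
  let ψ : G.Dart → F := fun d => Quotient.mk _ d
  have hAs : ∀ v ∈ S0, ∃ d ∈ As, φ d = v := by
    intro v hv
    simp only [S0, Finset.mem_filter, Finset.mem_univ, true_and] at hv
    obtain ⟨a, ha, ha'⟩ := hupdart v hv.2
    obtain ⟨b, hb, hb'⟩ := hdowndart v hv.1
    obtain ⟨d, hd1, hd2, hd3⟩ := cyc_change σ up (hP.cyc a b (ha.trans hb.symm)) ha' hb'
    exact ⟨d, by simp [As, hd2, hd3], (hcycfst a d hd1).trans ha⟩
  have hBs : ∀ v ∈ S0, ∃ d ∈ Bs, φ d = v := by
    intro v hv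
    simp only [S0, Finset.mem_filter, Finset.mem_univ, true_and] at hv
    obtain ⟨a, ha, ha'⟩ := hupdart v hv.2
    obtain ⟨b, hb, hb'⟩ := hdowndart v hv.1
    obtain ⟨d, hd1, hd2, hd3⟩ := cyc_change σ (fun d => ¬ up d)
      (hP.cyc b a (hb.trans ha.symm)) hb' (not_not.2 ha')
    exact ⟨d, by simpa [Bs] using ⟨hd2, not_not.1 hd3⟩, (hcycfst b d hd1).trans hb⟩
  have hface : ∀ a : G.Dart, (∃ d, (faceNext σ).SameCycle a d ∧ up d) ∧
      ∃ d, (faceNext σ).SameCycle a d ∧ ¬ up d := by
    intro a
    constructor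
    · by_contra hcon
      push Not at hcon
      refine no_mono_cycle (faceNext σ) (fun d => - h d.fst) a fun d hd => ?_
      have := (hnup d).1 (hcon d hd)
      rw [hfst]
      simpa using this
    · by_contra hcon
      push Not at hcon
      refine no_mono_cycle (faceNext σ) (fun d => h d.fst) a fun d hd => ?_
      rw [hfst]
      exact hcon d hd
  have hAf : ∀ x ∈ (Finset.univ : Finset F), ∃ d ∈ Af, ψ d = x := by
    intro x _
    induction x using Quotient.inductionOn with
    | h a =>
      obtain ⟨⟨b, hb, hb'⟩, ⟨c, hc, hc'⟩⟩ := hface a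
      obtain ⟨d, hd1, hd2, hd3⟩ := cyc_change (faceNext σ) up (hb.symm.trans hc) hb' hc'
      exact ⟨d, by simp [Af, hd2, hd3], Quotient.sound (hb.trans hd1).symm⟩
  have hBf : ∀ x ∈ (Finset.univ : Finset F), ∃ d ∈ Bf, ψ d = x := by
    intro x _
    induction x using Quotient.inductionOn with
    | h a =>
      obtain ⟨⟨b, hb, hb'⟩, ⟨c, hc, hc'⟩⟩ := hface a
      obtain ⟨d, hd1, hd2, hd3⟩ := cyc_change (faceNext σ) (fun d => ¬ up d)
        (hc.symm.trans hb) hc' (not_not.2 hb')
      exact ⟨d, by simpa [Bf] using ⟨hd2, not_not.1 hd3⟩, Quotient.sound (hc.trans hd1).symm⟩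
  -- the count
  have hle : ∀ {X : Type} [DecidableEq X] (A : Finset G.Dart) (S : Finset X) (f : G.Dart → X),
      (∀ x ∈ S, ∃ d ∈ A, f d = x) → S.card ≤ A.card := by
    intro X _ A S f hf
    have h1 : S ⊆ A.image f := fun x hx => by
      obtain ⟨d, hd, rfl⟩ := hf x hx
      exact Finset.mem_image_of_mem _ hd
    exact (Finset.card_le_card h1).trans Finset.card_image_le
  have c1 := hle As S0 φ hAs
  have c2 := hle Bs S0 φ hBs
  have c3 := hle Af Finset.univ ψ hAf
  have c4 := hle Bf Finset.univ ψ hBf
  have hst : s ≠ t := fun hh => by have := hU.lt; rw [hh] at this; exact lt_irrefl _ this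
  have cS0 : S0.card + 2 = Fintype.card V := by
    have h1 : S0 = (Finset.univ.erase s).erase t := by
      ext v; simp [S0, and_comm]
    rw [h1, Finset.card_erase_of_mem (by simp [hst.symm]), Finset.card_erase_of_mem (by simp),
      Finset.card_univ]
    have : 2 ≤ Fintype.card V := by
      have := Fintype.one_lt_card_iff.2 ⟨s, t, hst⟩
      omega
    omega
  have csymm : ∀ (p : G.Dart → Prop) [DecidablePred p] [DecidablePred fun d : G.Dart => p d.symm],
      (Finset.univ.filter fun d : G.Dart => p d.symm).card = (Finset.univ.filter p).card := by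
    intro p _ _
    refine Finset.card_bij (fun d _ => d.symm) ?_ ?_ ?_
    · intro d hd; simpa using hd
    · intro a _ b _ hab; exact SimpleGraph.Dart.symm_involutive.injective hab
    · intro b hb; exact ⟨b.symm, by simpa using hb, by simp⟩
  have cAf : Af.card = (Finset.univ.filter fun d : G.Dart => ¬ up d ∧ ¬ up (σ d)).card := by
    rw [← csymm (fun d => ¬ up d ∧ ¬ up (σ d))]
    congr 1
    ext d
    simp only [Af, Finset.mem_filter, Finset.mem_univ, true_and, hsymm, not_not, hfn]
  have cBf : Bf.card = (Finset.univ.filter fun d : G.Dart => up d ∧ up (σ d)).card := by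
    rw [← csymm (fun d => up d ∧ up (σ d))]
    congr 1
    ext d
    simp only [Bf, Finset.mem_filter, Finset.mem_univ, true_and, hsymm, hfn]
  have ctot : As.card + Bs.card + Af.card + Bf.card = Fintype.card G.Dart := by
    rw [cAf, cBf]
    have h1 := Finset.card_filter_add_card_filter_not (s := (Finset.univ : Finset G.Dart)) up
    have h2 := Finset.card_filter_add_card_filter_not
      (s := Finset.univ.filter up) (fun d => up (σ d))
    have h3 := Finset.card_filter_add_card_filter_not
      (s := Finset.univ.filter fun d => ¬ up d) (fun d => up (σ d))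
    rw [Finset.filter_filter, Finset.filter_filter] at h2 h3
    rw [Finset.card_univ] at h1
    simp only [As, Bs]
    omega
  have cD : Fintype.card G.Dart = 2 * Nat.card G.edgeSet := by
    have h1 := G.dart_card_eq_twice_card_edges
    rw [SimpleGraph.edgeFinset_card] at h1
    rw [Nat.card_eq_fintype_card]
    convert h1
  have ceul := hP.euler
  rw [Nat.card_eq_fintype_card (α := V)] at ceul
  have cF : Nat.card F = (Finset.univ : Finset F).card := by
    rw [Nat.card_eq_fintype_card, Finset.card_univ]
  change Fintype.card V + Nat.card F = _ at ceul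
  have e1 : As.card ≤ S0.card := by omega
  have e2 : Bs.card ≤ S0.card := by omega
  have e3 : Af.card ≤ (Finset.univ : Finset F).card := by omega
  have e4 : Bf.card ≤ (Finset.univ : Finset F).card := by omega
  have i1 := inj_of_count As S0 φ hAs e1
  have i2 := inj_of_count Bs S0 φ hBs e2
  have i3 := inj_of_count Af Finset.univ ψ hAf e3
  have i4 := inj_of_count Bf Finset.univ ψ hBf e4
  refine ⟨?_, ?_, ?_, ?_⟩
  · intro d e hde hd hd' he he'
    refine i1 ?_ ?_ hde
    · simpa [As] using ⟨hd, (hnup _).2 hd'⟩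
    · simpa [As] using ⟨he, (hnup _).2 he'⟩
  · intro d e hde hd hd' he he'
    refine i2 ?_ ?_ hde
    · simpa [Bs] using ⟨(hnup _).2 hd, hd'⟩
    · simpa [Bs] using ⟨(hnup _).2 he, he'⟩
  · intro d e hde hd hd' he he'
    refine i3 ?_ ?_ (Quotient.sound hde)
    · simpa [Af] using ⟨hd, (hnup _).2 hd'⟩
    · simpa [Af] using ⟨he, (hnup _).2 he'⟩
  · intro d e hde hd hd' he he'
    refine i4 ?_ ?_ (Quotient.sound hde)
    · simpa [Bf] using ⟨(hnup _).2 hd, hd'⟩
    · simpa [Bf] using ⟨(hnup _).2 he, he'⟩

end Vale.Agent.P235.R2.H90
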