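/-
P235-M, reduction, row C (helper90): states, fronts and the counts at the vertices.
-/
import Vale.Agent.P235.R2.H90.C1

namespace Vale.Agent.P235.R2.H90

open Equiv Vale.Agent.P235 Vale.Agent.P235.Red

open scoped Classical in
/-- indicator with values in `ℤ` -/
noncomputable def ind (p : Prop) : ℤ := if p then 1 else 0

theorem ind_true {p : Prop} (h : p) : ind p = 1 := by simp [ind, h]
theorem ind_false {p : Prop} (h : ¬ p) : ind p = 0 := by simp [ind, h]
theorem ind_nonneg (p : Prop) : 0 ≤ ind p := by unfold ind; split_ifs <;> simp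
theorem ind_le_one (p : Prop) : ind p ≤ 1 := by unfold ind; split_ifs <;> simp

variable {V : Type} {G : SimpleGraph V}

theorem finDart [Finite V] (G : SimpleGraph V) : Finite G.Dart := by
  classical
  have : Fintype V := Fintype.ofFinite V
  have : DecidableRel G.Adj := Classical.decRel _
  infer_instance

/-- faces -/
abbrev Fc (σ : Perm G.Dart) : Type := Quotient (Perm.SameCycle.setoid (faceNext σ))

/-- the face of a dart -/
def rf (σ : Perm G.Dart) (d : G.Dart) : Fc σ := Quotient.mk _ d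

/-- the face on the other side -/
def lf (σ : Perm G.Dart) (d : G.Dart) : Fc σ := rf σ d.symm

/-- upward darts -/
def up (h : V → ℝ) (d : G.Dart) : Prop := h d.fst < h d.snd

/-- the hypotheses of row C -/
structure Ctx (σ : Perm G.Dart) (d₀ : G.Dart) (h : V → ℝ) (s t : V) : Prop where
  conn : G.Connected
  map : PlaneMap G σ
  sf : s ∈ onFace σ d₀
  tf : t ∈ onFace σ d₀
  ud : UpDown G h s t

theorem rf_eq {σ : Perm G.Dart} {d e : G.Dart} : rf σ d = rf σ e ↔ (faceNext σ).SameCycle d e :=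
  Quotient.eq (r := Perm.SameCycle.setoid (faceNext σ))

theorem rf_next (σ : Perm G.Dart) (d : G.Dart) : rf σ (faceNext σ d) = rf σ d :=
  rf_eq.2 ⟨-1, by simp⟩

theorem faceNext_apply (σ : Perm G.Dart) (d : G.Dart) : faceNext σ d = σ d.symm := rfl

theorem rf_sigma (σ : Perm G.Dart) (d : G.Dart) : rf σ (σ d) = lf σ d := by
  have := rf_next σ d.symm
  rwa [faceNext_apply, SimpleGraph.Dart.symm_symm] at this

theorem lf_symm (σ : Perm G.Dart) (d : G.Dart) : lf σ d.symm = rf σ d := by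
  rw [lf, SimpleGraph.Dart.symm_symm]

theorem rf_symm (σ : Perm G.Dart) (d : G.Dart) : rf σ d.symm = lf σ d := rfl

namespace Ctx

variable {σ : Perm G.Dart} {d₀ : G.Dart} {h : V → ℝ} {s t : V}

theorem up_symm (C : Ctx σ d₀ h s t) (d : G.Dart) : up h d.symm ↔ ¬ up h d := by
  have := C.ud.ne _ _ d.adj
  change h d.snd < h d.fst ↔ ¬ h d.fst < h d.snd
  constructor
  · intro h1; exact not_lt.2 h1.le
  · intro h1; exact lt_of_le_of_ne (not_lt.1 h1) this.symm

theorem not_up (C : Ctx σ d₀ h s t) (d : G.Dart) : ¬ up h d ↔ h d.snd < h d.fst :=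
  (C.up_symm d).symm

theorem next_fst (C : Ctx σ d₀ h s t) (d : G.Dart) : (faceNext σ d).fst = d.snd := by
  rw [faceNext_apply, C.map.fst]; rfl

theorem st (C : Ctx σ d₀ h s t) : s ≠ t := fun hh => by
  have := C.ud.lt; rw [hh] at this; exact lt_irrefl _ this

theorem uniqA [Finite V] (C : Ctx σ d₀ h s t) {d e : G.Dart} (hde : d.fst = e.fst)
    (h1 : up h d) (h2 : ¬ up h (σ d)) (h3 : up h e) (h4 : ¬ up h (σ e)) : d = e :=
  (rowC1 V G σ h s t C.map C.ud).1 d e hde h1 ((C.not_up _).1 h2) h3 ((C.not_up _).1 h4)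

theorem uniqB [Finite V] (C : Ctx σ d₀ h s t) {d e : G.Dart} (hde : d.fst = e.fst)
    (h1 : ¬ up h d) (h2 : up h (σ d)) (h3 : ¬ up h e) (h4 : up h (σ e)) : d = e :=
  (rowC1 V G σ h s t C.map C.ud).2.1 d e hde ((C.not_up _).1 h1) h2 ((C.not_up _).1 h3) h4

theorem faceA [Finite V] (C : Ctx σ d₀ h s t) {d e : G.Dart} (hde : rf σ d = rf σ e)
    (h1 : up h d) (h2 : ¬ up h (faceNext σ d)) (h3 : up h e) (h4 : ¬ up h (faceNext σ e)) :
    d = e :=
  (rowC1 V G σ h s t C.map C.ud).2.2.1 d e (rf_eq.1 hde) h1 ((C.not_up _).1 h2) h3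
    ((C.not_up _).1 h4)

theorem faceB [Finite V] (C : Ctx σ d₀ h s t) {d e : G.Dart} (hde : rf σ d = rf σ e)
    (h1 : ¬ up h d) (h2 : up h (faceNext σ d)) (h3 : ¬ up h e) (h4 : up h (faceNext σ e)) :
    d = e :=
  (rowC1 V G σ h s t C.map C.ud).2.2.2 d e (rf_eq.1 hde) ((C.not_up _).1 h1) h2
    ((C.not_up _).1 h3) h4

theorem s_min [Finite V] (C : Ctx σ d₀ h s t) (v : V) : h s ≤ h v := by
  have : Nonempty V := ⟨s⟩
  obtain ⟨m, hm⟩ := Finite.exists_min h
  have hms : m = s := by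
    by_contra hne
    obtain ⟨u, -, hu⟩ := C.ud.low m hne
    exact absurd (hm u) (not_le.2 hu)
  rw [← hms]; exact hm v

theorem t_max [Finite V] (C : Ctx σ d₀ h s t) (v : V) : h v ≤ h t := by
  have : Nonempty V := ⟨s⟩
  obtain ⟨m, hm⟩ := Finite.exists_max h
  have hmt : m = t := by
    by_contra hne
    obtain ⟨u, -, hu⟩ := C.ud.high m hne
    exact absurd (hm u) (not_le.2 hu)
  rw [← hmt]; exact hm v

theorem up_of_fst_s [Finite V] (C : Ctx σ d₀ h s t) {d : G.Dart} (hd : d.fst = s) : up h d := by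
  by_contra hcon
  have h1 := (C.not_up d).1 hcon
  rw [hd] at h1
  exact absurd (C.s_min d.snd) (not_le.2 h1)

theorem not_up_of_fst_t [Finite V] (C : Ctx σ d₀ h s t) {d : G.Dart} (hd : d.fst = t) :
    ¬ up h d := by
  intro hcon
  unfold up at hcon
  rw [hd] at hcon
  exact absurd (C.t_max d.snd) (not_le.2 hcon)

theorem fst_ne_t [Finite V] (C : Ctx σ d₀ h s t) {d : G.Dart} (hd : up h d) : d.fst ≠ t :=
  fun hh => C.not_up_of_fst_t hh hd

theorem snd_ne_s [Finite V] (C : Ctx σ d₀ h s t) {d : G.Dart} (hd : up h d) : d.snd ≠ s :=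
  fun hh => (C.up_symm d).1 (C.up_of_fst_s (d := d.symm) hh) hd

/-- the down-up angle of the outer face is at `s` -/
theorem exists_bS [Finite V] (C : Ctx σ d₀ h s t) : ∃ d : G.Dart, rf σ d = rf σ d₀ ∧ ¬ up h d ∧
    up h (faceNext σ d) ∧ d.snd = s := by
  obtain ⟨d', hd', hs⟩ := C.sf
  refine ⟨(faceNext σ).symm d', ?_, ?_, ?_, ?_⟩
  · have h1 := rf_next σ ((faceNext σ).symm d')
    rw [Equiv.apply_symm_apply] at h1
    rw [← h1]; exact (rf_eq.2 hd').symm
  · have h1 := C.next_fst ((faceNext σ).symm d')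
    rw [Equiv.apply_symm_apply, hs] at h1
    exact fun hh => C.snd_ne_s hh h1.symm
  · rw [Equiv.apply_symm_apply]; exact C.up_of_fst_s hs
  · have h1 := C.next_fst ((faceNext σ).symm d')
    rw [Equiv.apply_symm_apply, hs] at h1
    exact h1.symm

/-- the up-down angle of the outer face is at `t` -/
theorem exists_aT [Finite V] (C : Ctx σ d₀ h s t) : ∃ d : G.Dart, rf σ d = rf σ d₀ ∧ up h d ∧
    ¬ up h (faceNext σ d) ∧ d.snd = t := by
  obtain ⟨d', hd', ht⟩ := C.tf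
  refine ⟨(faceNext σ).symm d', ?_, ?_, ?_, ?_⟩
  · have h1 := rf_next σ ((faceNext σ).symm d')
    rw [Equiv.apply_symm_apply] at h1
    rw [← h1]; exact (rf_eq.2 hd').symm
  · have h1 := C.next_fst ((faceNext σ).symm d')
    rw [Equiv.apply_symm_apply, ht] at h1
    by_contra hh
    have h2 := (C.up_symm _).2 hh
    exact C.fst_ne_t h2 h1.symm
  · rw [Equiv.apply_symm_apply]; exact C.not_up_of_fst_t ht
  · have h1 := C.next_fst ((faceNext σ).symm d')
    rw [Equiv.apply_symm_apply, ht] at h1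
    exact h1.symm

/-- up-up angles of the outer face are at `s` -/
theorem noUU [Finite V] (C : Ctx σ d₀ h s t) {d : G.Dart} (h1 : up h d) (h2 : up h (σ d))
    (h3 : lf σ d = rf σ d₀) : d.fst = s := by
  obtain ⟨b, hb1, hb2, hb3, hb4⟩ := C.exists_bS
  have h4 : d.symm = b := C.faceB (by rw [rf_symm, h3, hb1]) ((C.up_symm d.symm).1 (by simpa))
    (by rw [faceNext_apply]; simpa using h2) hb2 hb3
  have : d.symm.snd = s := by rw [h4, hb4]
  exact this

/-- down-down angles of the outer face are at `t` -/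
theorem noDD [Finite V] (C : Ctx σ d₀ h s t) {d : G.Dart} (h1 : ¬ up h d) (h2 : ¬ up h (σ d))
    (h3 : lf σ d = rf σ d₀) : d.fst = t := by
  obtain ⟨b, hb1, hb2, hb3, hb4⟩ := C.exists_aT
  have h4 : d.symm = b := C.faceA (by rw [rf_symm, h3, hb1]) ((C.up_symm d).2 h1)
    (by rw [faceNext_apply]; simpa using h2) hb2 hb3
  have : d.symm.snd = t := by rw [h4, hb4]
  exact this

theorem cyc_fst (C : Ctx σ d₀ h s t) [Finite V] {a d : G.Dart} (had : σ.SameCycle a d) :
    d.fst = a.fst := by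
  classical
  have : Finite G.Dart := finDart G
  have : Fintype G.Dart := Fintype.ofFinite G.Dart
  obtain ⟨i, -, hi⟩ := had.exists_pow_eq'
  have key : ∀ i : ℕ, ((σ ^ i) a).fst = a.fst := by
    intro i
    induction i with
    | zero => simp
    | succ i ih => rw [pow_succ', Perm.mul_apply, C.map.fst, ih]
  rw [← hi, key]

theorem exists_up (C : Ctx σ d₀ h s t) {v : V} (hv : v ≠ t) : ∃ d : G.Dart, d.fst = v ∧ up h d := by
  obtain ⟨u, hu, hu'⟩ := C.ud.high v hv
  exact ⟨⟨(v, u), hu⟩, rfl, hu'⟩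

theorem exists_down (C : Ctx σ d₀ h s t) {v : V} (hv : v ≠ s) :
    ∃ d : G.Dart, d.fst = v ∧ ¬ up h d := by
  obtain ⟨u, hu, hu'⟩ := C.ud.low v hv
  exact ⟨⟨(v, u), hu⟩, rfl, (C.not_up _).2 hu'⟩

/-- the up-down angle at `v` -/
theorem exists_a [Finite V] (C : Ctx σ d₀ h s t) {v : V} (hs : v ≠ s) (ht : v ≠ t) :
    ∃ a : G.Dart, a.fst = v ∧ up h a ∧ ¬ up h (σ a) := by
  have : Finite G.Dart := finDart G
  obtain ⟨a, ha, ha'⟩ := C.exists_up ht
  obtain ⟨b, hb, hb'⟩ := C.exists_down hs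
  obtain ⟨d, hd1, hd2, hd3⟩ := cyc_change σ (up h) (C.map.cyc a b (ha.trans hb.symm)) ha' hb'
  exact ⟨d, (C.cyc_fst hd1).trans ha, hd2, hd3⟩

/-- the down-up angle at `v` -/
theorem exists_b [Finite V] (C : Ctx σ d₀ h s t) {v : V} (hs : v ≠ s) (ht : v ≠ t) :
    ∃ a : G.Dart, a.fst = v ∧ ¬ up h a ∧ up h (σ a) := by
  have : Finite G.Dart := finDart G
  obtain ⟨a, ha, ha'⟩ := C.exists_up ht
  obtain ⟨b, hb, hb'⟩ := C.exists_down hs
  obtain ⟨d, hd1, hd2, hd3⟩ := cyc_change σ (fun d => ¬ up h d) (C.map.cyc b a (hb.trans ha.symm))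
    hb' (not_not.2 ha')
  exact ⟨d, (C.cyc_fst hd1).trans hb, hd2, not_not.1 hd3⟩

end Ctx

/-- states of the sweep: sets of swept faces -/
structure State (σ : Perm G.Dart) (d₀ : G.Dart) (h : V → ℝ) (W : Set (Fc σ)) : Prop where
  out : rf σ d₀ ∉ W
  closed : ∀ d : G.Dart, up h d → rf σ d ∈ W → lf σ d ∈ W ∨ lf σ d = rf σ d₀

/-- the front of a state -/
def Front (σ : Perm G.Dart) (d₀ : G.Dart) (h : V → ℝ) (W : Set (Fc σ)) : Set G.Dart :=
  {d | up h d ∧ (lf σ d ∈ W ∨ lf σ d = rf σ d₀) ∧ rf σ d ∉ W}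

/-- sums over the darts at `v` are invariant under the rotation -/
theorem sum_sigma [Fintype G.Dart] [DecidableEq V] {σ : Perm G.Dart} (hσ : ∀ d, (σ d).fst = d.fst)
    (v : V) (g : G.Dart → ℤ) :
    ∑ d : G.Dart, (if d.fst = v then g (σ d) else 0) = ∑ d : G.Dart, if d.fst = v then g d else 0 := by
  rw [← Equiv.sum_comp σ fun d => if d.fst = v then g d else 0]
  exact Finset.sum_congr rfl fun d _ => by rw [hσ]

section counts

variable {σ : Perm G.Dart} {d₀ : G.Dart} {h : V → ℝ} {s t : V} {W : Set (Fc σ)}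

/-- number of front darts leaving `v` -/
theorem count_out [Fintype G.Dart] [DecidableEq V] (C : Ctx σ d₀ h s t) (hW : State σ d₀ h W)
    (v : V) :
    ∑ d : G.Dart, (if d.fst = v then ind (d ∈ Front σ d₀ h W) else 0) =
    ∑ d : G.Dart, if d.fst = v then
      (ind (up h d ∧ ¬ up h (σ d) ∧ (lf σ d ∈ W ∨ lf σ d = rf σ d₀))
        - ind (¬ up h d ∧ up h (σ d) ∧ lf σ d ∈ W)
        + ind (up h d ∧ up h (σ d) ∧ lf σ d = rf σ d₀)) else 0 := by
  have h1 : ∀ d : G.Dart, ind (d ∈ Front σ d₀ h W) =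
      ind (up h d ∧ (lf σ d ∈ W ∨ lf σ d = rf σ d₀)) - ind (up h d ∧ rf σ d ∈ W) := by
    intro d
    have hc := hW.closed d
    by_cases hu : up h d
    · by_cases hr : rf σ d ∈ W
      · have := hc hu hr
        rw [ind_false (fun hh => hh.2.2 hr), ind_true ⟨hu, this⟩, ind_true ⟨hu, hr⟩]; ring
      · rw [ind_false (p := up h d ∧ rf σ d ∈ W) (fun hh => hr hh.2)]
        by_cases hl : lf σ d ∈ W ∨ lf σ d = rf σ d₀
        · rw [ind_true (p := d ∈ Front σ d₀ h W) ⟨hu, hl, hr⟩,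
            ind_true (p := up h d ∧ (lf σ d ∈ W ∨ lf σ d = rf σ d₀)) ⟨hu, hl⟩]; ring
        · rw [ind_false (fun hh => hl hh.2.1), ind_false (fun hh => hl hh.2)]; ring
    · rw [ind_false (fun hh => hu hh.1), ind_false (fun hh => hu hh.1), ind_false
        (fun hh => hu hh.1)]; ring
  have h2 := sum_sigma C.map.fst v fun d => ind (up h d ∧ rf σ d ∈ W)
  have h3 : ∀ d : G.Dart, (if d.fst = v then ind (d ∈ Front σ d₀ h W) else 0) =
      (if d.fst = v then ind (up h d ∧ (lf σ d ∈ W ∨ lf σ d = rf σ d₀)) else 0) -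
      (if d.fst = v then ind (up h d ∧ rf σ d ∈ W) else 0) := by
    intro d; split_ifs
    · exact h1 d
    · ring
  rw [Finset.sum_congr rfl fun d _ => h3 d, Finset.sum_sub_distrib, ← h2,
    ← Finset.sum_sub_distrib]
  refine Finset.sum_congr rfl fun d _ => ?_
  split_ifs with hv
  · rw [rf_sigma]
    have hout := hW.out
    have h4 : lf σ d = rf σ d₀ → lf σ d ∉ W := fun hh => hh ▸ hout
    by_cases a1 : up h d <;> by_cases a2 : up h (σ d) <;> by_cases a3 : lf σ d ∈ W <;>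
      by_cases a4 : lf σ d = rf σ d₀ <;> simp [ind, a1, a2, a3, a4] <;> simp_all
  · ring

/-- number of front darts entering `v` -/
theorem count_in [Finite V] [Fintype G.Dart] [DecidableEq V] (C : Ctx σ d₀ h s t)
    (hW : State σ d₀ h W) (v : V) :
    ∑ d : G.Dart, (if d.snd = v then ind (d ∈ Front σ d₀ h W) else 0) =
    ∑ d : G.Dart, if d.fst = v then
      (ind (up h d ∧ ¬ up h (σ d) ∧ (lf σ d ∈ W ∨ lf σ d = rf σ d₀))
        - ind (¬ up h d ∧ up h (σ d) ∧ lf σ d ∈ W)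
        + ind (¬ up h d ∧ ¬ up h (σ d) ∧ lf σ d = rf σ d₀)) else 0 := by
  rw [← Equiv.sum_comp (SimpleGraph.Dart.symm_involutive.toPerm _)]
  have h1 : ∀ d : G.Dart, ind (d.symm ∈ Front σ d₀ h W) =
      ind (¬ up h d ∧ (rf σ d ∈ W ∨ rf σ d = rf σ d₀)) - ind (¬ up h d ∧ lf σ d ∈ W) := by
    intro d
    have hc := hW.closed d.symm
    rw [C.up_symm, lf_symm, rf_symm] at hc
    have hm : d.symm ∈ Front σ d₀ h W ↔
        (¬ up h d ∧ (rf σ d ∈ W ∨ rf σ d = rf σ d₀) ∧ lf σ d ∉ W) := by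
      change (up h d.symm ∧ (lf σ d.symm ∈ W ∨ lf σ d.symm = rf σ d₀) ∧ rf σ d.symm ∉ W) ↔ _
      rw [C.up_symm, lf_symm, rf_symm]
    rw [show ind (d.symm ∈ Front σ d₀ h W) = ind (¬ up h d ∧ (rf σ d ∈ W ∨ rf σ d = rf σ d₀) ∧
      lf σ d ∉ W) by rw [hm]]
    by_cases hu : ¬ up h d
    · by_cases hr : lf σ d ∈ W
      · have := hc hu hr
        rw [ind_false (fun hh => hh.2.2 hr), ind_true ⟨hu, this⟩, ind_true ⟨hu, hr⟩]; ring
      · rw [ind_false (p := ¬ up h d ∧ lf σ d ∈ W) (fun hh => hr hh.2)]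
        by_cases hl : rf σ d ∈ W ∨ rf σ d = rf σ d₀
        · rw [ind_true (p := ¬ up h d ∧ (rf σ d ∈ W ∨ rf σ d = rf σ d₀) ∧ lf σ d ∉ W) ⟨hu, hl, hr⟩,
            ind_true (p := ¬ up h d ∧ (rf σ d ∈ W ∨ rf σ d = rf σ d₀)) ⟨hu, hl⟩]; ring
        · rw [ind_false (fun hh => hl hh.2.1), ind_false (fun hh => hl hh.2)]; ring
    · rw [ind_false (fun hh => hu hh.1), ind_false (fun hh => hu hh.1), ind_false
        (fun hh => hu hh.1)]; ring
  have h2 := sum_sigma C.map.fst v fun d =>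
    ind (¬ up h d ∧ (rf σ d ∈ W ∨ rf σ d = rf σ d₀))
  have h3 : ∀ d : G.Dart, (if (SimpleGraph.Dart.symm_involutive.toPerm _ d).snd = v then
      ind (SimpleGraph.Dart.symm_involutive.toPerm _ d ∈ Front σ d₀ h W) else 0) =
      (if d.fst = v then ind (¬ up h d ∧ (rf σ d ∈ W ∨ rf σ d = rf σ d₀)) else 0) -
      (if d.fst = v then ind (¬ up h d ∧ lf σ d ∈ W) else 0) := by
    intro d
    change (if d.fst = v then ind (d.symm ∈ Front σ d₀ h W) else 0) = _
    split_ifs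
    · exact h1 d
    · ring
  rw [Finset.sum_congr rfl fun d _ => h3 d, Finset.sum_sub_distrib, ← h2,
    ← Finset.sum_sub_distrib]
  refine Finset.sum_congr rfl fun d _ => ?_
  split_ifs with hv
  · rw [rf_sigma]
    have hout := hW.out
    have h4 : lf σ d = rf σ d₀ → lf σ d ∉ W := fun hh => hh ▸ hout
    by_cases a1 : up h d <;> by_cases a2 : up h (σ d) <;> by_cases a3 : lf σ d ∈ W <;>
      by_cases a4 : lf σ d = rf σ d₀ <;> simp [ind, a1, a2, a3, a4] <;> simp_all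
  · ring

end counts

end Vale.Agent.P235.R2.H90
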