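/-
P235-M, reduction, row C (helper90): rows C2.1 and C2.1'.
-/
import Vale.Agent.P235.R2.H90.C2
import Vale.Agent.P235.R2.H934.CDefs

namespace Vale.Agent.P235.R2.H90

open Equiv Vale.Agent.P235 Vale.Agent.P235.Red

theorem uniq_of_sum {D : Type} [Fintype D] (P F : D → Prop) [DecidablePred P]
    (hsum : ∑ d : D, (if P d then ind (F d) else 0) ≤ 1) {d e : D} (hd : P d) (he : P e)
    (fd : F d) (fe : F e) : d = e := by
  classical
  by_contra hne
  have h1 : ∑ x ∈ ({d, e} : Finset D), (if P x then ind (F x) else 0) ≤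
      ∑ x : D, (if P x then ind (F x) else 0) :=
    Finset.sum_le_sum_of_subset_of_nonneg (Finset.subset_univ _) fun x _ _ => by
      split_ifs
      · exact ind_nonneg _
      · exact le_rfl
  rw [Finset.sum_pair hne, if_pos hd, if_pos he, ind_true fd, ind_true fe] at h1
  linarith

theorem ex_iff_sum {D : Type} [Fintype D] (P F : D → Prop) [DecidablePred P] :
    (∃ d, F d ∧ P d) ↔ 1 ≤ ∑ d : D, (if P d then ind (F d) else 0) := by
  constructor
  · rintro ⟨d, h1, h2⟩
    have := Finset.single_le_sum (f := fun d : D => if P d then ind (F d) else 0)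
      (fun x _ => by
        split_ifs
        · exact ind_nonneg _
        · exact le_rfl) (Finset.mem_univ d)
    simpa [if_pos h2, ind_true h1] using this
  · intro h1
    by_contra hcon
    push Not at hcon
    have : ∑ d : D, (if P d then ind (F d) else 0) = 0 := Finset.sum_eq_zero fun d _ => by
      split_ifs with h2
      · exact ind_false fun h3 => hcon d h3 h2
      · rfl
    omega

section

variable {V : Type} {G : SimpleGraph V}
variable {σ : Perm G.Dart} {d₀ : G.Dart} {h : V → ℝ} {s t : V} {W : Set (Fc σ)}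

/-- the common main term of the counts -/
theorem main_term [Finite V] [Fintype G.Dart] [DecidableEq V] (C : Ctx σ d₀ h s t)
    {v : V} {a b : G.Dart} (a1 : a.fst = v) (a2 : up h a) (a3 : ¬ up h (σ a))
    (b1 : b.fst = v) (b2 : ¬ up h b) (b3 : up h (σ b)) :
    ∑ d : G.Dart, (if d.fst = v then
      (ind (up h d ∧ ¬ up h (σ d) ∧ (lf σ d ∈ W ∨ lf σ d = rf σ d₀))
        - ind (¬ up h d ∧ up h (σ d) ∧ lf σ d ∈ W)) else 0) =
    ind (lf σ a ∈ W ∨ lf σ a = rf σ d₀) - ind (lf σ b ∈ W) := by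
  classical
  have key : ∀ d : G.Dart, (if d.fst = v then
      (ind (up h d ∧ ¬ up h (σ d) ∧ (lf σ d ∈ W ∨ lf σ d = rf σ d₀))
        - ind (¬ up h d ∧ up h (σ d) ∧ lf σ d ∈ W)) else 0) =
      (if d = a then ind (lf σ a ∈ W ∨ lf σ a = rf σ d₀) else 0) -
      (if d = b then ind (lf σ b ∈ W) else 0) := by
    intro d
    by_cases hd : d.fst = v
    · rw [if_pos hd]
      congr 1
      · by_cases hda : d = a
        · subst hda
          rw [if_pos rfl]
          congr 1
          exact propext ⟨fun hh => hh.2.2, fun hh => ⟨a2, a3, hh⟩⟩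
        · rw [if_neg hda]
          exact ind_false fun hh => hda (C.uniqA (hd.trans a1.symm) hh.1 hh.2.1 a2 a3)
      · by_cases hdb : d = b
        · subst hdb
          rw [if_pos rfl]
          congr 1
          exact propext ⟨fun hh => hh.2.2, fun hh => ⟨b2, b3, hh⟩⟩
        · rw [if_neg hdb]
          exact ind_false fun hh => hdb (C.uniqB (hd.trans b1.symm) hh.1 hh.2.1 b2 b3)
    · have na : d ≠ a := by rintro rfl; exact hd a1
      have nb : d ≠ b := by rintro rfl; exact hd b1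
      rw [if_neg hd, if_neg na, if_neg nb]
      ring
  rw [Finset.sum_congr rfl fun d _ => key d, Finset.sum_sub_distrib]
  simp

theorem n_out [Finite V] [Fintype G.Dart] [DecidableEq V] (C : Ctx σ d₀ h s t)
    (hW : State σ d₀ h W) {v : V} (hs : v ≠ s) :
    ∑ d : G.Dart, (if d.fst = v then ind (d ∈ Front σ d₀ h W) else 0) =
    ∑ d : G.Dart, (if d.fst = v then
      (ind (up h d ∧ ¬ up h (σ d) ∧ (lf σ d ∈ W ∨ lf σ d = rf σ d₀))
        - ind (¬ up h d ∧ up h (σ d) ∧ lf σ d ∈ W)) else 0) := by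
  rw [count_out C hW v]
  refine Finset.sum_congr rfl fun d _ => ?_
  split_ifs with hd
  · rw [ind_false (p := up h d ∧ up h (σ d) ∧ lf σ d = rf σ d₀)
      (fun hh => hs (hd ▸ C.noUU hh.1 hh.2.1 hh.2.2))]
    ring
  · rfl

theorem n_in [Finite V] [Fintype G.Dart] [DecidableEq V] (C : Ctx σ d₀ h s t)
    (hW : State σ d₀ h W) {v : V} (ht : v ≠ t) :
    ∑ d : G.Dart, (if d.snd = v then ind (d ∈ Front σ d₀ h W) else 0) =
    ∑ d : G.Dart, (if d.fst = v then
      (ind (up h d ∧ ¬ up h (σ d) ∧ (lf σ d ∈ W ∨ lf σ d = rf σ d₀))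
        - ind (¬ up h d ∧ up h (σ d) ∧ lf σ d ∈ W)) else 0) := by
  rw [count_in C hW v]
  refine Finset.sum_congr rfl fun d _ => ?_
  split_ifs with hd
  · rw [ind_false (p := ¬ up h d ∧ ¬ up h (σ d) ∧ lf σ d = rf σ d₀)
      (fun hh => ht (hd ▸ C.noDD hh.1 hh.2.1 hh.2.2))]
    ring
  · rfl

theorem n_out_s [Finite V] [Fintype G.Dart] [DecidableEq V] (C : Ctx σ d₀ h s t)
    (hW : State σ d₀ h W) :
    ∑ d : G.Dart, (if d.fst = s then ind (d ∈ Front σ d₀ h W) else 0) = 1 := by
  classical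
  rw [count_out C hW s]
  obtain ⟨b, hb1, hb2, hb3, hb4⟩ := C.exists_bS
  have key : ∀ d : G.Dart, (if d.fst = s then
      (ind (up h d ∧ ¬ up h (σ d) ∧ (lf σ d ∈ W ∨ lf σ d = rf σ d₀))
        - ind (¬ up h d ∧ up h (σ d) ∧ lf σ d ∈ W)
        + ind (up h d ∧ up h (σ d) ∧ lf σ d = rf σ d₀)) else 0) =
      if d = b.symm then 1 else 0 := by
    intro d
    by_cases hd : d.fst = s
    · have u1 : up h d := C.up_of_fst_s hd
      have u2 : up h (σ d) := C.up_of_fst_s (by rw [C.map.fst, hd])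
      rw [if_pos hd, ind_false (fun hh => hh.2.1 u2), ind_false (fun hh => hh.1 u1)]
      by_cases hdb : d = b.symm
      · subst hdb
        rw [if_pos rfl, ind_true ⟨u1, u2, by rw [lf_symm, hb1]⟩]; ring
      · rw [if_neg hdb, ind_false]
        · ring
        · rintro ⟨-, -, h3⟩
          refine hdb ?_
          have h4 : d.symm = b := C.faceB (by rw [rf_symm, h3, hb1])
            ((C.up_symm d.symm).1 (by simpa)) (by rw [faceNext_apply]; simpa using u2) hb2 hb3
          rw [← h4, SimpleGraph.Dart.symm_symm]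
    · rw [if_neg hd, if_neg]
      rintro rfl
      exact hd hb4
  rw [Finset.sum_congr rfl fun d _ => key d]
  simp

theorem n_in_t [Finite V] [Fintype G.Dart] [DecidableEq V] (C : Ctx σ d₀ h s t)
    (hW : State σ d₀ h W) :
    ∑ d : G.Dart, (if d.snd = t then ind (d ∈ Front σ d₀ h W) else 0) = 1 := by
  classical
  rw [count_in C hW t]
  obtain ⟨b, hb1, hb2, hb3, hb4⟩ := C.exists_aT
  have key : ∀ d : G.Dart, (if d.fst = t then
      (ind (up h d ∧ ¬ up h (σ d) ∧ (lf σ d ∈ W ∨ lf σ d = rf σ d₀))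
        - ind (¬ up h d ∧ up h (σ d) ∧ lf σ d ∈ W)
        + ind (¬ up h d ∧ ¬ up h (σ d) ∧ lf σ d = rf σ d₀)) else 0) =
      if d = b.symm then 1 else 0 := by
    intro d
    by_cases hd : d.fst = t
    · have u1 : ¬ up h d := C.not_up_of_fst_t hd
      have u2 : ¬ up h (σ d) := C.not_up_of_fst_t (by rw [C.map.fst, hd])
      rw [if_pos hd, ind_false (fun hh => u1 hh.1), ind_false (fun hh => u2 hh.2.1)]
      by_cases hdb : d = b.symm
      · subst hdb
        rw [if_pos rfl, ind_true ⟨u1, u2, by rw [lf_symm, hb1]⟩]; ring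
      · rw [if_neg hdb, ind_false]
        · ring
        · rintro ⟨-, -, h3⟩
          refine hdb ?_
          have h4 : d.symm = b := C.faceA (by rw [rf_symm, h3, hb1])
            ((C.up_symm d).2 u1) (by rw [faceNext_apply]; simpa using u2) hb2 hb3
          rw [← h4, SimpleGraph.Dart.symm_symm]
    · rw [if_neg hd, if_neg]
      rintro rfl
      exact hd hb4
  rw [Finset.sum_congr rfl fun d _ => key d]
  simp

/-- at most one front dart leaves a vertex -/
theorem out_le [Finite V] [Fintype G.Dart] [DecidableEq V] (C : Ctx σ d₀ h s t)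
    (hW : State σ d₀ h W) (v : V) :
    ∑ d : G.Dart, (if d.fst = v then ind (d ∈ Front σ d₀ h W) else 0) ≤ 1 := by
  by_cases hs : v = s
  · subst hs; exact (n_out_s C hW).le
  by_cases ht : v = t
  · subst ht
    rw [Finset.sum_eq_zero]
    · exact zero_le_one
    · intro d _
      split_ifs with hd
      · exact ind_false fun hh => C.not_up_of_fst_t hd hh.1
      · rfl
  · obtain ⟨a, a1, a2, a3⟩ := C.exists_a hs ht
    obtain ⟨b, b1, b2, b3⟩ := C.exists_b hs ht
    rw [n_out C hW hs, main_term C a1 a2 a3 b1 b2 b3]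
    have h1 := ind_le_one (lf σ a ∈ W ∨ lf σ a = rf σ d₀)
    have h2 := ind_nonneg (lf σ b ∈ W)
    linarith

/-- at most one front dart enters a vertex -/
theorem in_le [Finite V] [Fintype G.Dart] [DecidableEq V] (C : Ctx σ d₀ h s t)
    (hW : State σ d₀ h W) (v : V) :
    ∑ d : G.Dart, (if d.snd = v then ind (d ∈ Front σ d₀ h W) else 0) ≤ 1 := by
  by_cases ht : v = t
  · subst ht; exact (n_in_t C hW).le
  by_cases hs : v = s
  · subst hs
    rw [Finset.sum_eq_zero]
    · exact zero_le_one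
    · intro d _
      split_ifs with hd
      · exact ind_false fun hh => C.snd_ne_s hh.1 hd
      · rfl
  · obtain ⟨a, a1, a2, a3⟩ := C.exists_a hs ht
    obtain ⟨b, b1, b2, b3⟩ := C.exists_b hs ht
    rw [n_in C hW ht, main_term C a1 a2 a3 b1 b2 b3]
    have h1 := ind_le_one (lf σ a ∈ W ∨ lf σ a = rf σ d₀)
    have h2 := ind_nonneg (lf σ b ∈ W)
    linarith

end

theorem rowC21 : RowC21 := by
  classical
  intro V _ G σ d₀ h s t C' W hW'
  have C : Ctx σ d₀ h s t := ⟨C'.conn, C'.map, C'.hs, C'.ht, C'.ud⟩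
  have hW : State σ d₀ h W := ⟨hW'.out, hW'.closed⟩
  have : Finite G.Dart := finDart G
  have : Fintype G.Dart := Fintype.ofFinite _
  refine ⟨?_, ?_, ?_, ?_, ?_⟩
  · intro d hd e he hde
    exact uniq_of_sum (fun x : G.Dart => x.fst = e.fst) (fun x => x ∈ Front σ d₀ h W)
      (out_le C hW e.fst) hde rfl hd he
  · intro d hd e he hde
    exact uniq_of_sum (fun x : G.Dart => x.snd = e.snd) (fun x => x ∈ Front σ d₀ h W)
      (in_le C hW e.snd) hde rfl hd he
  · intro v hs ht
    change (∃ d, d ∈ Front σ d₀ h W ∧ d.fst = v) ↔ ∃ d, d ∈ Front σ d₀ h W ∧ d.snd = v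
    rw [ex_iff_sum (fun d : G.Dart => d.fst = v) (fun d => d ∈ Front σ d₀ h W),
      ex_iff_sum (fun d : G.Dart => d.snd = v) (fun d => d ∈ Front σ d₀ h W),
      n_out C hW hs, n_in C hW ht]
  · exact (ex_iff_sum (fun d : G.Dart => d.fst = s) (fun d => d ∈ Front σ d₀ h W)).2
      (n_out_s C hW).ge
  · exact (ex_iff_sum (fun d : G.Dart => d.snd = t) (fun d => d ∈ Front σ d₀ h W)).2
      (n_in_t C hW).ge

theorem rowC21' : RowC21' := by
  classical
  intro V _ G σ d₀ h s t C' v hs ht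
  have C : Ctx σ d₀ h s t := ⟨C'.conn, C'.map, C'.hs, C'.ht, C'.ud⟩
  have : Finite G.Dart := finDart G
  have : Fintype G.Dart := Fintype.ofFinite _
  obtain ⟨a, a1, a2, a3⟩ := C.exists_a hs ht
  obtain ⟨b, b1, b2, b3⟩ := C.exists_b hs ht
  refine ⟨lf σ a, lf σ b, fun W hW' => ?_⟩
  have hW : State σ d₀ h W := ⟨hW'.out, hW'.closed⟩
  change (∃ d, d ∈ Front σ d₀ h W ∧ d.fst = v) ↔ (lf σ a ∈ W ∨ lf σ a = rf σ d₀) ∧ lf σ b ∉ W
  rw [ex_iff_sum (fun d : G.Dart => d.fst = v) (fun d => d ∈ Front σ d₀ h W),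
    n_out C hW hs, main_term C a1 a2 a3 b1 b2 b3]
  by_cases h1 : lf σ a ∈ W ∨ lf σ a = rf σ d₀
  · rw [ind_true h1]
    by_cases h2 : lf σ b ∈ W
    · rw [ind_true h2]
      simp [h2]
    · rw [ind_false h2]
      simp [h1, h2]
  · rw [ind_false h1]
    have := ind_nonneg (lf σ b ∈ W)
    constructor
    · intro h3; linarith
    · intro h3; exact absurd h3.1 h1

end Vale.Agent.P235.R2.H90
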