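import Vale.Agent.P235.R2.H582.KprSpec
import Vale.Agent.P235.R2.RED.Bags2

/-!
# P235: (R5) three chops leave components of weak diameter at most `52 Δ` (helper90)
-/

set_option autoImplicit false

namespace Vale.Agent.P235.Kpr

open Vale.Agent.P235

theorem chop_le {V : Type} (H : SimpleGraph V) (f : V → ℝ) (Δ θ : ℝ) : chop H f Δ θ ≤ H :=
  fun _ _ h => h.1

theorem conn_singleton {V : Type} (G : SimpleGraph V) (a : V) :
    (G.induce ({a} : Set V)).Connected := by
  have : Nonempty ↥({a} : Set V) := ⟨⟨a, rfl⟩⟩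
  refine ⟨fun u v => ?_⟩
  have huv : u = v := Subtype.ext (u.2.trans v.2.symm)
  rw [huv]

/-- the first vertex of a walk far from `x` -/
theorem exists_far {V : Type} {H : SimpleGraph V} {d : V → ℝ} {R Δ : ℝ}
    (hstep : ∀ u v, H.Adj u v → d v ≤ d u + Δ) {a b : V} (w : H.Walk a b) (ha : d a ≤ R)
    (hb : R < d b) : ∃ z, H.Reachable a z ∧ R < d z ∧ d z ≤ R + Δ := by
  induction w with
  | nil => exact absurd hb (not_lt.2 ha)
  | @cons a c b hac p ih =>
    by_cases hcR : d c ≤ R
    · obtain ⟨z, h1, h2, h3⟩ := ih hcR hb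
      exact ⟨z, hac.reachable.trans h1, h2, h3⟩
    · refine ⟨c, hac.reachable, not_le.1 hcR, ?_⟩
      have := hstep a c hac
      linarith

/-- **(R5)** -/
theorem rowDiam (hminor : RowMinor) (hstage : RowStage) : RowDiam := by
  intro V _ G H ℓ Δ θ₁ θ₂ θ₃ f₁ f₂ f₃ r₁ r₂ r₃ hc hplane hℓ hHG hΔ hshort hP1 hP2 hP3 x y hxy
  by_contra hcon
  have hfar : 52 * Δ < pathDist G ℓ x y := not_le.1 hcon
  have hd0 := Red.pd_self hℓ
  have hdc := Red.pd_comm hc hℓ
  have htri := Red.pd_tri hc hℓ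
  set H₁ := chop H f₁ Δ θ₁ with hH₁
  set H₂ := chop H₁ f₂ Δ θ₂ with hH₂
  set H₃ := chop H₂ f₃ Δ θ₃ with hH₃
  have l1 : H₁ ≤ H := chop_le _ _ _ _
  have l2 : H₂ ≤ H₁ := chop_le _ _ _ _
  have l3 : H₃ ≤ H₂ := chop_le _ _ _ _
  have hstep : ∀ u v, H₃.Adj u v → pathDist G ℓ x v ≤ pathDist G ℓ x u + Δ := by
    intro u v huv
    have h1 : H.Adj u v := l1 (l2 (l3 huv))
    have h2 := Red.pd_adj hℓ (hHG h1)
    have h3 := htri x u v
    have h4 := hshort u v h1
    linarith
  obtain ⟨w⟩ := hxy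
  obtain ⟨z, hz1, hz2, hz3⟩ := exists_far (d := pathDist G ℓ x) (R := 25 * Δ) hstep w
    (by rw [hd0]; positivity) (by linarith)
  have hyz : 25 * Δ < pathDist G ℓ y z := by
    have h1 := htri x z y
    rw [hdc z y] at h1
    linarith
  let p : Fin 3 → V := ![x, y, z]
  have hsep : ∀ k l, k ≠ l → 25 * Δ < pathDist G ℓ (p k) (p l) := by
    have h1 : 25 * Δ < pathDist G ℓ x y := by linarith
    have h2 : 25 * Δ < pathDist G ℓ x z := hz2
    intro k l hkl
    fin_cases k <;> fin_cases l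
    · exact absurd rfl hkl
    · exact h1
    · exact h2
    · show 25 * Δ < pathDist G ℓ y x
      rw [hdc]; exact h1
    · exact absurd rfl hkl
    · exact hyz
    · show 25 * Δ < pathDist G ℓ z x
      rw [hdc]; exact h2
    · show 25 * Δ < pathDist G ℓ z y
      rw [hdc]; exact hyz
    · exact absurd rfl hkl
  have hreach : ∀ k, H₃.Reachable (p 0) (p k) := by
    intro k
    fin_cases k
    · exact SimpleGraph.Reachable.refl _
    · exact w.reachable
    · exact hz1
  have S0 : Stage G ℓ Δ p H₃ 0 (fun _ => ∅) (fun k => {p k}) p 0 :=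
    { aconn := fun j hj => absurd hj (Nat.not_lt_zero _)
      adisj := fun j hj => absurd hj (Nat.not_lt_zero _)
      xconn := fun k => conn_singleton G (p k)
      ax := fun j hj => absurd hj (Nat.not_lt_zero _)
      adj := fun j hj => absurd hj (Nat.not_lt_zero _)
      xmem := fun k => rfl
      ymem := fun k => rfl
      ball := fun k v hv => by
        have : v = p k := hv
        rw [this, hd0]
      areach := fun j hj => absurd hj (Nat.not_lt_zero _)
      xreach := fun k v hv => by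
        have : v = p k := hv
        rw [this]
        exact hreach k
      far := fun j hj => absurd hj (Nat.not_lt_zero _) }
  obtain ⟨A1, X1, y1, S1⟩ := hstage V G H₂ ℓ Δ θ₃ 0 p 0 _ _ _ f₃ r₃ hc hℓ
    ((l2.trans l1).trans hHG) hΔ le_rfl (fun u v h => hshort u v (l1 (l2 h))) hP3
    (fun k l hkl => by have := hsep k l hkl; linarith) S0
  obtain ⟨A2, X2, y2, S2⟩ := hstage V G H₁ ℓ Δ θ₂ (0 + 4 * Δ) p _ _ _ _ f₂ r₂ hc hℓ
    (l1.trans hHG) hΔ (by positivity) (fun u v h => hshort u v (l1 h)) hP2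
    (fun k l hkl => by have := hsep k l hkl; linarith) S1
  obtain ⟨A3, X3, y3, S3⟩ := hstage V G H ℓ Δ θ₁ (0 + 4 * Δ + 4 * Δ) p _ _ _ _ f₁ r₁ hc hℓ
    hHG hΔ (by positivity) hshort hP1
    (fun k l hkl => by have := hsep k l hkl; linarith) S2
  refine hminor V G hc hplane (fun i => A3 i) X3 (fun i => S3.aconn i (by omega)) S3.xconn
    (fun i j hij => S3.adisj i (by omega) j (by omega) fun h => hij (Fin.ext h))
    (fun i j hij => Set.disjoint_left.2 fun v h1 h2 => ?_)
    (fun i j => S3.ax i (by omega) j) (fun i j => S3.adj i (by omega) j)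
  have h3 := S3.ball i v h1
  have h4 := S3.ball j v h2
  have h5 := htri (p i) v (p j)
  have h6 := hsep i j hij
  rw [hdc v (p j)] at h5
  linarith

end Vale.Agent.P235.Kpr
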