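import Vale.Agent.P235.R2.H718.UlgSpec

/-!
# P235: unions of `m` sets, row (A): one set (helper90, text of helper802's `set_map`)
-/

set_option autoImplicit false
set_option linter.all false

namespace Vale.Agent.P235.Ulg

open Vale.Agent.P235 Vale.Agent.P235.Uni

/-- **(A)** -/
theorem rowA : RowA := by
  intro V _ G ℓ hc hℓ E hE1 h7 X B hX hB hE
  classical
  have hd := pathDist_isMet hc hℓ
  obtain ⟨ν, hν⟩ := exists_near (X := X) hc hℓ hX
  obtain ⟨κ, hκ, w, π, hw, hw1, hπ1, hπ3, hπ4⟩ := h7 X ν hν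
  obtain ⟨ρ, hρL, hρ1, hρ2, -⟩ := hE.toL1S
  have hρI : IsL1 ρ := hρL.isL1
  let F₁ : V → V → ℝ := fun x y => ∑ i, w i * ρ ⟨π i x, hπ1 i x⟩ ⟨π i y, hπ1 i y⟩
  let F₂ : V → V → ℝ := fun x y => |pathDist G ℓ x (ν x) - pathDist G ℓ y (ν y)|
  have hF₁ : IsL1 F₁ := IsL1.sum Finset.univ
    (fun i x y => w i * ρ ⟨π i x, hπ1 i x⟩ ⟨π i y, hπ1 i y⟩)
    fun i _ => (hρI.comap (fun x => (⟨π i x, hπ1 i x⟩ : X))).smul (hw i)
  have hF₂ : IsL1 F₂ := isL1_line (fun v => pathDist G ℓ v (ν v))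
  have hF₁u : ∀ x y, F₁ x y ≤ E * B * pathDist G ℓ x y := by
    refine pathDist_semi hc (by positivity) (fun x => hF₁.self x) (fun x y z => hF₁.tri x y z)
      fun u v huv => ?_
    have h1 : F₁ u v ≤ ∑ i, B * (w i * pathDist G ℓ (π i u) (π i v)) := by
      refine Finset.sum_le_sum fun i _ => ?_
      have h2 : ρ ⟨π i u, hπ1 i u⟩ ⟨π i v, hπ1 i v⟩ ≤ B * pathDist G ℓ (π i u) (π i v) :=
        hρ2 ⟨π i u, hπ1 i u⟩ ⟨π i v, hπ1 i v⟩
      have := mul_le_mul_of_nonneg_left h2 (hw i)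
      linarith
    rw [← Finset.mul_sum] at h1
    have h2 := mul_le_mul_of_nonneg_left (hπ3 u v huv) (by linarith : (0 : ℝ) ≤ B)
    linarith
  refine ⟨fun x y => F₁ x y + 3 * F₂ x y, hF₁.add (hF₂.smul (by norm_num)), fun u v => ?_,
    fun ν' hν' x y => ?_⟩
  · have h1 := hF₁u u v
    have h2 : F₂ u v ≤ pathDist G ℓ u v := by
      have a1 := hν.lip hc hℓ u v
      have a2 := hν.lip hc hℓ v u
      rw [hd.symm v u] at a2
      show |pathDist G ℓ u (ν u) - pathDist G ℓ v (ν v)| ≤ _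
      rw [abs_le]; constructor <;> linarith
    have h3 := hd.nonneg u v
    have h4 : 3 * pathDist G ℓ u v ≤ 3 * (B * pathDist G ℓ u v) := by nlinarith
    have h5 : (E + 3) * B * pathDist G ℓ u v =
        E * B * pathDist G ℓ u v + 3 * (B * pathDist G ℓ u v) := by ring
    show F₁ u v + 3 * F₂ u v ≤ _
    rw [h5]
    linarith
  · have hx0 : pathDist G ℓ x (ν x) ≤ pathDist G ℓ x (ν' x) := hν.le x _ (hν'.mem x)
    have h0 : ∀ i, pathDist G ℓ x y - 3 * pathDist G ℓ x (ν x) - 3 * pathDist G ℓ y (ν y) ≤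
        ρ ⟨π i x, hπ1 i x⟩ ⟨π i y, hπ1 i y⟩ := by
      intro i
      have h2 : pathDist G ℓ (π i x) (π i y) ≤ ρ ⟨π i x, hπ1 i x⟩ ⟨π i y, hπ1 i y⟩ :=
        hρ1 ⟨π i x, hπ1 i x⟩ ⟨π i y, hπ1 i y⟩
      have h3 := hd.tri x (π i x) y
      have h4 := hd.tri (π i x) (π i y) y
      rw [hd.symm (π i y) y] at h4
      have h5 := hπ4 i x
      have h6 := hπ4 i y
      linarith
    have h1 : ∑ i, w i * (pathDist G ℓ x y - 3 * pathDist G ℓ x (ν x) -
        3 * pathDist G ℓ y (ν y)) ≤ F₁ x y :=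
      Finset.sum_le_sum fun i _ => mul_le_mul_of_nonneg_left (h0 i) (hw i)
    rw [← Finset.sum_mul, hw1, one_mul] at h1
    have h2 : pathDist G ℓ y (ν y) - pathDist G ℓ x (ν x) ≤ F₂ x y := by
      show _ ≤ |pathDist G ℓ x (ν x) - pathDist G ℓ y (ν y)|
      rw [abs_sub_comm]
      exact le_abs_self _
    show _ ≤ F₁ x y + 3 * F₂ x y
    linarith

end Vale.Agent.P235.Ulg
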