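import Vale.Agent.P235.R2.H718.UlgSpec

/-!
# P235: unions of `m` sets, row (E): the assembly (helper90)
-/

set_option autoImplicit false

namespace Vale.Agent.P235.Ulg

open Vale.Agent.P235

/-- `log₂` against the natural logarithm -/
theorem natlog_le' (s : ℕ) : ((Nat.log 2 s + 1 : ℕ) : ℝ) ≤ 3 * Real.log (s + 2) := by
  have hl2 := Real.log_two_gt_d9
  have h2 : ((Nat.log 2 s : ℕ) : ℝ) * Real.log 2 ≤ Real.log (s + 2) := by
    have h1 : 2 ^ Nat.log 2 s ≤ s + 2 := by
      by_cases hs : s = 0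
      · subst hs
        simp
      · exact (Nat.pow_log_le_self 2 hs).trans (Nat.le_add_right _ _)
    have h1' : (2 : ℝ) ^ Nat.log 2 s ≤ (s : ℝ) + 2 := by exact_mod_cast h1
    have h3 := Real.log_le_log (by positivity) h1'
    rwa [Real.log_pow] at h3
  have h3 : Real.log 2 ≤ Real.log (s + 2) := by
    apply Real.log_le_log (by norm_num)
    have : (0 : ℝ) ≤ s := Nat.cast_nonneg s
    linarith
  have h4 : (0 : ℝ) ≤ ((Nat.log 2 s : ℕ) : ℝ) := Nat.cast_nonneg _
  push_cast
  nlinarith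

/-- **(E)** -/
theorem rowE (hA : RowA) (hB : RowB) (hC : RowC) (hD : RowD) : RowE := by
  intro V _ G ℓ hc hℓ E hE1 hRetr T hT1 hVar m X B hB1 hEmb
  classical
  have hd := pathDist_isMet hc hℓ
  obtain ⟨ι, hι⟩ : ∃ ι : Type, ι = {i : Fin m // (X i).Nonempty} := ⟨_, rfl⟩
  subst hι
  choose F hF1 hF2 hF3 using fun i : {i : Fin m // (X i).Nonempty} =>
    hA V G ℓ hc hℓ E hE1 hRetr (X i.1) B i.2 hB1 (hEmb i.1)
  choose ν hν using fun i : {i : Fin m // (X i).Nonempty} =>
    exists_near (X := X i.1) hc hℓ i.2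
  obtain ⟨D, hDdef⟩ : ∃ D : {i : Fin m // (X i).Nonempty} → V → ℝ,
      ∀ i v, D i v = pathDist G ℓ v (ν i v) := ⟨_, fun _ _ => rfl⟩
  have hD0 : ∀ i v, 0 ≤ D i v := fun i v => by rw [hDdef]; exact hd.nonneg _ _
  have hDl : ∀ i u v, |D i u - D i v| ≤ pathDist G ℓ u v := by
    intro i x y
    have e1 := (hν i).lip hc hℓ x y
    have e2 := (hν i).lip hc hℓ y x
    rw [hd.symm y x] at e2
    rw [hDdef, hDdef, abs_le]
    constructor <;> linarith
  have hDe : ∀ i u v, G.Adj u v → |D i u - D i v| ≤ ℓ s(u, v) := fun i u v ha =>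
    (hDl i u v).trans (pathDist_adj hℓ ha)
  obtain ⟨K, hK⟩ : ∃ K : ℝ, K = (E + 3) * B := ⟨_, rfl⟩
  have hK1 : 1 ≤ K := by rw [hK]; nlinarith
  choose Φ hΦ1 hΦ2 hΦ3 using fun S : Finset {i : Fin m // (X i).Nonempty} =>
    hB V G ℓ hc hℓ {i : Fin m // (X i).Nonempty} K hK1 F D hF1
      (fun i u v ha => (hF2 i u v).trans (by
        rw [← hK]
        exact mul_le_mul_of_nonneg_left (pathDist_adj hℓ ha) (by linarith))) hD0 hDe S
  choose w hw0 hw1 hw2 using fun j : ℕ => hC {i : Fin m // (X i).Nonempty} j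
  obtain ⟨N, hN1, hN2, hN3⟩ := hD V G ℓ hc hℓ (T ^ 2) (by nlinarith) hVar
    {i : Fin m // (X i).Nonempty} D hD0 hDe
  obtain ⟨M, hM1, hM2⟩ := hN1.toL1
  obtain ⟨J, hJ⟩ : ∃ J : ℕ, J = Nat.log 2 (Fintype.card {i : Fin m // (X i).Nonempty}) + 1 :=
    ⟨_, rfl⟩
  have hcard : Fintype.card {i : Fin m // (X i).Nonempty} ≤ m := by
    have h := Fintype.card_subtype_le (fun i : Fin m => (X i).Nonempty)
    rwa [Fintype.card_fin] at h
  have hm0 : (0 : ℝ) ≤ m := Nat.cast_nonneg _
  have hcard' : ((Fintype.card {i : Fin m // (X i).Nonempty} : ℕ) : ℝ) ≤ m := by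
    exact_mod_cast hcard
  have hc0 : (0 : ℝ) ≤ ((Fintype.card {i : Fin m // (X i).Nonempty} : ℕ) : ℝ) :=
    Nat.cast_nonneg _
  obtain ⟨R, hR⟩ : ∃ R : ℝ, R = Real.log ((m : ℝ) + 2) := ⟨_, rfl⟩
  have hR0 : 0.69 < R := by
    rw [hR]
    have h1 := Real.log_two_gt_d9
    have h2 : Real.log 2 ≤ Real.log ((m : ℝ) + 2) :=
      Real.log_le_log (by norm_num) (by linarith)
    linarith
  have hlog : Real.log (((Fintype.card {i : Fin m // (X i).Nonempty} : ℕ) : ℝ) + 2) ≤ R := by
    rw [hR]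
    exact Real.log_le_log (by positivity) (by linarith)
  have hJR : (J : ℝ) ≤ 3 * R := by
    rw [hJ]
    have := natlog_le' (Fintype.card {i : Fin m // (X i).Nonempty})
    linarith
  obtain ⟨Ψ, hΨ⟩ : ∃ Ψ : V → V → ℝ, ∀ x y, Ψ x y = ∑ j : Fin J,
      ∑ S : Finset {i : Fin m // (X i).Nonempty}, w j S * Φ S x y := ⟨_, fun _ _ => rfl⟩
  have hΨ1 : IsL1 Ψ := by
    have h1 : Ψ = fun x y => ∑ j : Fin J,
      ∑ S : Finset {i : Fin m // (X i).Nonempty}, w j S * Φ S x y := by
      funext x y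
      exact hΨ x y
    rw [h1]
    exact IsL1.sum Finset.univ (fun (j : Fin J) x y =>
      ∑ S : Finset {i : Fin m // (X i).Nonempty}, w j S * Φ S x y) fun j _ =>
      IsL1.sum Finset.univ (fun S x y => w j S * Φ S x y) fun S _ => (hΦ1 S).smul (hw0 j S)
  have hΨ2 : ∀ u v, G.Adj u v → Ψ u v ≤ J * (4 * K) * ℓ s(u, v) := by
    intro u v ha
    rw [hΨ]
    have h1 : ∀ j ∈ (Finset.univ : Finset (Fin J)),
        ∑ S : Finset {i : Fin m // (X i).Nonempty}, w j S * Φ S u v ≤ 4 * K * ℓ s(u, v) := by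
      intro j _
      have h2 : ∀ S ∈ (Finset.univ : Finset (Finset {i : Fin m // (X i).Nonempty})),
          w j S * Φ S u v ≤ w j S * (4 * K * ℓ s(u, v)) := fun S _ =>
        mul_le_mul_of_nonneg_left (hΦ2 S u v ha) (hw0 j S)
      refine (Finset.sum_le_sum h2).trans ?_
      rw [← Finset.sum_mul, hw1, one_mul]
    refine (Finset.sum_le_sum h1).trans (le_of_eq ?_)
    rw [Finset.sum_const, Finset.card_univ, Fintype.card_fin, nsmul_eq_mul]
    ring
  have hJ0 : (0 : ℝ) < J := by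
    rw [hJ]
    positivity
  have hΨ3 : ∀ u v, Ψ u v ≤ J * (4 * K) * pathDist G ℓ u v := fun u v =>
    pathDist_semi hc (by positivity) (fun x => hΨ1.self x) (fun x y z => hΨ1.tri x y z) hΨ2 u v
  have hM3 : ∀ u v, G.Adj u v → M u v ≤ 13 * R * ℓ s(u, v) := by
    intro a b hab
    have hl := hℓ s(a, b) hab
    refine (hM2 a b).1.trans ?_
    rw [Real.sqrt_le_left (by positivity)]
    refine (hN2 a b hab).trans ?_
    have h1 : 100 * Real.log (((Fintype.card {i : Fin m // (X i).Nonempty} : ℕ) : ℝ) + 2) ≤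
        (13 * R) ^ 2 := by nlinarith
    rw [mul_pow]
    exact mul_le_mul_of_nonneg_right h1 (sq_nonneg _)
  have hM4 : ∀ u v, M u v ≤ 13 * R * pathDist G ℓ u v := fun u v =>
    pathDist_semi hc (by positivity) (fun x => hM1.self x) (fun x y z => hM1.tri x y z) hM3 u v
  have hT0 : 0 < T := by linarith
  have hNM : ∀ x y, pathDist G ℓ x y ^ 2 ≤ 10 ^ 4 * T ^ 2 * N x y →
      pathDist G ℓ x y ≤ 200 * T * M x y := by
    intro x y h1
    have h2 : pathDist G ℓ x y ≤ 100 * T * √(N x y) := by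
      have e : 100 * T * √(N x y) = √(10 ^ 4 * T ^ 2 * N x y) := by
        rw [Real.sqrt_mul (by positivity), show (10 : ℝ) ^ 4 * T ^ 2 = (100 * T) ^ 2 by ring,
          Real.sqrt_sq (by positivity)]
      rw [e]
      exact Real.le_sqrt_of_sq_le h1
    have h3 := mul_le_mul_of_nonneg_left (hM2 x y).2 (show (0 : ℝ) ≤ 100 * T by positivity)
    linarith
  refine (((hΨ1.smul (by norm_num : (0 : ℝ) ≤ 57600)).add
    (hM1.smul (by positivity : (0 : ℝ) ≤ 200 * T))).comap
    (Subtype.val : ↥(⋃ i, X i) → V)).embeds (fun x y => ?_) fun x y => ?_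
  · show pathDist G ℓ x y ≤ 57600 * Ψ x y + 200 * T * M x y
    obtain ⟨x, hx⟩ := x
    obtain ⟨y, hy⟩ := y
    show pathDist G ℓ x y ≤ 57600 * Ψ x y + 200 * T * M x y
    have hΨ0 := hΨ1.nonneg x y
    have hM0 := hM1.nonneg x y
    have hTM : 0 ≤ 200 * T * M x y := by positivity
    rcases (hd.nonneg x y).eq_or_lt with h0 | h0
    · rw [← h0]
      positivity
    obtain ⟨t, ht⟩ : ∃ t, t = pathDist G ℓ x y := ⟨_, rfl⟩
    rw [← ht] at h0 ⊢
    obtain ⟨Q, hQ⟩ : ∃ Q : Finset {i : Fin m // (X i).Nonempty},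
      ∀ i, i ∈ Q ↔ D i x ≤ 4 * t := ⟨Finset.univ.filter fun i => D i x ≤ 4 * t, by simp⟩
    obtain ⟨Ax, hAx⟩ : ∃ Q : Finset {i : Fin m // (X i).Nonempty},
      ∀ i, i ∈ Q ↔ D i x ≤ t / 16 := ⟨Finset.univ.filter fun i => D i x ≤ t / 16, by simp⟩
    obtain ⟨Ay, hAy⟩ : ∃ Q : Finset {i : Fin m // (X i).Nonempty},
      ∀ i, i ∈ Q ↔ D i y ≤ t / 16 := ⟨Finset.univ.filter fun i => D i y ≤ t / 16, by simp⟩
    have hxy : ∀ i, D i x ≤ D i y + t ∧ D i y ≤ D i x + t := by
      intro i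
      have h1 := abs_le.1 (hDl i x y)
      rw [← ht] at h1
      constructor <;> linarith [h1.1, h1.2]
    by_cases h1 : 4 * Ax.card < 3 * Q.card
    · have h2 := hNM x y (hN3 x y (by rw [← ht]; exact h0) Ax Q
        (fun i hi => (hAx i).2 (by rwa [← ht] at hi))
        (fun i hi => by
          rw [← ht]
          have := (hQ i).1 hi
          linarith) h1)
      rw [← ht] at h2
      linarith
    by_cases h2 : 4 * Ay.card < 3 * Q.card
    · have hyx : pathDist G ℓ y x = t := by rw [ht, hd.symm]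
      have h3 := hN3 y x (by rw [hyx]; exact h0) Ay Q
        (fun i hi => (hAy i).2 (by rwa [hyx] at hi))
        (fun i hi => by
          rw [hyx]
          have := (hQ i).1 hi
          have := (hxy i).2
          linarith) h2
      rw [hyx, hN1.symm y x, ht] at h3
      have h4 := hNM x y h3
      rw [← ht] at h4
      linarith
    -- enough common sets
    have hAxQ : Ax ∪ Ay ⊆ Q := by
      intro i hi
      rcases Finset.mem_union.1 hi with h3 | h3
      · have := (hAx i).1 h3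
        exact (hQ i).2 (by linarith)
      · have := (hAy i).1 h3
        have := (hxy i).1
        exact (hQ i).2 (by linarith)
    have hcd := Finset.card_union_add_card_inter Ax Ay
    have hcl := Finset.card_le_card hAxQ
    have hQC : Q.card ≤ 2 * (Ax ∩ Ay).card := by omega
    obtain ⟨i0, hi0⟩ := Set.mem_iUnion.1 hx
    have hQ1 : 1 ≤ Q.card := by
      refine Finset.card_pos.2 ⟨⟨i0, x, hi0⟩, (hQ _).2 ?_⟩
      rw [hDdef, (hν ⟨i0, x, hi0⟩).self x hi0, hd.self]
      positivity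
    obtain ⟨j, hj⟩ : ∃ j, j = Nat.log 2 Q.card := ⟨_, rfl⟩
    have hjJ : j < J := by
      rw [hj, hJ]
      exact Nat.lt_succ_of_le (Nat.log_mono_right (Finset.card_le_univ Q))
    have hj1 : 2 ^ j ≤ Q.card := by
      rw [hj]
      exact Nat.pow_log_le_self 2 (by omega)
    have hj2 : Q.card < 2 ^ (j + 1) := by
      rw [hj]
      exact Nat.lt_pow_succ_log_self (by norm_num) _
    have h3 := hw2 j Q (Ax ∩ Ay)
      ((Finset.inter_subset_left.trans Finset.subset_union_left).trans hAxQ) hj1 hj2 hQC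
    have h4 : ∀ S ∈ Finset.univ.filter (fun S : Finset {i : Fin m // (X i).Nonempty} =>
        ∃ i ∈ Ax ∩ Ay, S ∩ Q = {i}), w j S * (t / 3200) ≤ w j S * Φ S x y := by
      intro S hS
      obtain ⟨i, hi, hSi⟩ := (Finset.mem_filter.1 hS).2
      have hix := (hAx i).1 (Finset.mem_inter.1 hi).1
      have hiy := (hAy i).1 (Finset.mem_inter.1 hi).2
      have hiS : i ∈ S := by
        have : i ∈ S ∩ Q := by rw [hSi]; exact Finset.mem_singleton_self i
        exact (Finset.mem_inter.1 this).1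
      have h5 := hΦ3 S x y t h0 i hiS (fun k hk hki => by
        have hkQ : ¬ D k x ≤ 4 * t := fun h6 => by
          have : k ∈ S ∩ Q := Finset.mem_inter.2 ⟨hk, (hQ k).2 h6⟩
          rw [hSi, Finset.mem_singleton] at this
          exact hki this
        rw [not_le] at hkQ
        have := (hxy k).1
        constructor <;> linarith)
      have h6 := hF3 i (ν i) (hν i) x y
      rw [← hDdef, ← ht] at h6
      have h7 : 5 / 8 * t ≤ min (F i x y) t := le_min (by linarith) (by linarith)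
      exact mul_le_mul_of_nonneg_left (by linarith) (hw0 j S)
    have h5 : 1 / 18 * (t / 3200) ≤ ∑ S : Finset {i : Fin m // (X i).Nonempty},
        w j S * Φ S x y := by
      calc 1 / 18 * (t / 3200) ≤ (∑ S ∈ Finset.univ.filter
            (fun S : Finset {i : Fin m // (X i).Nonempty} => ∃ i ∈ Ax ∩ Ay, S ∩ Q = {i}),
            w j S) * (t / 3200) := mul_le_mul_of_nonneg_right h3 (by positivity)
        _ = ∑ S ∈ Finset.univ.filter
            (fun S : Finset {i : Fin m // (X i).Nonempty} => ∃ i ∈ Ax ∩ Ay, S ∩ Q = {i}),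
            w j S * (t / 3200) := by rw [Finset.sum_mul]
        _ ≤ ∑ S ∈ Finset.univ.filter
            (fun S : Finset {i : Fin m // (X i).Nonempty} => ∃ i ∈ Ax ∩ Ay, S ∩ Q = {i}),
            w j S * Φ S x y := Finset.sum_le_sum h4
        _ ≤ _ := Finset.sum_le_sum_of_subset_of_nonneg (Finset.filter_subset _ _)
            fun S _ _ => mul_nonneg (hw0 j S) ((hΦ1 S).nonneg _ _)
    have h6 : ∑ S : Finset {i : Fin m // (X i).Nonempty}, w j S * Φ S x y ≤ Ψ x y := by
      rw [hΨ]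
      exact Finset.single_le_sum (f := fun j : Fin J =>
        ∑ S : Finset {i : Fin m // (X i).Nonempty}, w j S * Φ S x y)
        (fun j _ => Finset.sum_nonneg fun S _ => mul_nonneg (hw0 j S) ((hΦ1 S).nonneg _ _))
        (Finset.mem_univ (⟨j, hjJ⟩ : Fin J))
    linarith
  · show 57600 * Ψ x y + 200 * T * M x y ≤ _
    have h1 := hΨ3 x y
    have h2 := hM4 x y
    have hd0 := hd.nonneg x.1 y.1
    obtain ⟨t, ht⟩ : ∃ t, t = pathDist G ℓ x.1 y.1 := ⟨_, rfl⟩
    rw [← ht] at h1 h2 hd0 ⊢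
    rw [← hR]
    have h3 : J * (4 * K) ≤ 48 * (E * B * R) := by
      have k1 : K ≤ 4 * (E * B) := by
        rw [hK]
        nlinarith
      have k2 : (J : ℝ) * (4 * K) ≤ 3 * R * (4 * (4 * (E * B))) :=
        mul_le_mul hJR (by linarith) (by linarith) (by linarith)
      linarith
    have h4 : T * R ≤ T * B * R := by
      have : T * R * 1 ≤ T * R * B := mul_le_mul_of_nonneg_left hB1 (by positivity)
      linarith
    have h5 := mul_le_mul_of_nonneg_right h3 hd0
    have h6 := mul_le_mul_of_nonneg_right h4 hd0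
    have h7 := mul_le_mul_of_nonneg_left h2 (show (0 : ℝ) ≤ 200 * T by positivity)
    have h8 : 0 ≤ E * B * R * t := by positivity
    have h9 : 0 ≤ T * B * R * t := by positivity
    have h10 : 200 * T * (13 * R * t) = 2600 * (T * R * t) := by ring
    have h11 : 10 ^ 7 * (E + T) * B * R * t = 10 ^ 7 * (E * B * R * t) +
      10 ^ 7 * (T * B * R * t) := by ring
    rw [h11]
    linarith

end Vale.Agent.P235.Ulg
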