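import Vale.Agent.P235.R2.H90.PlaneU2
import Vale.Agent.P235.R2.RED.ClassesF
import Vale.Agent.P235.R2.H718.DescSpec

/-!
# P235: the class `Pf.OnSurface`, bound `LL(|V|) + log (1 + p (a + 1)) + √(log (a + b + 2))`
(helper90)
-/

namespace Vale.Agent.P235.R2.H90.PlaneU

open Vale.Agent.P235 SimpleGraph

theorem onSurface_embeds {C C₁ : ℝ} (hC1 : 1 ≤ C) (hMS : Red.MStarLL C) (hC₁ : 1 ≤ C₁)
    (hLS : LanesC C₁) (hRS : Kpr.RowStep) {V : Type} [Finite V] {G : SimpleGraph V}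
    {ℓ : Sym2 V → ℝ} {D : ℝ} {L : Set V} {p a b : ℕ} (hc : G.Connected)
    (hℓ : ∀ e ∈ G.edgeSet, 0 < ℓ e) (hD : 1 ≤ D) (h : Pf.OnSurface G ℓ D L p a b) :
    EmbedsL1 (fun u v : L => pathDist G ℓ u v) (10 ^ 32 * (C * C₁) * D *
      (Swp.LL (Nat.card V) + Real.log (1 + (p : ℝ) * ((a : ℝ) + 1)) +
        √(Real.log ((a : ℝ) + b + 2)))) := by
  obtain ⟨σ, h, A, B, M₁, M₂, hS, ha, hb, hsep, h1, hlow, hhigh⟩ := h
  exact surfP hC1 hMS hC₁ hLS hRS V G σ ℓ h L A B M₁ M₂ p a b D hD hc hS ha hb hℓ hsep h1 hlow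
    hhigh

/-- with 718's row -/
theorem onSurface_all (hL : Kpr.RowLanes) (hRS : Kpr.RowStep) {C : ℝ} (hC1 : 1 ≤ C)
    (hMS : Red.MStarLL C) : ∃ K : ℝ, 1 ≤ K ∧ ∀ (V : Type) [Finite V] (G : SimpleGraph V)
    (ℓ : Sym2 V → ℝ) (D : ℝ) (L : Set V) (p a b : ℕ), G.Connected →
    (∀ e ∈ G.edgeSet, 0 < ℓ e) → 1 ≤ D → Pf.OnSurface G ℓ D L p a b →
    EmbedsL1 (fun u v : L => pathDist G ℓ u v) (K * D *
      (Swp.LL (Nat.card V) + Real.log (1 + (p : ℝ) * ((a : ℝ) + 1)) +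
        √(Real.log ((a : ℝ) + b + 2)))) := by
  obtain ⟨C₁, hC₁, hLS⟩ := hL
  refine ⟨10 ^ 32 * (C * C₁), by nlinarith, fun V _ G ℓ D L p a b hc hℓ hD h => ?_⟩
  exact onSurface_embeds hC1 hMS hC₁ hLS hRS hc hℓ hD h

end Vale.Agent.P235.R2.H90.PlaneU
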