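import Vale.Agent.P235.R2.H90.TermD
import Vale.Agent.P235.R2.H680.SurfL2

/-!
# P235: terminals on surfaces, exceptional vertices and faces in both directions (helper90)
-/

namespace Vale.Agent.P235.R2.H90.TermFinal

open Vale.Agent.P235 SimpleGraph Vale.Agent.P235.Red

/-- helper680's input -/
theorem surfTerm {C : ℝ} (hC1 : 1 ≤ C) (hMS : MStarLL C) : SurfL.SurfTerm (2 * 10 ^ 30 * C) := by
  intro V _ G σ ℓ h L A B M g D hD hc hσ hℓ h1 hlow hhigh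
  exact surfL hC1 hMS V G σ ℓ h L A B M g D hD hc hσ hℓ h1
    (fun v hv => by
      by_cases h2 : v ∈ A
      · exact Or.inr h2
      · exact Or.inl (hlow v hv h2)) hhigh

/-- **Terminals on surfaces**, exceptional vertices and faces in both directions. -/
theorem surfL_ends {C : ℝ} (hC1 : 1 ≤ C) (hMS : MStarLL C) (V : Type) [Finite V]
    (G : SimpleGraph V) (σ : Equiv.Perm G.Dart) (ℓ : Sym2 V → ℝ) (h : V → ℝ) (L : Set V)
    (A B : Finset V) (M₁ M₂ : Finset G.Dart) (g : ℕ) (D : ℝ) (hD : 1 ≤ D) (hc : G.Connected)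
    (hS : SurfMap g G σ) (hℓ : ∀ e ∈ G.edgeSet, 0 < ℓ e)
    (hsep : ∀ a ∈ M₁, ∀ b ∈ M₂, ¬ (faceNext σ).SameCycle a b)
    (h1 : ∀ u ∈ L, ∀ v ∈ L, |h u - h v| ≤ pathDist G ℓ u v)
    (hlow : ∀ v ∈ L, (∃ u ∈ L, G.Adj v u ∧ ℓ s(v, u) ≤ D * (h v - h u)) ∨ v ∈ A ∨
      ∃ m ∈ M₁, v ∈ onFace σ m)
    (hhigh : ∀ v ∈ L, (∃ u ∈ L, G.Adj v u ∧ ℓ s(v, u) ≤ D * (h u - h v)) ∨ v ∈ B ∨
      ∃ m ∈ M₂, v ∈ onFace σ m) :
    EmbedsL1 (fun u v : L => pathDist G ℓ u v) (10 ^ 31 * C * D *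
      ((ll (Nat.card V) : ℝ) + 1 + Real.log (g + A.card + M₁.card + 2) +
        √(Real.log (B.card + M₂.card + 2)))) := by
  have h2 := SurfL.term_ends (surfTerm hC1 hMS) (by positivity) V G σ ℓ h L A B M₁ M₂ g D hD hc hS
    hℓ hsep h1 hlow hhigh
  have h3 : 5 * (2 * 10 ^ 30 * C) = 10 ^ 31 * C := by ring
  rwa [h3] at h2

end Vale.Agent.P235.R2.H90.TermFinal
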