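/-
P235-M, reduction, row C (helper90): row C2.3, a face which can be swept.
-/
import Vale.Agent.P235.R2.H90.C3

namespace Vale.Agent.P235.R2.H90

open Equiv Vale.Agent.P235 Vale.Agent.P235.Red

section

variable {V : Type} {G : SimpleGraph V}
variable {σ : Perm G.Dart} {d₀ : G.Dart} {h : V → ℝ} {s t : V} {W : Set (Fc σ)}

theorem front_uniq_in [Finite V] (C : Ctx σ d₀ h s t) (hW : State σ d₀ h W) {d e : G.Dart}
    (hd : d ∈ Front σ d₀ h W) (he : e ∈ Front σ d₀ h W) (hde : d.snd = e.snd) : d = e :=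
  (rowC21 V G σ d₀ h s t ⟨C.conn, C.map, C.sf, C.tf, C.ud⟩ W ⟨hW.out, hW.closed⟩).2.1 d hd e he hde

theorem front_out_of_in [Finite V] (C : Ctx σ d₀ h s t) (hW : State σ d₀ h W) {d : G.Dart}
    (hd : d ∈ Front σ d₀ h W) (ht : d.snd ≠ t) : ∃ e, e ∈ Front σ d₀ h W ∧ e.fst = d.snd :=
  ((rowC21 V G σ d₀ h s t ⟨C.conn, C.map, C.sf, C.tf, C.ud⟩ W ⟨hW.out, hW.closed⟩).2.2.1 d.snd
    (C.snd_ne_s hd.1) ht).2 ⟨d, hd, rfl⟩

theorem front_in_of_out [Finite V] (C : Ctx σ d₀ h s t) (hW : State σ d₀ h W) {d : G.Dart}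
    (hd : d ∈ Front σ d₀ h W) (hs : d.fst ≠ s) : ∃ e, e ∈ Front σ d₀ h W ∧ e.snd = d.fst :=
  ((rowC21 V G σ d₀ h s t ⟨C.conn, C.map, C.sf, C.tf, C.ud⟩ W ⟨hW.out, hW.closed⟩).2.2.1 d.fst
    hs (C.fst_ne_t hd.1)).1 ⟨d, hd, rfl⟩

theorem front_t [Finite V] (C : Ctx σ d₀ h s t) (hW : State σ d₀ h W) :
    ∃ e, e ∈ Front σ d₀ h W ∧ e.snd = t :=
  (rowC21 V G σ d₀ h s t ⟨C.conn, C.map, C.sf, C.tf, C.ud⟩ W ⟨hW.out, hW.closed⟩).2.2.2.2

/-- the lowest end of a left chain: all up-darts of its face are on the front -/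
theorem lowest [Finite V] (C : Ctx σ d₀ h s t) (hW : State σ d₀ h W) :
    ∃ e, e ∈ Front σ d₀ h W ∧ ¬ up h (faceNext σ e) ∧
      ∀ d : G.Dart, up h d → rf σ d = rf σ e → d ∈ Front σ d₀ h W := by
  have : Finite G.Dart := finDart G
  have hne : {e : G.Dart | e ∈ Front σ d₀ h W ∧ ¬ up h (faceNext σ e)}.Nonempty := by
    obtain ⟨e, he, het⟩ := front_t C hW
    exact ⟨e, he, C.not_up_of_fst_t (by rw [C.next_fst, het])⟩
  obtain ⟨e, ⟨he, he'⟩, hmin⟩ := Set.exists_min_image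
    {e : G.Dart | e ∈ Front σ d₀ h W ∧ ¬ up h (faceNext σ e)} (fun e => h e.snd)
    (Set.toFinite _) hne
  refine ⟨e, he, he', fun d hd hde => ?_⟩
  -- going backward along the face
  have back : ∀ x : G.Dart, up h x → up h (faceNext σ x) →
      (faceNext σ x ∈ Front σ d₀ h W ∧ h (faceNext σ x).snd ≤ h e.snd) →
      (x ∈ Front σ d₀ h W ∧ h x.snd ≤ h e.snd) := by
    intro x hx hx' ⟨h1, h2⟩
    have hv : (faceNext σ x).fst = x.snd := C.next_fst x
    obtain ⟨δ, hδ, hδ'⟩ := front_in_of_out C hW h1 (by rw [hv]; exact C.snd_ne_s hx)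
    have h3 : h δ.snd < h (faceNext σ x).snd := by rw [hδ']; exact hx'
    have h4 : up h (faceNext σ δ) := by
      by_contra hcon
      have := hmin δ ⟨hδ, hcon⟩
      linarith
    have h5 : δ.symm = x.symm := C.uniqB (show δ.snd = x.snd by rw [hδ', hv])
      (fun hh => (C.up_symm δ).1 hh hδ.1) h4 (fun hh => (C.up_symm x).1 hh hx) hx'
    have h6 : δ = x := SimpleGraph.Dart.symm_involutive.injective h5
    subst h6
    exact ⟨hδ, by linarith⟩
  by_contra hcon
  obtain ⟨x, x0, ⟨x1, x2⟩, x3⟩ := cyc_change (faceNext σ)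
    (fun x => up h x ∧ ¬ (x ∈ Front σ d₀ h W ∧ h x.snd ≤ h e.snd)) (rf_eq.1 hde)
    ⟨hd, fun hh => hcon hh.1⟩ (fun hh => hh.2 ⟨he, le_rfl⟩)
  by_cases hu : up h (faceNext σ x)
  · refine x2 (back x x1 hu ?_)
    by_contra h4
    exact x3 ⟨hu, h4⟩
  · have hxe : x = e := C.faceA ((rf_eq.2 x0.symm).trans hde) x1 hu he.1 he'
    subst hxe
    exact x2 ⟨he, le_rfl⟩

theorem exists_sweepable [Finite V] (C : Ctx σ d₀ h s t) (hW : State σ d₀ h W)
    {g : Fc σ} (hg : g ≠ rf σ d₀) (hgW : g ∉ W) :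
    ∃ f, f ≠ rf σ d₀ ∧ f ∉ W ∧ ∀ d : G.Dart, up h d → rf σ d = f →
      lf σ d ∈ W ∨ lf σ d = rf σ d₀ := by
  have : Finite G.Dart := finDart G
  obtain ⟨e, he, he', hall⟩ := lowest C hW
  by_cases hf : rf σ e = rf σ d₀
  swap
  · exact ⟨rf σ e, hf, he.2.2, fun d hd hde => (hall d hd hde).2.1⟩
  exfalso
  -- `e` enters `t`
  have het : e.snd = t := by
    obtain ⟨b, hb1, hb2, hb3, hb4⟩ := C.exists_aT
    rw [C.faceA (hf.trans hb1.symm) he.1 he' hb2 hb3, hb4]
  -- all front darts lie on the outer face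
  have hfront : ∀ x, x ∈ Front σ d₀ h W → rf σ x = rf σ d₀ := by
    by_contra hcon
    push Not at hcon
    obtain ⟨x, ⟨hx, hx'⟩, hmax⟩ := Set.exists_max_image
      {x : G.Dart | x ∈ Front σ d₀ h W ∧ rf σ x ≠ rf σ d₀} (fun x => h x.snd)
      (Set.toFinite _) hcon
    by_cases hxt : x.snd = t
    · exact hx' (by rw [front_uniq_in C hW hx he (hxt.trans het.symm), hf])
    obtain ⟨y, hy, hyx⟩ := front_out_of_in C hW hx hxt
    have hlt : h x.snd < h y.snd := by
      have := hy.1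
      unfold up at this
      rwa [hyx] at this
    have hyf : rf σ y = rf σ d₀ := by
      by_contra hcon2
      have := hmax y ⟨hy, hcon2⟩
      linarith
    set p := (faceNext σ).symm y with hp
    have hpy : faceNext σ p = y := by rw [hp, Equiv.apply_symm_apply]
    have hpf : rf σ p = rf σ d₀ := by rw [← hyf, ← hpy, rf_next]
    have hps : p.snd = x.snd := by rw [← C.next_fst p, hpy, hyx]
    have hpu : up h p := by
      by_contra hcon2
      obtain ⟨b, hb1, hb2, hb3, hb4⟩ := C.exists_bS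
      have h5 : p = b := C.faceB (hpf.trans hb1.symm) hcon2 (by rw [hpy]; exact hy.1) hb2 hb3
      refine C.snd_ne_s hx.1 ?_
      rw [← hps, h5, hb4]
    have hpF := hall p hpu (hpf.trans hf.symm)
    exact hx' (by rw [← front_uniq_in C hW hpF hx hps, hpf])
  let A : Fc σ → Prop := fun f => f ∈ W ∨ f = rf σ d₀
  have hA1 : ∀ d : G.Dart, up h d → (A (lf σ d) ↔ A (rf σ d)) := by
    intro d hd
    constructor
    · intro h1
      by_cases h2 : rf σ d ∈ W
      · exact Or.inl h2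
      · exact Or.inr (hfront d ⟨hd, h1, h2⟩)
    · rintro (h1 | h1)
      · exact hW.closed d hd h1
      · exact (hall d hd (h1.trans hf.symm)).2.1
  have hA2 : ∀ d : G.Dart, A (lf σ d) ↔ A (rf σ d) := by
    intro d
    by_cases hd : up h d
    · exact hA1 d hd
    · have := hA1 d.symm ((C.up_symm d).2 hd)
      rw [lf_symm, rf_symm] at this
      exact this.symm
  have hA3 : ∀ d e : G.Dart, d.fst = e.fst → A (rf σ d) → A (rf σ e) := by
    intro d e hde hd
    by_contra hcon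
    obtain ⟨x, -, x1, x2⟩ := cyc_change σ (fun x => A (rf σ x)) (C.map.cyc d e hde) hd hcon
    refine x2 ?_
    rw [rf_sigma]
    exact (hA2 x).2 x1
  have hA4 : ∀ v, Relation.ReflTransGen G.Adj d₀.fst v → ∀ d : G.Dart, d.fst = v → A (rf σ d) := by
    intro v hv
    induction hv with
    | refl => intro d hd; exact hA3 d₀ d hd.symm (Or.inr rfl)
    | tail _ hadj ih =>
      rename_i b c _
      intro d hd
      have h1 := ih ⟨(b, c), hadj⟩ rfl
      have h2 := (hA2 _).2 h1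
      exact hA3 (SimpleGraph.Dart.symm ⟨(b, c), hadj⟩) d hd.symm h2
  induction g using Quotient.inductionOn with
  | h d =>
    have h1 : A (rf σ d) := hA4 d.fst
      ((SimpleGraph.reachable_iff_reflTransGen _ _).1 (C.conn.preconnected _ _)) d rfl
    rcases h1 with h1 | h1
    · exact hgW h1
    · exact hg h1

end

theorem rowC23 : RowC23 := by
  intro V _ G σ d₀ h s t C' W hW' hg
  obtain ⟨g, hg1, hg2⟩ := hg
  exact exists_sweepable (σ := σ) (d₀ := d₀) (h := h) (s := s) (t := t)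
    ⟨C'.conn, C'.map, C'.hs, C'.ht, C'.ud⟩ ⟨hW'.out, hW'.closed⟩ hg1 hg2

end Vale.Agent.P235.R2.H90
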