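import Vale.Agent.P235.R2.H90.ClsU
import Vale.Agent.P235.R2.H718.Desc
import Vale.Agent.P235.R2.H582.KprAll
import Vale.Agent.P235.R2.H882.MStar

/-!
# P235: the class `Pf.OnSurface`, unconditional (helper90)
-/

namespace Vale.Agent.P235.R2.H90.PlaneU

open Vale.Agent.P235 SimpleGraph

/-- **Terminals on surfaces**, genus `p`, `a` exceptional vertices and faces downwards, `b`
upwards. -/
theorem onSurface : ∃ K : ℝ, 1 ≤ K ∧ ∀ (V : Type) [Finite V] (G : SimpleGraph V)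
    (ℓ : Sym2 V → ℝ) (D : ℝ) (L : Set V) (p a b : ℕ), G.Connected →
    (∀ e ∈ G.edgeSet, 0 < ℓ e) → 1 ≤ D → Pf.OnSurface G ℓ D L p a b →
    EmbedsL1 (fun u v : L => pathDist G ℓ u v) (K * D *
      (Swp.LL (Nat.card V) + Real.log (1 + (p : ℝ) * ((a : ℝ) + 1)) +
        √(Real.log ((a : ℝ) + b + 2)))) :=
  onSurface_all Kpr.lanes_all Kpr.step (C := 228352) (by norm_num) H882.mStar

end Vale.Agent.P235.R2.H90.PlaneU
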