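import Vale.Agent.P235.R2.H802.Genus

/-!
# P235: cutting a map open along a symmetric set of darts (helper90)

`σ` is a rotation system of `G`, `Γ` a symmetric set of darts, `X` the vertices of `Γ`.  The map cut
open has the vertices outside of `X` and one copy of a vertex of `X` for every dart of `Γ` which
starts there; every edge of `Γ` has two copies.
-/

set_option linter.unusedSectionVars false
set_option linter.unusedDecidableInType false
set_option linter.unusedFintypeInType false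

namespace Vale.Agent.P235.R2.H90.Cut

open Vale.Agent.P235 SimpleGraph

/-! ### conjugation -/

theorem zpow_conj {α β : Type} (e : α → β) (f : Equiv.Perm α) (g : Equiv.Perm β)
    (h : ∀ x, g (e x) = e (f x)) (n : ℤ) (x : α) : (g ^ n) (e x) = e ((f ^ n) x) := by
  induction n using Int.induction_on generalizing x with
  | zero => rfl
  | succ n ih => rw [zpow_add_one, zpow_add_one, Equiv.Perm.mul_apply, Equiv.Perm.mul_apply, h, ih]
  | pred n ih =>
    rw [zpow_sub_one, zpow_sub_one, Equiv.Perm.mul_apply, Equiv.Perm.mul_apply]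
    have h1 : g⁻¹ (e x) = e (f⁻¹ x) := by
      rw [Equiv.Perm.inv_eq_iff_eq, h]
      exact congrArg e (Equiv.apply_symm_apply f x).symm
    rw [h1, ih]

theorem sameCycle_map {α β : Type} (e : α → β) (f : Equiv.Perm α) (g : Equiv.Perm β)
    (h : ∀ x, g (e x) = e (f x)) {x y : α} (hxy : f.SameCycle x y) : g.SameCycle (e x) (e y) := by
  obtain ⟨n, rfl⟩ := hxy
  exact ⟨n, zpow_conj e f g h n x⟩

theorem sameCycle_conj' {α β : Type} (e : α → β) (he : Function.Injective e) (f : Equiv.Perm α)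
    (g : Equiv.Perm β) (h : ∀ x, g (e x) = e (f x)) {x y : α} :
    g.SameCycle (e x) (e y) ↔ f.SameCycle x y := by
  refine ⟨fun hxy => ?_, sameCycle_map e f g h⟩
  obtain ⟨n, hn⟩ := hxy
  rw [zpow_conj e f g h] at hn
  exact ⟨n, he hn⟩

variable {V : Type} {G : SimpleGraph V} (σ : Equiv.Perm G.Dart) (Γ : Set G.Dart)

/-- the vertices of `Γ` -/
def XX : Set V := {v | ∃ d ∈ Γ, d.fst = v}

/-- the first dart of `Γ` at or after `d` -/
noncomputable def hit (d : G.Dart) : G.Dart := (σ ^ sInf {k : ℕ | (σ ^ k) d ∈ Γ}) d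

/-- the hypotheses -/
structure CD [Finite V] : Prop where
  fst : ∀ d, (σ d).fst = d.fst
  cyc : ∀ d d' : G.Dart, d.fst = d'.fst → σ.SameCycle d d'
  symm : ∀ d, d ∈ Γ → d.symm ∈ Γ

variable {σ Γ}

theorem fst_pow (hf : ∀ d, (σ d).fst = d.fst) (k : ℕ) (d : G.Dart) : ((σ ^ k) d).fst = d.fst := by
  induction k with
  | zero => rfl
  | succ k ih => rw [pow_succ', Equiv.Perm.mul_apply, hf, ih]

theorem hit_of_mem {d : G.Dart} (hd : d ∈ Γ) : hit σ Γ d = d := by
  have h : sInf {k : ℕ | (σ ^ k) d ∈ Γ} = 0 := by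
    rw [Nat.sInf_eq_zero]
    exact Or.inl hd
  unfold hit
  rw [h]
  rfl

section
variable [Finite V] (hC : CD σ Γ)
include hC

theorem hit_nonempty {d : G.Dart} (hd : d.fst ∈ XX Γ) : {k : ℕ | (σ ^ k) d ∈ Γ}.Nonempty := by
  obtain ⟨e, he, hed⟩ := hd
  have : Finite G.Dart := Tight.fin_dart
  obtain ⟨n, hn⟩ := (hC.cyc d e hed.symm).exists_pow_eq'
  exact ⟨n, by show (σ ^ n) d ∈ Γ; rw [hn.2]; exact he⟩

theorem hit_mem {d : G.Dart} (hd : d.fst ∈ XX Γ) : hit σ Γ d ∈ Γ :=
  Nat.sInf_mem (hit_nonempty hC hd)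

theorem hit_fst (d : G.Dart) : (hit σ Γ d).fst = d.fst := fst_pow hC.fst _ _

theorem hit_next {d : G.Dart} (hd : d ∉ Γ) (hX : d.fst ∈ XX Γ) : hit σ Γ (σ d) = hit σ Γ d := by
  have h1 := Nat.sInf_mem (hit_nonempty hC hX)
  set k := sInf {k : ℕ | (σ ^ k) d ∈ Γ} with hk
  have hk0 : k ≠ 0 := by
    intro h0
    rw [h0] at h1
    exact hd h1
  obtain ⟨j, hj⟩ := Nat.exists_eq_succ_of_ne_zero hk0
  have h2 : sInf {k : ℕ | (σ ^ k) (σ d) ∈ Γ} = j := by
    apply le_antisymm
    · refine Nat.sInf_le ?_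
      show (σ ^ j) (σ d) ∈ Γ
      rw [← Equiv.Perm.mul_apply, ← pow_succ, ← Nat.succ_eq_add_one, ← hj]
      exact h1
    · refine le_csInf ⟨j, ?_⟩ ?_
      · show (σ ^ j) (σ d) ∈ Γ
        rw [← Equiv.Perm.mul_apply, ← pow_succ, ← Nat.succ_eq_add_one, ← hj]
        exact h1
      · intro i hi
        have h3 : (σ ^ (i + 1)) d ∈ Γ := by
          rw [pow_succ, Equiv.Perm.mul_apply]
          exact hi
        have h4 : k ≤ i + 1 := Nat.sInf_le h3
        omega
  unfold hit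
  rw [h2, ← hk, hj, Nat.succ_eq_add_one, pow_succ, Equiv.Perm.mul_apply]

end

open Classical in
/-- the raw copy of the start of `d` -/
noncomputable def tau0 (σ : Equiv.Perm G.Dart) (Γ : Set G.Dart) (d : G.Dart) : V ⊕ G.Dart :=
  if d.fst ∈ XX Γ then Sum.inr (hit σ Γ d) else Sum.inl d.fst

/-- the vertices of the map cut open -/
abbrev W (σ : Equiv.Perm G.Dart) (Γ : Set G.Dart) : Type := Set.range (tau0 σ Γ)

/-- the copy of the start of `d` on the side of `d` -/
noncomputable def tau (σ : Equiv.Perm G.Dart) (Γ : Set G.Dart) (d : G.Dart) : W σ Γ :=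
  ⟨tau0 σ Γ d, d, rfl⟩

/-- the projection -/
def pr (w : W σ Γ) : V := Sum.elim id (fun d : G.Dart => d.fst) w.1

theorem tau_of_mem {d : G.Dart} (h : d.fst ∈ XX Γ) : (tau σ Γ d).1 = Sum.inr (hit σ Γ d) :=
  if_pos h

theorem tau_of_not {d : G.Dart} (h : d.fst ∉ XX Γ) : (tau σ Γ d).1 = Sum.inl d.fst :=
  if_neg h

theorem mem_XX {d : G.Dart} (h : d ∈ Γ) : d.fst ∈ XX Γ := ⟨d, h, rfl⟩

theorem tau_surj (w : W σ Γ) : ∃ d, tau σ Γ d = w := by
  obtain ⟨w, d, rfl⟩ := w
  exact ⟨d, rfl⟩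

section
variable [Finite V] (hC : CD σ Γ)
include hC

theorem pr_tau (d : G.Dart) : pr (tau σ Γ d) = d.fst := by
  unfold pr
  by_cases h : d.fst ∈ XX Γ
  · rw [tau_of_mem h]
    exact hit_fst hC d
  · rw [tau_of_not h]
    rfl

theorem tau_sigma {d : G.Dart} (hd : d ∉ Γ) : tau σ Γ (σ d) = tau σ Γ d := by
  apply Subtype.ext
  have h1 : (σ d).fst = d.fst := hC.fst d
  by_cases h : d.fst ∈ XX Γ
  · rw [tau_of_mem h, tau_of_mem (h1.symm ▸ h), hit_next hC hd h]
  · rw [tau_of_not h, tau_of_not (h1.symm ▸ h), h1]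

theorem faceNext_fst (d : G.Dart) : (faceNext σ d).fst = d.snd := by
  change (σ d.symm).fst = d.snd
  rw [hC.fst]; rfl

theorem tau_face_symm {d : G.Dart} (hd : d ∉ Γ) :
    tau σ Γ (faceNext σ d) = tau σ Γ d.symm := by
  change tau σ Γ (σ d.symm) = _
  refine tau_sigma hC fun h => hd ?_
  have := hC.symm _ h
  rwa [Dart.symm_symm] at this

/-- the graph cut open -/
def Gt : SimpleGraph (W σ Γ) where
  Adj a b := ∃ d : G.Dart, (tau σ Γ d = a ∧ tau σ Γ (faceNext σ d) = b) ∨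
    (tau σ Γ d = b ∧ tau σ Γ (faceNext σ d) = a)
  symm := ⟨fun _ _ ⟨d, h⟩ => ⟨d, h.symm⟩⟩
  loopless := ⟨by
    rintro a ⟨d, ⟨h1, h2⟩ | ⟨h1, h2⟩⟩
    all_goals
      have h3 := congrArg pr (h1.trans h2.symm)
      rw [pr_tau hC, pr_tau hC, faceNext_fst hC] at h3
      exact d.adj.ne h3⟩

theorem adj_tau (d : G.Dart) : (Gt hC).Adj (tau σ Γ d) (tau σ Γ (faceNext σ d)) :=
  ⟨d, Or.inl ⟨rfl, rfl⟩⟩

theorem pr_adj {a b : W σ Γ} (h : (Gt hC).Adj a b) : G.Adj (pr a) (pr b) := by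
  obtain ⟨d, ⟨rfl, rfl⟩ | ⟨rfl, rfl⟩⟩ := h
  · rw [pr_tau hC, pr_tau hC, faceNext_fst hC]
    exact d.adj
  · rw [pr_tau hC, pr_tau hC, faceNext_fst hC]
    exact d.adj.symm

/-- the darts of the graph cut open -/
noncomputable def psi : G.Dart ⊕ Γ → (Gt hC).Dart
  | Sum.inl d => ⟨(tau σ Γ d, tau σ Γ (faceNext σ d)), adj_tau hC d⟩
  | Sum.inr e => ⟨(tau σ Γ (faceNext σ e.1), tau σ Γ e.1), (adj_tau hC e.1).symm⟩

theorem psi_surj : Function.Surjective (psi hC) := by
  intro x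
  have hx : (Gt hC).Adj x.fst x.snd := x.adj
  obtain ⟨d, ⟨h1, h2⟩ | ⟨h1, h2⟩⟩ := hx
  · exact ⟨Sum.inl d, Dart.ext _ _ (Prod.ext h1 h2)⟩
  · by_cases hd : d ∈ Γ
    · exact ⟨Sum.inr ⟨d, hd⟩, Dart.ext _ _ (Prod.ext h2 h1)⟩
    · refine ⟨Sum.inl d.symm, ?_⟩
      refine Dart.ext _ _ (Prod.ext ?_ ?_)
      · exact (tau_face_symm hC hd).symm.trans h2
      · have h3 := tau_face_symm hC (d := d.symm) fun h => hd (by
          have := hC.symm _ h
          rwa [Dart.symm_symm] at this)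
        rw [Dart.symm_symm] at h3
        exact h3.trans h1

end

/-- no edge of `Γ` is isolated -/
def NI (Γ : Set G.Dart) : Prop :=
  ∀ e ∈ Γ, (∃ e' ∈ Γ, e'.fst = e.fst ∧ e' ≠ e) ∨ ∃ e' ∈ Γ, e'.fst = e.snd ∧ e' ≠ e.symm

section
variable [Finite V] (hC : CD σ Γ)
include hC

/-- first return -/
theorem ret_inj {e e' : G.Dart} (he : e ∈ Γ) (he' : e' ∈ Γ)
    (h : hit σ Γ (σ e) = hit σ Γ (σ e')) : e = e' := by
  have key : ∀ {e e' : G.Dart}, e ∈ Γ → e' ∈ Γ → hit σ Γ (σ e) = hit σ Γ (σ e') →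
      sInf {k : ℕ | (σ ^ k) (σ e) ∈ Γ} ≤ sInf {k : ℕ | (σ ^ k) (σ e') ∈ Γ} → e = e' := by
    intro e e' he he' h hle
    set k := sInf {k : ℕ | (σ ^ k) (σ e) ∈ Γ}
    set k' := sInf {k : ℕ | (σ ^ k) (σ e') ∈ Γ} with hk'
    have h1 : (σ ^ k) (σ e) = (σ ^ k') (σ e') := h
    obtain ⟨j, hj⟩ := Nat.exists_eq_add_of_le hle
    rw [hj, pow_add, Equiv.Perm.mul_apply] at h1
    have h2 := (σ ^ k).injective h1
    rcases j with _ | j
    · exact σ.injective h2
    · exfalso
      rw [pow_succ', Equiv.Perm.mul_apply] at h2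
      have h3 : (σ ^ j) (σ e') ∈ Γ := by
        rw [← σ.injective h2]
        exact he
      have h4 : k' ≤ j := Nat.sInf_le h3
      omega
  rcases le_total (sInf {k : ℕ | (σ ^ k) (σ e) ∈ Γ}) (sInf {k : ℕ | (σ ^ k) (σ e') ∈ Γ}) with hl | hl
  · exact key he he' h hl
  · exact (key he' he h.symm hl).symm

theorem sigma_XX {d : G.Dart} (hd : d ∈ Γ) : (σ d).fst ∈ XX Γ := by
  rw [hC.fst]
  exact mem_XX hd

/-- the first return as a map of `Γ` -/
noncomputable def retF (e : Γ) : Γ := ⟨hit σ Γ (σ e.1), hit_mem hC (sigma_XX hC e.2)⟩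

theorem retF_bij : Function.Bijective (retF hC) := by
  have : Finite G.Dart := Tight.fin_dart
  have h1 : Function.Injective (retF hC) := by
    intro e e' h
    exact Subtype.ext (ret_inj hC e.2 e'.2 (congrArg Subtype.val h))
  exact ⟨h1, Finite.injective_iff_surjective.1 h1⟩

/-- the first return of the rotation to `Γ` -/
noncomputable def ret : Equiv.Perm Γ := Equiv.ofBijective _ (retF_bij hC)

theorem ret_val (e : Γ) : (ret hC e).1 = hit σ Γ (σ e.1) := rfl

/-- reversal on `Γ` -/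
def rev : Equiv.Perm Γ where
  toFun := fun e => ⟨e.1.symm, hC.symm _ e.2⟩
  invFun := fun e => ⟨e.1.symm, hC.symm _ e.2⟩
  left_inv := fun _ => Subtype.ext (Dart.symm_symm _)
  right_inv := fun _ => Subtype.ext (Dart.symm_symm _)

/-- the walk around `Γ` -/
noncomputable def wlk : Equiv.Perm Γ := (ret hC).symm.trans (rev hC)

theorem ret_wlk (e : Γ) : hit σ Γ (σ (wlk hC e).1.symm) = e.1 := by
  have h1 : (wlk hC e).1.symm = ((ret hC).symm e).1 := Dart.symm_symm _
  rw [h1, ← ret_val hC, Equiv.apply_symm_apply]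

omit hC in
open Classical in
/-- reversal of the darts of the map cut open -/
noncomputable def inv0 : G.Dart ⊕ Γ → G.Dart ⊕ Γ
  | Sum.inl d => if h : d ∈ Γ then Sum.inr ⟨d, h⟩ else Sum.inl d.symm
  | Sum.inr e => Sum.inl e.1

omit hC in
theorem inv0_mem {d : G.Dart} (h : d ∈ Γ) : inv0 (Sum.inl d) = Sum.inr ⟨d, h⟩ := dif_pos h

omit hC in
theorem inv0_not {d : G.Dart} (h : d ∉ Γ) : (inv0 (Sum.inl d) : G.Dart ⊕ Γ) = Sum.inl d.symm := dif_neg h

theorem symm_not {d : G.Dart} (h : d ∉ Γ) : d.symm ∉ Γ := fun h1 => h (by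
  have := hC.symm _ h1
  rwa [Dart.symm_symm] at this)

theorem inv0_inv0 (x : G.Dart ⊕ Γ) : inv0 (inv0 x) = x := by
  rcases x with d | e
  · by_cases h : d ∈ Γ
    · rw [inv0_mem h]
      rfl
    · rw [inv0_not h, inv0_not (symm_not hC h), Dart.symm_symm]
  · exact inv0_mem e.2

theorem psi_inv (x : G.Dart ⊕ Γ) : psi hC (inv0 x) = (psi hC x).symm := by
  rcases x with d | e
  · by_cases h : d ∈ Γ
    · rw [inv0_mem h]
      rfl
    · rw [inv0_not h]
      refine Dart.ext _ _ (Prod.ext ?_ ?_)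
      · exact (tau_face_symm hC h).symm
      · have h3 := tau_face_symm hC (symm_not hC h)
        rw [Dart.symm_symm] at h3
        exact h3
  · rfl

theorem psi_inj (hN : NI Γ) : Function.Injective (psi hC) := by
  have e1 : ∀ d, (pr (psi hC (Sum.inl d)).fst, pr (psi hC (Sum.inl d)).snd) = (d.fst, d.snd) := by
    intro d
    refine Prod.ext (pr_tau hC d) ?_
    exact (pr_tau hC _).trans (faceNext_fst hC d)
  have e2 : ∀ e : Γ, (pr (psi hC (Sum.inr e)).fst, pr (psi hC (Sum.inr e)).snd) =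
      (e.1.snd, e.1.fst) := by
    intro e
    refine Prod.ext ?_ (pr_tau hC _)
    exact (pr_tau hC _).trans (faceNext_fst hC e.1)
  have e3 : ∀ d (e : Γ), psi hC (Sum.inl d) ≠ psi hC (Sum.inr e) := by
    intro d e h
    have h1 := (e1 d).symm.trans ((by rw [h] :
      (pr (psi hC (Sum.inl d)).fst, pr (psi hC (Sum.inl d)).snd) = _).trans (e2 e))
    have h2 : d = e.1.symm := Dart.ext _ _ h1
    have h3 : tau σ Γ d = tau σ Γ (faceNext σ e.1) := congrArg (fun x : (Gt hC).Dart => x.fst) h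
    have h4 : tau σ Γ (faceNext σ d) = tau σ Γ e.1 := congrArg (fun x : (Gt hC).Dart => x.snd) h
    have hs := hC.symm _ e.2
    have q1 : ret hC ⟨e.1.symm, hs⟩ = ⟨e.1.symm, hs⟩ := by
      apply Subtype.ext
      rw [ret_val]
      have h5 := congrArg Subtype.val h3
      rw [h2, tau_of_mem (mem_XX hs), tau_of_mem (by
        show (σ e.1.symm).fst ∈ _
        exact sigma_XX hC hs)] at h5
      have h6 := Sum.inr.inj h5
      rw [hit_of_mem hs] at h6
      exact h6.symm
    have q2 : ret hC e = e := by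
      apply Subtype.ext
      rw [ret_val]
      have h5 := congrArg Subtype.val h4
      rw [h2, tau_of_mem (mem_XX e.2), tau_of_mem (by
        show (σ e.1.symm.symm).fst ∈ _
        rw [Dart.symm_symm]
        exact sigma_XX hC e.2)] at h5
      have h6 := Sum.inr.inj h5
      rw [hit_of_mem e.2] at h6
      change hit σ Γ (σ e.1.symm.symm) = e.1 at h6
      rwa [Dart.symm_symm] at h6
    -- a dart fixed by the return is alone
    have alone : ∀ a : Γ, ret hC a = a → ∀ b ∈ Γ, b.fst = a.1.fst → b = a.1 := by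
      intro a ha b hb hba
      have h5 : ∀ k : ℕ, hit σ Γ (σ ((σ ^ k) a.1)) = a.1 := by
        intro k
        induction k with
        | zero => exact congrArg Subtype.val ha
        | succ k ih =>
          rw [pow_succ', Equiv.Perm.mul_apply]
          by_cases hk : σ ((σ ^ k) a.1) ∈ Γ
          · rw [hit_of_mem hk] at ih
            rw [ih]
            exact congrArg Subtype.val ha
          · rw [hit_next hC hk (by
              rw [hC.fst, fst_pow hC.fst]
              exact mem_XX a.2)]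
            exact ih
      have : Finite G.Dart := Tight.fin_dart
      obtain ⟨n, hn⟩ := (hC.cyc a.1 b hba.symm).exists_pow_eq'
      rcases n with _ | n
      · exact hn.2.symm
      · have h6 := h5 n
        rw [← Equiv.Perm.mul_apply, ← pow_succ', hn.2, hit_of_mem hb] at h6
        exact h6
    rcases hN e.1 e.2 with ⟨e', he', h5, h6⟩ | ⟨e', he', h5, h6⟩
    · exact h6 (alone e q2 e' he' h5)
    · exact h6 (alone ⟨e.1.symm, hs⟩ q1 e' he' h5)
  rintro (d | e) (d' | e') h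
  · have h1 := (e1 d).symm.trans ((by rw [h] :
      (pr (psi hC (Sum.inl d)).fst, pr (psi hC (Sum.inl d)).snd) = _).trans (e1 d'))
    exact congrArg _ (Dart.ext _ _ h1)
  · exact absurd h (e3 d e')
  · exact absurd h.symm (e3 d' e)
  · have h1 := (e2 e).symm.trans ((by rw [h] :
      (pr (psi hC (Sum.inr e)).fst, pr (psi hC (Sum.inr e)).snd) = _).trans (e2 e'))
    refine congrArg _ (Subtype.ext (Dart.ext _ _ ?_))
    exact Prod.ext (congrArg Prod.snd h1) (congrArg Prod.fst h1)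

/-- `psi` as an equivalence -/
noncomputable def psiE (hN : NI Γ) : G.Dart ⊕ Γ ≃ (Gt hC).Dart :=
  Equiv.ofBijective _ ⟨psi_inj hC hN, psi_surj hC⟩

/-- reversal -/
noncomputable def invE : Equiv.Perm (G.Dart ⊕ Γ) :=
  Function.Involutive.toPerm inv0 (inv0_inv0 hC)

/-- the face permutation of the map cut open -/
noncomputable def phiT : Equiv.Perm (G.Dart ⊕ Γ) := Equiv.sumCongr (faceNext σ) (wlk hC)

theorem phiT_inl (d : G.Dart) : phiT hC (Sum.inl d) = Sum.inl (faceNext σ d) := rfl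

theorem phiT_inr (e : Γ) : phiT hC (Sum.inr e) = Sum.inr (wlk hC e) := rfl

/-- the rotation of the map cut open, on `G.Dart ⊕ Γ` -/
noncomputable def rho : Equiv.Perm (G.Dart ⊕ Γ) := (invE hC).trans (phiT hC)

theorem rho_apply (x : G.Dart ⊕ Γ) : rho hC x = phiT hC (inv0 x) := rfl

/-- the rotation of the map cut open -/
noncomputable def sg (hN : NI Γ) : Equiv.Perm (Gt hC).Dart :=
  (psiE hC hN).symm.trans ((rho hC).trans (psiE hC hN))

theorem sg_psi (hN : NI Γ) (x : G.Dart ⊕ Γ) : sg hC hN (psi hC x) = psi hC (rho hC x) := by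
  show psiE hC hN (rho hC ((psiE hC hN).symm (psiE hC hN x))) = _
  rw [Equiv.symm_apply_apply]
  rfl

theorem face_psi (hN : NI Γ) (x : G.Dart ⊕ Γ) :
    faceNext (sg hC hN) (psi hC x) = psi hC (phiT hC x) := by
  change sg hC hN (psi hC x).symm = _
  rw [← psi_inv, sg_psi, rho_apply, inv0_inv0 hC]

/-- the start of a dart -/
theorem psi_inl_fst (d : G.Dart) : (psi hC (Sum.inl d)).fst = tau σ Γ d := rfl

theorem psi_inr_fst (e : Γ) : (psi hC (Sum.inr e)).fst = tau σ Γ (faceNext σ e.1) := rfl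

theorem rho_inl_not {d : G.Dart} (h : d ∉ Γ) : rho hC (Sum.inl d) = Sum.inl (σ d) := by
  rw [rho_apply, inv0_not h, phiT_inl]
  change Sum.inl (σ d.symm.symm) = _
  rw [Dart.symm_symm]

theorem rho_inl_mem {d : G.Dart} (h : d ∈ Γ) : rho hC (Sum.inl d) = Sum.inr (wlk hC ⟨d, h⟩) := by
  rw [rho_apply, inv0_mem h, phiT_inr]

theorem rho_inr (e : Γ) : rho hC (Sum.inr e) = Sum.inl (faceNext σ e.1) := rfl

theorem tau_mem {d : G.Dart} (h : d ∈ Γ) : (tau σ Γ d).1 = Sum.inr d := by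
  rw [tau_of_mem (mem_XX h), hit_of_mem h]

theorem tau_wlk (e : Γ) : tau σ Γ (faceNext σ (wlk hC e).1) = tau σ Γ e.1 := by
  apply Subtype.ext
  rw [tau_mem hC e.2, tau_of_mem, ← ret_wlk hC e]
  · rfl
  · exact sigma_XX hC (hC.symm _ (wlk hC e).2)

theorem sg_fst (hN : NI Γ) (x : (Gt hC).Dart) : (sg hC hN x).fst = x.fst := by
  obtain ⟨x, rfl⟩ := psi_surj hC x
  rw [sg_psi]
  rcases x with d | e
  · by_cases h : d ∈ Γ
    · rw [rho_inl_mem hC h, psi_inr_fst, psi_inl_fst]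
      exact tau_wlk hC ⟨d, h⟩
    · rw [rho_inl_not hC h, psi_inl_fst, psi_inl_fst]
      exact tau_sigma hC h
  · rfl

theorem same_pow {d : G.Dart} (k : ℕ) (h : ∀ j < k, (σ ^ j) d ∉ Γ) :
    (rho hC).SameCycle (Sum.inl d) (Sum.inl ((σ ^ k) d)) := by
  induction k with
  | zero => exact Equiv.Perm.SameCycle.refl _ _
  | succ k ih =>
    have h1 := ih fun j hj => h j (by omega)
    have h2 := rho_inl_not hC (h k (by omega))
    rw [pow_succ', Equiv.Perm.mul_apply, ← h2]
    exact Equiv.Perm.sameCycle_apply_right.2 h1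

theorem same_hit (d : G.Dart) :
    (rho hC).SameCycle (Sum.inl d) (Sum.inl (hit σ Γ d)) := by
  refine same_pow hC _ fun j hj h1 => ?_
  have h2 : sInf {k : ℕ | (σ ^ k) d ∈ Γ} ≤ j := Nat.sInf_le h1
  omega

theorem same_inl {d d' : G.Dart} (h : tau σ Γ d = tau σ Γ d') :
    (rho hC).SameCycle (Sum.inl d) (Sum.inl d') := by
  have h0 : d.fst = d'.fst := by rw [← pr_tau hC, h, pr_tau hC]
  by_cases hX : d.fst ∈ XX Γ
  · have h1 := congrArg Subtype.val h
    rw [tau_of_mem hX, tau_of_mem (h0 ▸ hX)] at h1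
    have h2 := same_hit hC d
    rw [Sum.inr.inj h1] at h2
    exact h2.trans (same_hit hC d').symm
  · have : Finite G.Dart := Tight.fin_dart
    obtain ⟨n, hn⟩ := (hC.cyc d d' h0).exists_pow_eq'
    rw [← hn.2]
    refine same_pow hC _ fun j _ h1 => hX ?_
    have h2 := mem_XX h1
    rwa [fst_pow hC.fst] at h2

theorem same_inr (e : Γ) :
    (rho hC).SameCycle (Sum.inr e) (Sum.inl (faceNext σ e.1)) := by
  rw [← rho_inr hC e]
  exact Equiv.Perm.sameCycle_apply_right.2 (Equiv.Perm.SameCycle.refl _ _)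

theorem sg_cyc (hN : NI Γ) (x y : (Gt hC).Dart) (h : x.fst = y.fst) :
    (sg hC hN).SameCycle x y := by
  obtain ⟨x, rfl⟩ := psi_surj hC x
  obtain ⟨y, rfl⟩ := psi_surj hC y
  refine sameCycle_map (psi hC) (rho hC) _ (sg_psi hC hN) ?_
  rcases x with d | e <;> rcases y with d' | e'
  · exact same_inl hC h
  · exact (same_inl hC h).trans (same_inr hC e').symm
  · exact (same_inr hC e).trans (same_inl hC h)
  · exact ((same_inr hC e).trans (same_inl hC h)).trans (same_inr hC e').symm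

theorem Gt_conn (hne : Nonempty G.Dart) (hcon : ∀ s : G.Dart → Prop, (∀ d, s (faceNext σ d) ↔ s d) →
    (∀ d, d ∉ Γ → (s d.symm ↔ s d)) → ∀ d d', s d ↔ s d') : (Gt hC).Connected := by
  obtain ⟨d0⟩ := hne
  have key := hcon (fun d => (Gt hC).Reachable (tau σ Γ d0) (tau σ Γ d)) (fun d => by
      have h1 := (adj_tau hC d).reachable
      exact ⟨fun h => h.trans h1.symm, fun h => h.trans h1⟩) (fun d hd => by
      rw [← tau_face_symm hC hd]
      have h1 := (adj_tau hC d).reachable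
      exact ⟨fun h => h.trans h1.symm, fun h => h.trans h1⟩)
  have hr : ∀ w, (Gt hC).Reachable (tau σ Γ d0) w := by
    intro w
    obtain ⟨d, rfl⟩ := tau_surj w
    exact (key d0 d).1 (Reachable.refl _)
  have : Nonempty (W σ Γ) := ⟨tau σ Γ d0⟩
  exact ⟨fun a b => (hr a).symm.trans (hr b)⟩

/-- labels of the faces of the map cut open -/
def lab (σ : Equiv.Perm G.Dart) : G.Dart ⊕ Γ →
    Option (Quotient (Equiv.Perm.SameCycle.setoid (faceNext σ)))
  | Sum.inl d => some (Quotient.mk _ d)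
  | Sum.inr _ => none

theorem lab_phi (x : G.Dart ⊕ Γ) : lab σ (phiT hC x) = lab σ x := by
  rcases x with d | e
  · rw [phiT_inl]
    refine congrArg some (Quotient.sound ?_)
    change (faceNext σ).SameCycle _ _
    exact (Equiv.Perm.sameCycle_apply_right.2 (Equiv.Perm.SameCycle.refl _ _)).symm
  · rfl

/-- the label of a dart of the map cut open -/
noncomputable def labT (hN : NI Γ) (x : (Gt hC).Dart) :
    Option (Quotient (Equiv.Perm.SameCycle.setoid (faceNext σ))) := lab σ ((psiE hC hN).symm x)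

theorem labT_psi (hN : NI Γ) (x : G.Dart ⊕ Γ) : labT hC hN (psi hC x) = lab σ x :=
  congrArg (lab σ) ((psiE hC hN).symm_apply_apply x)

theorem labT_face (hN : NI Γ) (x : (Gt hC).Dart) :
    labT hC hN (faceNext (sg hC hN) x) = labT hC hN x := by
  obtain ⟨x, rfl⟩ := psi_surj hC x
  rw [face_psi, labT_psi, labT_psi, lab_phi]

/-- the label of a face of the map cut open -/
noncomputable def labQ (hN : NI Γ) : Quotient (Equiv.Perm.SameCycle.setoid (faceNext (sg hC hN))) →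
    Option (Quotient (Equiv.Perm.SameCycle.setoid (faceNext σ))) :=
  Quotient.lift (labT hC hN) fun _ _ h => Tight.cyc_const (labT_face hC hN) h

theorem labQ_surj (hN : NI Γ) (hne : Γ.Nonempty) : Function.Surjective (labQ hC hN) := by
  rintro (_ | f)
  · obtain ⟨e, he⟩ := hne
    exact ⟨Quotient.mk _ (psi hC (Sum.inr ⟨e, he⟩)), labT_psi hC hN _⟩
  · obtain ⟨d, rfl⟩ := Quotient.exists_rep f
    exact ⟨Quotient.mk _ (psi hC (Sum.inl d)), labT_psi hC hN _⟩

theorem card_W (hv : ∀ v, ∃ d : G.Dart, d.fst = v) :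
    Nat.card (W σ Γ) + (XX Γ).ncard = Nat.card V + Nat.card Γ := by
  have : Finite G.Dart := Tight.fin_dart
  have h1 : Set.range (tau0 σ Γ) = Sum.inl '' (XX Γ)ᶜ ∪ Sum.inr '' Γ := by
    ext w
    constructor
    · rintro ⟨d, rfl⟩
      by_cases h : d.fst ∈ XX Γ
      · exact Or.inr ⟨hit σ Γ d, hit_mem hC h, (if_pos h).symm⟩
      · exact Or.inl ⟨d.fst, h, (if_neg h).symm⟩
    · rintro (⟨v, hv', rfl⟩ | ⟨e, he, rfl⟩)
      · obtain ⟨d, rfl⟩ := hv v
        exact ⟨d, if_neg hv'⟩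
      · exact ⟨e, (if_pos (mem_XX he)).trans (by rw [hit_of_mem he])⟩
  have h2 : Disjoint (Sum.inl '' (XX Γ)ᶜ : Set (V ⊕ G.Dart)) (Sum.inr '' Γ) := by
    rw [Set.disjoint_left]
    rintro _ ⟨a, _, rfl⟩ ⟨b, _, h⟩
    exact absurd h (by simp)
  have h3 := Set.ncard_add_ncard_compl (XX Γ)
  rw [Nat.card_coe_set_eq, Nat.card_coe_set_eq, h1, Set.ncard_union_eq h2,
    Set.ncard_image_of_injective _ Sum.inl_injective,
    Set.ncard_image_of_injective _ Sum.inr_injective]
  omega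

end

theorem card_dart {V : Type} [Finite V] (G : SimpleGraph V) :
    Nat.card G.Dart = 2 * Nat.card G.edgeSet := by
  classical
  have := Fintype.ofFinite V
  rw [Nat.card_eq_fintype_card, Nat.card_eq_fintype_card,
    SimpleGraph.dart_card_eq_twice_card_edges, SimpleGraph.edgeFinset_card]

section
variable [Finite V] (hC : CD σ Γ)
include hC

/-- the map cut open is a plane map -/
theorem plane_cut (hN : NI Γ) (hne : Γ.Nonempty) (hv : ∀ v, ∃ d : G.Dart, d.fst = v)
    (hcon : ∀ s : G.Dart → Prop, (∀ d, s (faceNext σ d) ↔ s d) →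
      (∀ d, d ∉ Γ → (s d.symm ↔ s d)) → ∀ d d', s d ↔ s d')
    (hE : 2 * (Nat.card G.edgeSet + (XX Γ).ncard + 1) ≤ 2 * (Nat.card V +
      Nat.card (Quotient (Equiv.Perm.SameCycle.setoid (faceNext σ)))) + Nat.card Γ) :
    PlaneMap (Gt hC) (sg hC hN) := by
  have : Finite G.Dart := Tight.fin_dart
  have : Finite (Gt hC).Dart := Tight.fin_dart
  obtain ⟨e0, he0⟩ := hne
  refine Tight.plane_of_le (Gt_conn hC ⟨e0⟩ hcon) (sg_fst hC hN) (sg_cyc hC hN) ?_
  have h1 := card_W hC hv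
  have h2 : Nat.card (Gt hC).Dart = Nat.card G.Dart + Nat.card Γ := by
    rw [← Nat.card_congr (psiE hC hN), Nat.card_sum]
  rw [card_dart, card_dart] at h2
  have h3 := Nat.card_le_card_of_surjective _ (labQ_surj hC hN ⟨e0, he0⟩)
  have h4 : Nat.card (Option (Quotient (Equiv.Perm.SameCycle.setoid (faceNext σ)))) =
      Nat.card (Quotient (Equiv.Perm.SameCycle.setoid (faceNext σ))) + 1 :=
    Finite.card_option
  rw [h4] at h3
  omega

/-- faces of `G` are faces of the map cut open -/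
theorem face_lift (hN : NI Γ) {d d' : G.Dart} (h : (faceNext σ).SameCycle d d') :
    (faceNext (sg hC hN)).SameCycle (psi hC (Sum.inl d)) (psi hC (Sum.inl d')) :=
  sameCycle_map (fun d => psi hC (Sum.inl d)) (faceNext σ) _
    (fun d => face_psi hC hN (Sum.inl d)) h

end

end Vale.Agent.P235.R2.H90.Cut
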