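import Vale.Agent.P235.R2.AP.Defs

/-!
# P235 AP7: configurations exist

In every face of a rotation system the number of up-darts equals the number of down-darts (the
heights return after one turn around the face), so a configuration exists.
-/

namespace Vale.Agent.P235.R2.H90

open Vale.Agent.P235 Vale.Agent.P235.AP

variable {V : Type} {G : SimpleGraph V}

theorem finite_dart [Finite V] : Finite G.Dart :=
  Finite.of_injective (fun d : G.Dart => d.toProd) (fun _ _ h => SimpleGraph.Dart.ext _ _ h)

/-- `faceNext` stays in its face -/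
theorem fc_faceNext (σ : Equiv.Perm G.Dart) (d : G.Dart) : fc σ (faceNext σ d) = fc σ d := by
  refine Quotient.sound ?_
  change (faceNext σ).SameCycle _ _
  exact Equiv.Perm.SameCycle.symm (Equiv.Perm.sameCycle_apply_right.2 (Equiv.Perm.SameCycle.refl _ _))

theorem fst_faceNext (σ : Equiv.Perm G.Dart) (hσ : ∀ d, (σ d).fst = d.fst) (d : G.Dart) :
    (faceNext σ d).fst = d.snd := by
  change (σ d.symm).fst = d.snd
  rw [hσ]; rfl

/-- the heights return after one turn around a face -/
theorem sum_face [Fintype G.Dart] (σ : Equiv.Perm G.Dart) (hσ : ∀ d, (σ d).fst = d.fst)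
    (u : V → ℤ) (f : Fc σ) [DecidablePred fun d : G.Dart => fc σ d = f] :
    ∑ d : G.Dart with fc σ d = f, (u d.snd - u d.fst) = 0 := by
  rw [Finset.sum_sub_distrib, sub_eq_zero]
  refine Finset.sum_bij (fun d _ => faceNext σ d) ?_ ?_ ?_ ?_
  · intro d hd
    rw [Finset.mem_filter] at hd ⊢
    exact ⟨Finset.mem_univ _, (fc_faceNext σ d).trans hd.2⟩
  · intro a _ b _ h
    exact (faceNext σ).injective h
  · intro b hb
    rw [Finset.mem_filter] at hb
    refine ⟨(faceNext σ).symm b, ?_, by simp⟩
    rw [Finset.mem_filter]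
    refine ⟨Finset.mem_univ _, ?_⟩
    rw [← fc_faceNext, Equiv.apply_symm_apply]
    exact hb.2
  · intro d _
    rw [fst_faceNext σ hσ]

/-- every face has as many up-darts as down-darts -/
theorem card_face [Finite V] (σ : Equiv.Perm G.Dart) (hσ : ∀ d, (σ d).fst = d.fst) (u : V → ℤ)
    (hu : UnitH G u) (f : Fc σ) :
    Nonempty ({e : Up G u // fc σ e.1 = f} ≃ {e : Up G u // fc σ e.1.symm = f}) := by
  classical
  have : Finite G.Dart := finite_dart
  let _ : Fintype G.Dart := Fintype.ofFinite _
  have : Finite (Up G u) := Subtype.finite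
  let _ : Fintype (Up G u) := Fintype.ofFinite _
  refine ⟨Fintype.equivOfCardEq ?_⟩
  have h0 := sum_face σ hσ u f
  have h1 : ∑ d : G.Dart with fc σ d = f, (u d.snd - u d.fst) =
      (((Finset.univ.filter fun d : G.Dart => fc σ d = f).filter
        fun d => u d.snd = u d.fst + 1).card : ℤ) -
      (((Finset.univ.filter fun d : G.Dart => fc σ d = f).filter
        fun d => ¬ u d.snd = u d.fst + 1).card : ℤ) := by
    rw [← Finset.sum_filter_add_sum_filter_not _ (fun d : G.Dart => u d.snd = u d.fst + 1),
      sub_eq_add_neg]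
    congr 1
    · rw [Finset.card_eq_sum_ones, Nat.cast_sum]
      refine Finset.sum_congr rfl ?_
      intro d hd
      rw [Finset.mem_filter] at hd
      rw [hd.2]; simp
    · rw [Finset.card_eq_sum_ones, Nat.cast_sum, ← Finset.sum_neg_distrib]
      refine Finset.sum_congr rfl ?_
      intro d hd
      rw [Finset.mem_filter] at hd
      rcases hu d.fst d.snd d.adj with h | h
      · exact absurd h hd.2
      · rw [h]; simp
  have h2 : Fintype.card {e : Up G u // fc σ e.1 = f} =
      ((Finset.univ.filter fun d : G.Dart => fc σ d = f).filter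
        fun d => u d.snd = u d.fst + 1).card := by
    rw [← Fintype.card_coe]
    refine Fintype.card_congr ⟨fun e => ⟨e.1.1, ?_⟩, fun d => ⟨⟨d.1, ?_⟩, ?_⟩, ?_, ?_⟩
    · rw [Finset.mem_filter, Finset.mem_filter]
      exact ⟨⟨Finset.mem_univ _, e.2⟩, e.1.2⟩
    · have := d.2
      rw [Finset.mem_filter] at this
      exact this.2
    · have := d.2
      rw [Finset.mem_filter, Finset.mem_filter] at this
      exact this.1.2
    · intro e; rfl
    · intro d; rfl
  have h3 : Fintype.card {e : Up G u // fc σ e.1.symm = f} =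
      ((Finset.univ.filter fun d : G.Dart => fc σ d = f).filter
        fun d => ¬ u d.snd = u d.fst + 1).card := by
    rw [← Fintype.card_coe]
    refine Fintype.card_congr ⟨fun e => ⟨e.1.1.symm, ?_⟩, fun d => ⟨⟨d.1.symm, ?_⟩, ?_⟩, ?_, ?_⟩
    · rw [Finset.mem_filter, Finset.mem_filter]
      refine ⟨⟨Finset.mem_univ _, e.2⟩, ?_⟩
      have := e.1.2
      change ¬ u e.1.1.fst = u e.1.1.snd + 1
      omega
    · have := d.2
      rw [Finset.mem_filter] at this
      change u d.1.fst = u d.1.snd + 1
      rcases hu d.1.fst d.1.snd d.1.adj with h | h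
      · exact absurd h this.2
      · exact h
    · have := d.2
      rw [Finset.mem_filter, Finset.mem_filter] at this
      change fc σ d.1.symm.symm = f
      rw [SimpleGraph.Dart.symm_symm]
      exact this.1.2
    · intro e
      apply Subtype.ext
      apply Subtype.ext
      exact SimpleGraph.Dart.symm_symm _
    · intro d
      apply Subtype.ext
      exact SimpleGraph.Dart.symm_symm _
  rw [h2, h3]
  rw [h1] at h0
  exact_mod_cast sub_eq_zero.1 h0

/-- AP7: configurations exist for every rotation system -/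
theorem ex_conf [Finite V] (σ : Equiv.Perm G.Dart) (hσ : ∀ d, (σ d).fst = d.fst) (u : V → ℤ)
    (hu : UnitH G u) : ∃ π : Equiv.Perm (Up G u), Conf σ u π := by
  classical
  let E := fun f : Fc σ => (card_face σ hσ u hu f).some
  let g : Up G u → Fc σ := fun e => fc σ e.1
  let g' : Up G u → Fc σ := fun e => fc σ e.1.symm
  let π : Equiv.Perm (Up G u) :=
    ((Equiv.sigmaFiberEquiv g).symm.trans (Equiv.sigmaCongrRight fun f => (E f))).trans
      (Equiv.sigmaFiberEquiv g')
  refine ⟨π, fun e => ?_⟩
  exact ((E (g e) ⟨e, rfl⟩).2).symm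

theorem ex_plane [Finite V] (σ : Equiv.Perm G.Dart) (hP : PlaneMap G σ) (u : V → ℤ)
    (hu : UnitH G u) : ∃ π : Equiv.Perm (Up G u), Conf σ u π :=
  ex_conf σ hP.fst u hu

/-- Without the rotation condition the row is false: `K₂` with `faceNext = 1`. -/
theorem not_rowEx : ¬ RowEx := by
  intro h
  let G : SimpleGraph Bool := ⊤
  let σ : Equiv.Perm G.Dart := SimpleGraph.Dart.symm_involutive.toPerm _
  have hf : faceNext σ = 1 := by
    ext1 d
    exact SimpleGraph.Dart.symm_symm d
  let u : Bool → ℤ := fun b => if b then 1 else 0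
  have hu : UnitH G u := by
    intro a b hab
    cases a <;> cases b <;> simp_all [u, G]
  obtain ⟨π, hπ⟩ := h Bool G σ u hu
  let e : Up G u := ⟨⟨(false, true), by simp [G]⟩, by simp [u]⟩
  have h1 : (faceNext σ).SameCycle e.1 (π e).1.symm := Quotient.exact (hπ e)
  rw [hf, Equiv.Perm.sameCycle_one] at h1
  have h2 := (π e).2
  have h3 := e.2
  have h4 : e.1.fst = (π e).1.snd := by rw [h1]; rfl
  have h5 : e.1.snd = (π e).1.fst := by rw [h1]; rfl
  rw [h4, h5] at h3
  omega

end Vale.Agent.P235.R2.H90
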