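import Vale.Agent.P235.R2.H90.Leaf
import Vale.Agent.P235.R2.H934.FaceSrc

/-!
# P235: graphs on surfaces, few sources (log) and few sinks (sqrt log) (helper90)
-/

set_option linter.unusedSectionVars false
set_option linter.unusedDecidableInType false
set_option linter.unusedFintypeInType false

namespace Vale.Agent.P235.R2.H90.Final

open Vale.Agent.P235 SimpleGraph Vale.Agent.P235.Red Vale.Agent.P235.R2.H90.Leaf
  Vale.Agent.P235.R2.H90.Surf
open Vale.Agent.P235.R2.H582 (embeds_mono ll_mono)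

theorem num_ll {n n' k : ℕ} (h : n' ≤ 2 * n + 2 * k) :
    (ll n' : ℝ) ≤ ll n + 4 + 2 * Real.log (k + 2) := by
  have h1 : ll n' ≤ ll (2 * n) + ll (2 * k) + 2 := (ll_mono h).trans (R2.H934.ll_add _ _)
  have h2 := ll_two n
  have h3 := ll_two k
  have h4 := R2.H934.ll_le_log k
  have h5 : (ll n' : ℝ) ≤ ll n + 1 + (ll k + 1) + 2 := by exact_mod_cast h1.trans (by omega)
  linarith

theorem num_sqrt {b b' m m' k : ℕ} (hb : b' ≤ b + 4 * k) (hm : m' ≤ m) :
    √(Real.log ((b' + m' : ℕ) + 2)) ≤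
      2 + Real.log (k + 2) + √(Real.log ((b + m : ℕ) + 2)) := by
  have hk0 : (0 : ℝ) ≤ k := Nat.cast_nonneg _
  have hbm0 : (0 : ℝ) ≤ ((b + m : ℕ) : ℝ) := Nat.cast_nonneg _
  have hx : 0 ≤ Real.log ((k : ℝ) + 2) := Real.log_nonneg (by linarith)
  have hz : 0 ≤ Real.log (((b + m : ℕ) : ℝ) + 2) := Real.log_nonneg (by linarith)
  have hy := Real.sqrt_nonneg (Real.log (((b + m : ℕ) : ℝ) + 2))
  have hy2 := Real.sq_sqrt hz
  have h1 : (((b' + m' : ℕ) : ℝ)) + 2 ≤ 4 * (((k : ℝ) + 2) * (((b + m : ℕ) : ℝ) + 2)) := by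
    have h2 : (((b' + m' : ℕ) : ℝ)) ≤ ((b + m : ℕ) : ℝ) + 4 * k := by
      have h3 : b' + m' ≤ b + m + 4 * k := by omega
      exact_mod_cast h3
    nlinarith
  have h2 : Real.log (((b' + m' : ℕ) : ℝ) + 2) ≤
      2 + Real.log ((k : ℝ) + 2) + Real.log (((b + m : ℕ) : ℝ) + 2) := by
    have h3 := Real.log_le_log (by positivity) h1
    have h4 := log_three (x := ((k : ℝ) + 2) * (((b + m : ℕ) : ℝ) + 2)) (k := 4) (by nlinarith)
      (by norm_num) (by norm_num)
    have h5 : Real.log (((k : ℝ) + 2) * (((b + m : ℕ) : ℝ) + 2)) =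
        Real.log ((k : ℝ) + 2) + Real.log (((b + m : ℕ) : ℝ) + 2) :=
      Real.log_mul (by positivity) (by positivity)
    rw [h5] at h4
    linarith
  rw [Real.sqrt_le_iff]
  refine ⟨by positivity, h2.trans ?_⟩
  nlinarith

theorem num_log {k : ℕ} : Real.log (2 * (k : ℝ) + 2) ≤ 2 + Real.log (k + 2) := by
  have hk0 : (0 : ℝ) ≤ k := Nat.cast_nonneg _
  refine le_trans (Real.log_le_log (by positivity) ?_)
    (log_three (x := (k : ℝ) + 2) (k := 2) (by linarith) (by norm_num) (by norm_num))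
  linarith

/-- **surfaces, tight form**: `G` on a surface of Euler genus at most `g`, `h` nonexpansive, every
vertex outside of `A` has a tight edge down, every vertex which is not in `B` and not on a face of
`MB` has a tight edge up, all other edges are arbitrary. -/
theorem surf_sqrt {C : ℝ} (hC1 : 1 ≤ C) (hMS : MStarLL C) (V : Type) [Finite V]
    (G : SimpleGraph V) (σ : Equiv.Perm G.Dart) (ℓ : Sym2 V → ℝ) (h : V → ℝ) (A B : Finset V)
    (MB : Finset G.Dart) (g : ℕ) (hc : G.Connected) (hσ : SurfMap g G σ)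
    (hℓ : ∀ e ∈ G.edgeSet, 0 < ℓ e)
    (hlip : ∀ u v, G.Adj u v → |h u - h v| ≤ ℓ s(u, v))
    (hlow : ∀ v, v ∉ A → ∃ u, G.Adj v u ∧ ℓ s(v, u) ≤ h v - h u)
    (hhigh : ∀ v, (∃ u, G.Adj v u ∧ ℓ s(v, u) ≤ h u - h v) ∨ v ∈ B ∨
      ∃ m ∈ MB, v ∈ onFace σ m) :
    EmbedsL1 (pathDist G ℓ) (5 * 10 ^ 32 * C *
      ((ll (Nat.card V) : ℝ) + 1 + Real.log ((g + A.card : ℕ) + 2) +
        √(Real.log ((B.card + MB.card : ℕ) + 2)))) := by
  classical
  have hg0 : (0 : ℝ) ≤ ((g + A.card : ℕ) : ℝ) := Nat.cast_nonneg _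
  have hL0 : (0 : ℝ) ≤ ll (Nat.card V) := Nat.cast_nonneg _
  have hx : 0 ≤ Real.log (((g + A.card : ℕ) : ℝ) + 2) := Real.log_nonneg (by linarith)
  have hy := Real.sqrt_nonneg (Real.log (((B.card + MB.card : ℕ) : ℝ) + 2))
  set x := Real.log (((g + A.card : ℕ) : ℝ) + 2) with hxdef
  set y := √(Real.log (((B.card + MB.card : ℕ) : ℝ) + 2)) with hydef
  set T : ℝ := (ll (Nat.card V) : ℝ) + 1 + x + y with hT
  by_cases hne : Nonempty G.Dart
  swap
  · have hsub := subsingleton_of_no_dart hc hne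
    exact distortion_subsingleton G hc.nonempty ℓ hℓ
  let A' : Finset V := A.filter fun a => ∀ u, G.Adj a u → h a - h u < ℓ s(a, u)
  have hA' : A'.card ≤ A.card := Finset.card_filter_le _ _
  have hT1 : 1 ≤ T := by rw [hT]; linarith
  have hCT : 1 ≤ C * T := by nlinarith
  have key := surf_of_leaf (K' := 36 * 10 ^ 24 * (C * T)) (by linarith) V G σ ℓ h A' B MB g hc hne
    hσ hℓ hlip ?_ ?_ hhigh ?_ ?_
  · refine embeds_mono (pd_nonneg hℓ) ?_ key
    have h1 := num_log (k := g + A.card)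
    have h2 : Real.log (2 * ((g : ℝ) + A'.card) + 2) ≤ Real.log (2 * ((g + A.card : ℕ) : ℝ) + 2) := by
      refine Real.log_le_log (by positivity) ?_
      have h3 : (A'.card : ℝ) ≤ A.card := by exact_mod_cast hA'
      push_cast
      linarith
    have h4 : 2 + x ≤ 2 * (C * T) := by
      have h5 : T ≤ C * T := by nlinarith
      have h6 : 2 + x ≤ 2 * T := by rw [hT]; linarith
      linarith
    have h5 : 5 * 10 ^ 32 * C * T = 5 * 10 ^ 32 * (C * T) := by ring
    rw [h5]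
    linarith
  · intro v hv
    by_cases hvA : v ∈ A
    · have h1 : ¬ ∀ u, G.Adj v u → h v - h u < ℓ s(v, u) := fun h1 =>
        hv (Finset.mem_filter.2 ⟨hvA, h1⟩)
      push Not at h1
      exact h1
    · exact hlow v hvA
  · intro a ha
    exact (Finset.mem_filter.1 ha).2
  · intro V' _ G' σ' ℓ' h' d₁ B' MB' hO hb hm hV'
    have h1 := R2.H934.face_source hC1 hMS V' G' σ' ℓ' h' d₁ 1 MB' B' le_rfl hO.conn hO.plane
      hO.pos hO.lip hO.sep (fun v hv => by
        obtain ⟨u, hu, h2⟩ := hO.low v hv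
        exact ⟨u, hu, by rwa [one_mul]⟩) (fun v => by
        rcases hO.high v with ⟨u, hu, h2⟩ | h2
        · exact Or.inl ⟨u, hu, by rwa [one_mul]⟩
        · exact Or.inr h2)
    refine embeds_mono (pd_nonneg hO.pos) ?_ h1
    have h2 : (ll (Nat.card V') : ℝ) ≤ ll (Nat.card V) + 4 + 2 * x :=
      num_ll (hV'.trans (by omega))
    have h3 : √(Real.log ((B'.card + MB'.card : ℕ) + 2)) ≤ 2 + x + y :=
      num_sqrt (k := g + A.card) (hb.trans (by omega)) hm
    have h4 : (ll (Nat.card V') : ℝ) + 3 + √(Real.log ((B'.card + MB'.card : ℕ) + 2)) ≤ 9 * T := by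
      rw [hT]
      linarith
    have h5 := mul_le_mul_of_nonneg_left h4
      (show (0 : ℝ) ≤ 4 * (10 ^ 9 * 1000000000000000) * C * 1 by positivity)
    refine h5.trans (le_of_eq ?_)
    ring
  · intro ℓ' h' s hO
    have h1 := SqR.plane_all hC1 hMS V G σ ℓ' h' s 1 MB B le_rfl hO.conn hO.plane
      hO.pos hO.lip (fun v hv => by
        obtain ⟨u, hu, h2⟩ := hO.low v hv
        exact ⟨u, hu, by rwa [one_mul]⟩) (fun v => by
        rcases hO.high v with ⟨u, hu, h2⟩ | h2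
        · exact Or.inl ⟨u, hu, by rwa [one_mul]⟩
        · exact Or.inr h2)
    refine embeds_mono (pd_nonneg hO.pos) ?_ h1
    have h4 : (ll (Nat.card V) : ℝ) + 1 + y ≤ 9 * T := by
      rw [hT]
      linarith
    have h5 := mul_le_mul_of_nonneg_left h4
      (show (0 : ℝ) ≤ 4 * (10 ^ 9 * 1000000000000000) * C * 1 by positivity)
    refine h5.trans (le_of_eq ?_)
    ring

end Vale.Agent.P235.R2.H90.Final
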