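import Vale.Agent.P235.R2.H90.Final
import Vale.Agent.P235.R2.H680.SurfS

/-!
# P235: graphs on surfaces, few sources and few sinks, slopes at least `1 / D` (helper90)
-/

namespace Vale.Agent.P235.R2.H90.Final

open Vale.Agent.P235 SimpleGraph Vale.Agent.P235.Red

theorem surfTightS {C : ℝ} (hC1 : 1 ≤ C) (hMS : MStarLL C) : SurfS.SurfTightS (5 * 10 ^ 32 * C) := by
  intro V _ G σ ℓ h A B MB g hc hσ hℓ hlip hlow hhigh
  have h1 := surf_sqrt hC1 hMS V G σ ℓ h A B MB g hc hσ hℓ hlip hlow fun v => by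
    by_cases h1 : v ∈ B
    · exact Or.inr (Or.inl h1)
    · by_cases h2 : ∃ m ∈ MB, v ∈ onFace σ m
      · exact Or.inr (Or.inr h2)
      · refine Or.inl (hhigh v h1 fun m hm hv => h2 ⟨m, hm, hv⟩)
  push_cast at h1
  exact h1

/-- **surfaces**: `G` on an orientable surface of Euler genus at most `g`, `h` nonexpansive, every
vertex outside of `A` has an edge of slope at least `1 / D` downwards, every vertex has one upwards
or is in `B` or on a face of `M`; all other edges are arbitrary. -/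
theorem surf_sqrt_D {C : ℝ} (hC1 : 1 ≤ C) (hMS : MStarLL C) (V : Type) [Finite V]
    (G : SimpleGraph V) (σ : Equiv.Perm G.Dart) (ℓ : Sym2 V → ℝ) (h : V → ℝ) (A B : Finset V)
    (M : Finset G.Dart) (g : ℕ) (D : ℝ) (hD : 1 ≤ D) (hc : G.Connected) (hσ : SurfMap g G σ)
    (hℓ : ∀ e ∈ G.edgeSet, 0 < ℓ e)
    (h1 : ∀ u v, G.Adj u v → |h u - h v| ≤ ℓ s(u, v))
    (hlow : ∀ v, (∃ u, G.Adj v u ∧ ℓ s(v, u) ≤ D * (h v - h u)) ∨ v ∈ A)
    (hhigh : ∀ v, (∃ u, G.Adj v u ∧ ℓ s(v, u) ≤ D * (h u - h v)) ∨ v ∈ B ∨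
      ∃ m ∈ M, v ∈ onFace σ m) :
    EmbedsL1 (pathDist G ℓ) (5 * 10 ^ 32 * C * D * ((ll (Nat.card V) : ℝ) + 1 +
      Real.log ((g + A.card : ℕ) + 2) + √(Real.log ((B.card + M.card : ℕ) + 2)))) := by
  have h2 := SurfS.surfS_D (surfTightS hC1 hMS) (by positivity) V G σ ℓ h A B M g D hD hc hσ hℓ h1
    (fun v hv => (hlow v).resolve_right hv)
    (fun v hv hm => by
      rcases hhigh v with h3 | h3 | ⟨m, h3, h4⟩
      · exact h3
      · exact absurd h3 hv
      · exact absurd h4 (hm m h3))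
  push_cast
  exact h2

end Vale.Agent.P235.R2.H90.Final
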