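import Vale.Agent.P235.R2.H90.Cut

/-!
# P235: the cut graph of a map on a surface (helper90)

`A` are the roots, `p` is a parent function outside of `A` along which `h` decreases, `C₀` a
symmetric set of darts outside of the forest.  `QQ` are the other darts, `YY` the vertices on the
chains which start at darts of `QQ`, `Gm` the darts of `QQ` and of these chains.
-/

set_option linter.unusedSectionVars false
set_option linter.unusedDecidableInType false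
set_option linter.unusedFintypeInType false

namespace Vale.Agent.P235.R2.H90.Gam

open Vale.Agent.P235 SimpleGraph Vale.Agent.P235.R2.H90.Cut

variable {V : Type} {G : SimpleGraph V} {h : V → ℝ}

/-- `p v` is a lower neighbour of `v`, for `v` outside of `A` -/
structure Par (G : SimpleGraph V) (h : V → ℝ) (A : Set V) (p : V → V) : Prop where
  adj : ∀ v, v ∉ A → G.Adj v (p v)
  lt : ∀ v, v ∉ A → h (p v) < h v

variable (G) (A : Set V) (p : V → V) (C₀ : Set G.Dart)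

/-- the darts from `v` to `p v` -/
def Dn : Set G.Dart := {d | d.fst ∉ A ∧ d.snd = p d.fst}

/-- the darts from `p v` to `v` -/
def Un : Set G.Dart := {d | d.snd ∉ A ∧ d.fst = p d.snd}

variable {G}

/-- the other darts -/
def QQ : Set G.Dart := {d | d ∉ Dn G A p ∧ d ∉ Un G A p ∧ d ∉ C₀}

/-- the chain of a vertex -/
def Orb : V → V → Prop := Relation.ReflTransGen fun x y => x ∉ A ∧ y = p x

/-- the vertices of the chains -/
def YY : Set V := {v | ∃ q ∈ QQ A p C₀, Orb A p q.fst v}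

/-- the cut graph -/
def Gm : Set G.Dart := {d | d ∈ QQ A p C₀ ∨ (d ∈ Dn G A p ∧ d.fst ∈ YY A p C₀) ∨
  (d ∈ Un G A p ∧ d.snd ∈ YY A p C₀)}

variable {A p C₀}

theorem Dn_symm {d : G.Dart} : d.symm ∈ Dn G A p ↔ d ∈ Un G A p := Iff.rfl

theorem Un_symm {d : G.Dart} : d.symm ∈ Un G A p ↔ d ∈ Dn G A p := Iff.rfl

theorem QQ_symm (hs : ∀ d, d ∈ C₀ → d.symm ∈ C₀) {d : G.Dart} (hd : d ∈ QQ A p C₀) :
    d.symm ∈ QQ A p C₀ := by
  refine ⟨fun h => hd.2.1 h, fun h => hd.1 h, fun h => hd.2.2 ?_⟩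
  have := hs _ h
  rwa [Dart.symm_symm] at this

theorem Gm_symm (hs : ∀ d, d ∈ C₀ → d.symm ∈ C₀) (d : G.Dart) (hd : d ∈ Gm A p C₀) :
    d.symm ∈ Gm A p C₀ := by
  rcases hd with h | h | h
  · exact Or.inl (QQ_symm hs h)
  · exact Or.inr (Or.inr h)
  · exact Or.inr (Or.inl h)

theorem Dn_Un (hp : Par G h A p) {d : G.Dart} (h1 : d ∈ Dn G A p) (h2 : d ∈ Un G A p) : False := by
  have h3 := hp.lt _ h1.1
  have h4 := hp.lt _ h2.1
  rw [← h1.2] at h3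
  rw [← h2.2] at h4
  exact lt_asymm h3 h4

theorem Y_of_Q {q : G.Dart} (hq : q ∈ QQ A p C₀) : q.fst ∈ YY A p C₀ :=
  ⟨q, hq, Relation.ReflTransGen.refl⟩

theorem Y_down {v : V} (hv : v ∈ YY A p C₀) (hA : v ∉ A) : p v ∈ YY A p C₀ := by
  obtain ⟨q, hq, h1⟩ := hv
  exact ⟨q, hq, h1.tail ⟨hA, rfl⟩⟩

/-- the dart to the parent -/
def dn (hp : Par G h A p) (v : V) (hv : v ∉ A) : G.Dart := ⟨(v, p v), hp.adj v hv⟩

theorem dn_mem (hp : Par G h A p) {v : V} (hv : v ∉ A) : dn hp v hv ∈ Dn G A p := ⟨hv, rfl⟩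

theorem dn_Gm (hp : Par G h A p) {v : V} (hv : v ∉ A) (hY : v ∈ YY A p C₀) :
    dn hp v hv ∈ Gm A p C₀ := Or.inr (Or.inl ⟨dn_mem hp hv, hY⟩)

theorem dn_eq (hp : Par G h A p) {d : G.Dart} (hd : d ∈ Dn G A p) :
    d = dn hp d.fst hd.1 := Dart.ext _ _ (Prod.ext rfl hd.2)

/-- at every vertex of the chains there is a dart which does not go down -/
theorem exists_up (hp : Par G h A p) {v : V} (hv : v ∈ YY A p C₀) :
    ∃ d ∈ Gm A p C₀, d.fst = v ∧ (d ∈ QQ A p C₀ ∨ d ∈ Un G A p) := by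
  obtain ⟨q, hq, h1⟩ := hv
  rcases Relation.ReflTransGen.cases_tail h1 with h2 | ⟨w, h2, hw, rfl⟩
  · exact ⟨q, Or.inl hq, h2.symm, Or.inl hq⟩
  · exact ⟨(dn hp w hw).symm, Or.inr (Or.inr ⟨dn_mem hp hw, q, hq, h2⟩), rfl,
      Or.inr (dn_mem hp hw)⟩

theorem not_Dn (hp : Par G h A p) {d : G.Dart} (hd : d ∈ QQ A p C₀ ∨ d ∈ Un G A p) :
    d ∉ Dn G A p := fun h1 => hd.elim (fun h2 => h2.1 h1) fun h2 => Dn_Un hp h1 h2

theorem XX_Gm (hp : Par G h A p) : XX (Gm A p C₀) = YY A p C₀ := by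
  ext v
  constructor
  · rintro ⟨d, h1 | h1 | h1, rfl⟩
    · exact Y_of_Q h1
    · exact h1.2
    · rw [h1.1.2]
      exact Y_down h1.2 h1.1.1
  · intro hv
    obtain ⟨d, h1, h2, -⟩ := exists_up hp hv
    exact ⟨d, h1, h2⟩

theorem ni_Gm (hp : Par G h A p) (hs : ∀ d, d ∈ C₀ → d.symm ∈ C₀)
    (hA : ∀ q ∈ QQ A p C₀, ¬ (q.fst ∈ A ∧ q.snd ∈ A ∧ (∀ e ∈ Gm A p C₀, e.fst = q.fst → e = q) ∧
      ∀ e ∈ Gm A p C₀, e.fst = q.snd → e = q.symm)) : NI (Gm A p C₀) := by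
  intro e he
  by_contra hcon
  push Not at hcon
  obtain ⟨hc1, hc2⟩ := hcon
  rcases he with h1 | h1 | h1
  · refine hA e h1 ⟨?_, ?_, hc1, hc2⟩
    · by_contra h2
      have h3 := hc1 _ (dn_Gm hp h2 (Y_of_Q h1)) rfl
      exact h1.1 (h3 ▸ dn_mem hp h2)
    · by_contra h2
      have h3 := hc2 _ (dn_Gm hp h2 (Y_of_Q (QQ_symm hs h1))) rfl
      exact h1.2.1 (show e.symm ∈ Dn G A p from h3 ▸ dn_mem hp h2)
  · obtain ⟨d, h2, h3, h4⟩ := exists_up hp h1.2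
    have h5 := hc1 d h2 h3
    exact not_Dn hp h4 (h5 ▸ h1.1)
  · obtain ⟨d, h2, h3, h4⟩ := exists_up hp h1.2
    have h5 := hc2 d h2 h3
    exact not_Dn hp h4 (h5 ▸ h1.1)

/-! ### counting -/

section count
variable [Finite V]

theorem card_Dn (hp : Par G h A p) (S : Set V) :
    {d | d ∈ Dn G A p ∧ d.fst ∈ S}.ncard = (S \ A).ncard := by
  refine Set.ncard_congr (fun d _ => d.fst) ?_ ?_ ?_
  · rintro d ⟨h1, h2⟩
    exact ⟨h2, h1.1⟩
  · intro d d' h1 h2 h3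
    refine Dart.ext _ _ (Prod.ext h3 ?_)
    have h4 : d.fst = d'.fst := h3
    rw [h1.1.2, h2.1.2, h4]
  · rintro v ⟨h1, h2⟩
    exact ⟨dn hp v h2, ⟨dn_mem hp h2, h1⟩, rfl⟩

theorem card_Un (hp : Par G h A p) (S : Set V) :
    {d | d ∈ Un G A p ∧ d.snd ∈ S}.ncard = (S \ A).ncard := by
  refine Set.ncard_congr (fun d _ => d.snd) ?_ ?_ ?_
  · rintro d ⟨h1, h2⟩
    exact ⟨h2, h1.1⟩
  · intro d d' h1 h2 h3
    refine Dart.ext _ _ (Prod.ext ?_ h3)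
    have h4 : d.snd = d'.snd := h3
    rw [h1.1.2, h2.1.2, h4]
  · rintro v ⟨h1, h2⟩
    exact ⟨(dn hp v h2).symm, ⟨dn_mem hp h2, h1⟩, rfl⟩

theorem card_Gm (hp : Par G h A p) :
    (Gm A p C₀).ncard = (QQ A p C₀).ncard + 2 * (YY A p C₀ \ A).ncard := by
  have : Finite G.Dart := Tight.fin_dart
  have h1 : Gm A p C₀ = QQ A p C₀ ∪ ({d | d ∈ Dn G A p ∧ d.fst ∈ YY A p C₀} ∪
      {d | d ∈ Un G A p ∧ d.snd ∈ YY A p C₀}) := rfl
  have h2 : Disjoint {d | d ∈ Dn G A p ∧ d.fst ∈ YY A p C₀}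
      {d | d ∈ Un G A p ∧ d.snd ∈ YY A p C₀} := by
    rw [Set.disjoint_left]
    intro d h3 h4
    exact Dn_Un hp h3.1 h4.1
  have h3 : Disjoint (QQ A p C₀) ({d | d ∈ Dn G A p ∧ d.fst ∈ YY A p C₀} ∪
      {d | d ∈ Un G A p ∧ d.snd ∈ YY A p C₀}) := by
    rw [Set.disjoint_left]
    rintro d h4 (h5 | h5)
    · exact h4.1 h5.1
    · exact h4.2.1 h5.1
  rw [h1, Set.ncard_union_eq h3, Set.ncard_union_eq h2, card_Dn hp, card_Un hp]
  omega

theorem card_all (hp : Par G h A p) (hd : ∀ d ∈ C₀, d ∉ Dn G A p ∧ d ∉ Un G A p) :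
    Nat.card G.Dart + 2 * A.ncard = 2 * Nat.card V + C₀.ncard + (QQ A p C₀).ncard := by
  have : Finite G.Dart := Tight.fin_dart
  have h0 : (Set.univ : Set G.Dart) = ({d | d ∈ Dn G A p ∧ d.fst ∈ Set.univ} ∪
      {d | d ∈ Un G A p ∧ d.snd ∈ Set.univ}) ∪ (C₀ ∪ QQ A p C₀) := by
    symm
    rw [Set.eq_univ_iff_forall]
    intro d
    by_cases h1 : d ∈ Dn G A p
    · exact Or.inl (Or.inl ⟨h1, trivial⟩)
    · by_cases h2 : d ∈ Un G A p
      · exact Or.inl (Or.inr ⟨h2, trivial⟩)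
      · by_cases h3 : d ∈ C₀
        · exact Or.inr (Or.inl h3)
        · exact Or.inr (Or.inr ⟨h1, h2, h3⟩)
  have h1 : Disjoint ({d | d ∈ Dn G A p ∧ d.fst ∈ Set.univ} ∪
      {d | d ∈ Un G A p ∧ d.snd ∈ Set.univ}) (C₀ ∪ QQ A p C₀) := by
    rw [Set.disjoint_left]
    rintro d (h2 | h2) (h3 | h3)
    · exact (hd d h3).1 h2.1
    · exact h3.1 h2.1
    · exact (hd d h3).2 h2.1
    · exact h3.2.1 h2.1
  have h2 : Disjoint {d | d ∈ Dn G A p ∧ d.fst ∈ Set.univ}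
      {d | d ∈ Un G A p ∧ d.snd ∈ Set.univ} := by
    rw [Set.disjoint_left]
    intro d h3 h4
    exact Dn_Un hp h3.1 h4.1
  have h3 : Disjoint C₀ (QQ A p C₀) := by
    rw [Set.disjoint_left]
    intro d h3 h4
    exact h4.2.2 h3
  have h4 := congrArg Set.ncard h0
  rw [Set.ncard_univ, Set.ncard_union_eq h1, Set.ncard_union_eq h2, Set.ncard_union_eq h3,
    card_Dn hp, card_Un hp] at h4
  have h5 := Set.ncard_add_ncard_compl A
  rw [Set.compl_eq_univ_sdiff] at h5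
  omega

/-- the Euler count for the cut -/
theorem euler_count (hp : Par G h A p) (hd : ∀ d ∈ C₀, d ∉ Dn G A p ∧ d ∉ Un G A p) {F i : ℕ}
    (hF : C₀.ncard + 2 ≤ 2 * F + i) (hi : 2 * (A ∩ YY A p C₀).ncard + i ≤ 2 * A.ncard) :
    2 * (Nat.card G.edgeSet + (XX (Gm A p C₀)).ncard + 1) ≤ 2 * (Nat.card V + F) +
      Nat.card (Gm A p C₀) := by
  have h1 := card_all hp hd
  have h2 := card_Gm (C₀ := C₀) hp
  rw [card_dart] at h1
  have h3 : (YY A p C₀).ncard = (A ∩ YY A p C₀).ncard + (YY A p C₀ \ A).ncard := by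
    rw [Set.inter_comm]
    exact (Set.ncard_inter_add_ncard_sdiff_eq_ncard _ _ (Set.toFinite _)).symm
  rw [XX_Gm hp, h3, Nat.card_coe_set_eq (Gm A p C₀), h2]
  omega

end count

end Vale.Agent.P235.R2.H90.Gam
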