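import Vale.Agent.P235.R2.H582.KprSpec
import Vale.Agent.P235.R2.RED.Bags2

/-!
# P235: (R7) random retractions onto any set (helper90)
-/

set_option autoImplicit false

namespace Vale.Agent.P235.Kpr

open Vale.Agent.P235

/-- the difference of the levels of two close numbers -/
theorem logb_close {a b t : ℝ} (ha : 100 * t < a) (ht : 0 < t) (h1 : a ≤ b + t) (h2 : b ≤ a + t) :
    |Real.logb 2 a - Real.logb 2 b| ≤ 2 * t / a := by
  have ha0 : 0 < a := by linarith
  have hb0 : 0 < b := by linarith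
  have hl2 : 0.69 < Real.log 2 := by have := Real.log_two_gt_d9; linarith
  have hl0 : 0 < Real.log 2 := by linarith
  have hab : b * 100 ≥ 99 * a := by linarith
  have k1 : Real.log a - Real.log b ≤ (100 / 99) * (t / a) := by
    rw [← Real.log_div ha0.ne' hb0.ne']
    have h3 := Real.log_le_sub_one_of_pos (div_pos ha0 hb0)
    refine h3.trans ?_
    rw [div_sub_one hb0.ne', mul_div_assoc', div_le_div_iff₀ hb0 ha0]
    nlinarith
  have k2 : Real.log b - Real.log a ≤ (100 / 99) * (t / a) := by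
    rw [← Real.log_div hb0.ne' ha0.ne']
    have h3 := Real.log_le_sub_one_of_pos (div_pos hb0 ha0)
    refine h3.trans ?_
    rw [div_sub_one ha0.ne', mul_div_assoc', div_le_div_iff_of_pos_right ha0]
    linarith
  have k3 : |Real.log a - Real.log b| ≤ (100 / 99) * (t / a) := abs_le.2 ⟨by linarith, k1⟩
  have k4 : 0 < t / a := div_pos ht ha0
  unfold Real.logb
  rw [← sub_div, abs_div, abs_of_pos hl0, div_le_iff₀ hl0, mul_div_assoc]
  nlinarith

/-- **(R7)** -/
theorem rowRetr (h3 : RowCount) (h6 : RowKPR) : RowRetr := by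
  intro V _ G ℓ hc hplane hℓ X ν hν
  classical
  obtain ⟨v0⟩ := hc.nonempty
  have hd0 := Red.pd_self hℓ
  have hnn := Red.pd_nonneg hℓ
  have hdc := Red.pd_comm hc hℓ
  have htri := Red.pd_tri hc hℓ
  obtain ⟨r, hr⟩ : ∃ r : V → ℝ, ∀ v, r v = pathDist G ℓ v (ν v) := ⟨_, fun _ => rfl⟩
  have hr0 : ∀ v, 0 ≤ r v := fun v => by rw [hr]; exact hnn _ _
  have hrX : ∀ v ∈ X, r v = 0 := fun v hv => by rw [hr, hν.self v hv, hd0]
  have hrpos : ∀ v, v ∉ X → 0 < r v := fun v hv => by rw [hr]; exact near_pos hc hℓ hν hv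
  have hrl : ∀ u v, r u ≤ pathDist G ℓ u v + r v := fun u v => by
    rw [hr u, hr v]
    exact (hν.le u (ν v) (hν.mem v)).trans (htri u v (ν v))
  obtain ⟨N, hN0, hN⟩ : ∃ N : ℕ, 0 < N ∧ ∀ u v, G.Adj u v → r u ≤ N * ℓ s(u, v) := by
    obtain ⟨K, hK⟩ := (Set.finite_range fun p : V × V => r p.1 / ℓ s(p.1, p.2)).bddAbove
    obtain ⟨N, hN⟩ := exists_nat_gt K
    refine ⟨N + 1, Nat.succ_pos _, fun u v ha => ?_⟩
    have h1 := hK (Set.mem_range_self (u, v))
    have h2 := hℓ _ (G.mem_edgeSet.2 ha)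
    have h4 : r u / ℓ s(u, v) ≤ (N + 1 : ℕ) := by
      push_cast
      have h5 : r u / ℓ s(u, v) ≤ K := h1
      linarith
    rwa [div_le_iff₀ h2] at h4
  have hNR : (0 : ℝ) < N := by exact_mod_cast hN0
  obtain ⟨lv, hlv⟩ : ∃ lv : Fin N → V → ℤ, ∀ k v, lv k v =
      ⌊Real.logb 2 (r v) + ((k : ℕ) : ℝ) / N⌋ := ⟨_, fun _ _ => rfl⟩
  obtain ⟨sc, hsc⟩ : ∃ sc : Fin N → ℤ → ℝ, ∀ k j, sc k j =
      (2 : ℝ) ^ ((j : ℝ) - ((k : ℕ) : ℝ) / N) := ⟨_, fun _ _ => rfl⟩
  have hsc0 : ∀ k j, 0 < sc k j := fun k j => by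
    rw [hsc]
    exact Real.rpow_pos_of_pos two_pos _
  have hs1 : ∀ k v, v ∉ X → sc k (lv k v) ≤ r v := by
    intro k v hv
    have h1 := Int.floor_le (Real.logb 2 (r v) + ((k : ℕ) : ℝ) / N)
    rw [← hlv] at h1
    rw [hsc]
    calc (2 : ℝ) ^ ((lv k v : ℝ) - ((k : ℕ) : ℝ) / N) ≤ 2 ^ Real.logb 2 (r v) :=
          Real.rpow_le_rpow_of_exponent_le one_le_two (by linarith)
      _ = r v := Real.rpow_logb two_pos (by norm_num) (hrpos v hv)
  have hs2 : ∀ k v, v ∉ X → r v ≤ 2 * sc k (lv k v) := by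
    intro k v hv
    have h1 := (Int.lt_floor_add_one (Real.logb 2 (r v) + ((k : ℕ) : ℝ) / N)).le
    rw [← hlv] at h1
    calc r v = 2 ^ Real.logb 2 (r v) := (Real.rpow_logb two_pos (by norm_num) (hrpos v hv)).symm
      _ ≤ (2 : ℝ) ^ (1 + ((lv k v : ℝ) - ((k : ℕ) : ℝ) / N)) :=
          Real.rpow_le_rpow_of_exponent_le one_le_two (by linarith)
      _ = 2 * sc k (lv k v) := by rw [Real.rpow_add two_pos, Real.rpow_one, hsc]
  choose cc hcc1 hcc2 using fun (k : Fin N) (j : ℤ) =>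
    h6 V G ℓ hc hplane hℓ (sc k j / 52) N (div_pos (hsc0 k j) (by norm_num)) hN0
  have hrep : ∀ (k : Fin N) (ω : Fin N × Fin N × Fin N) (j : ℤ) (q : V), ∃ z,
      (∃ z', z' ∉ X ∧ lv k z' = j ∧ cc k j ω z' = q) →
        z ∉ X ∧ lv k z = j ∧ cc k j ω z = q := by
    intro k ω j q
    by_cases h : ∃ z', z' ∉ X ∧ lv k z' = j ∧ cc k j ω z' = q
    · obtain ⟨z, hz⟩ := h
      exact ⟨z, fun _ => hz⟩
    · exact ⟨v0, fun h' => absurd h' h⟩
  choose rep hrep using hrep
  obtain ⟨π, hπ⟩ : ∃ π : Fin N × Fin N × Fin N × Fin N → V → V, ∀ i v, π i v =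
      if v ∈ X then v else ν (rep i.1 i.2 (lv i.1 v) (cc i.1 (lv i.1 v) i.2 v)) :=
    ⟨_, fun _ _ => rfl⟩
  have hpX : ∀ i v, π i v ∈ X := by
    intro i v
    rw [hπ]
    split_ifs with h
    · exact h
    · exact hν.mem _
  have hp3 : ∀ i v, pathDist G ℓ v (π i v) ≤ 3 * pathDist G ℓ v (ν v) := by
    rintro ⟨k, ω⟩ v
    rw [hπ]
    split_ifs with h
    · rw [hd0]
      have := hnn v (ν v)
      positivity
    · obtain ⟨z, hz⟩ : ∃ z, z = rep k ω (lv k v) (cc k (lv k v) ω v) := ⟨_, rfl⟩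
      obtain ⟨h1, h2, h4⟩ := hrep k ω (lv k v) (cc k (lv k v) ω v) ⟨v, h, rfl, rfl⟩
      rw [← hz] at h1 h2 h4
      show pathDist G ℓ v (ν (rep k ω (lv k v) (cc k (lv k v) ω v))) ≤ _
      rw [← hz, ← hr v]
      have h5 := hcc1 k (lv k v) ω z v h4
      have h6 := htri v z (ν z)
      rw [← hr z, hdc v z] at h6
      have h7 := hs2 k z h1
      rw [h2] at h7
      have h8 := hs1 k v h
      linarith
  have hpe : ∀ k ω u v, u ∉ X → v ∉ X → lv k u = lv k v →
      cc k (lv k u) ω u = cc k (lv k u) ω v → π (k, ω) u = π (k, ω) v := by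
    intro k ω u v hu hv h1 h2
    rw [hπ, hπ, if_neg hu, if_neg hv]
    show ν (rep k ω (lv k u) (cc k (lv k u) ω u)) = ν (rep k ω (lv k v) (cc k (lv k v) ω v))
    rw [h2, h1]
  have hN4 : (0 : ℝ) < (N : ℝ) ^ 4 := by positivity
  refine ⟨Fin N × Fin N × Fin N × Fin N, inferInstance, fun _ => 1 / (N : ℝ) ^ 4, π,
    fun _ => by positivity, ?_, hpX, ?_, hp3⟩
  · rw [Finset.sum_const, Finset.card_univ, Fintype.card_prod, Fintype.card_prod,
      Fintype.card_prod, Fintype.card_fin, nsmul_eq_mul]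
    push_cast
    field_simp
  intro u v ha
  obtain ⟨t, ht'⟩ : ∃ t, t = ℓ s(u, v) := ⟨_, rfl⟩
  rw [← ht']
  have ht : 0 < t := by rw [ht']; exact hℓ _ (G.mem_edgeSet.2 ha)
  have huv : pathDist G ℓ u v ≤ t := by rw [ht']; exact Red.pd_adj hℓ ha
  have hru : r u ≤ r v + t := by have := hrl u v; linarith
  have hrv : r v ≤ r u + t := by have := hrl v u; rw [hdc v u] at this; linarith
  have hall : ∀ i, pathDist G ℓ (π i u) (π i v) ≤ t + 3 * r u + 3 * r v := by
    intro i
    have h1 := htri (π i u) u (π i v)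
    have h2 := htri u v (π i v)
    have h4 := hp3 i u
    have h5 := hp3 i v
    rw [← hr] at h4 h5
    rw [hdc (π i u) u] at h1
    linarith
  have hsum : ∀ x : ℝ, ∑ _i : Fin N × Fin N × Fin N × Fin N, 1 / (N : ℝ) ^ 4 * x = x := by
    intro x
    rw [Finset.sum_const, Finset.card_univ, Fintype.card_prod, Fintype.card_prod,
      Fintype.card_prod, Fintype.card_fin, nsmul_eq_mul]
    push_cast
    field_simp
  by_cases hcase : r u ≤ 100 * t
  · calc ∑ i, 1 / (N : ℝ) ^ 4 * pathDist G ℓ (π i u) (π i v)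
        ≤ ∑ _i : Fin N × Fin N × Fin N × Fin N, 1 / (N : ℝ) ^ 4 * (5000 * t) := by
          refine Finset.sum_le_sum fun i _ => mul_le_mul_of_nonneg_left ?_ (by positivity)
          have := hall i
          linarith
      _ = 5000 * t := hsum _
  · rw [not_le] at hcase
    have hu0 : 0 < r u := by linarith
    have hv0 : 0 < r v := by linarith
    have huX : u ∉ X := fun h => by rw [hrX u h] at hu0; exact lt_irrefl _ hu0
    have hvX : v ∉ X := fun h => by rw [hrX v h] at hv0; exact lt_irrefl _ hv0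
    have hNt : r u ≤ N * t := by rw [ht']; exact hN u v ha
    obtain ⟨q, hq⟩ : ∃ q, q = t / r u := ⟨_, rfl⟩
    have hq0 : 0 < q := by rw [hq]; exact div_pos ht hu0
    have hqr : q * r u = t := by rw [hq]; exact div_mul_cancel₀ _ hu0.ne'
    have hqN : 1 ≤ N * q := by
      rw [hq, ← mul_div_assoc, one_le_div hu0]
      exact hNt
    -- the two events
    have e1 : ((Finset.univ.filter fun k : Fin N => lv k u ≠ lv k v).card : ℝ) ≤ 3 * (N * q) := by
      have h1 := h3 (Real.logb 2 (r u)) (Real.logb 2 (r v)) (2 * t / r u) 1 N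
        (logb_close hcase ht hru hrv) one_pos hN0
      have h2 : {k : Fin N | ⌊(Real.logb 2 (r u) + ((k : ℕ) : ℝ) * 1 / N) / 1⌋ ≠
          ⌊(Real.logb 2 (r v) + ((k : ℕ) : ℝ) * 1 / N) / 1⌋}.ncard =
          (Finset.univ.filter fun k : Fin N => lv k u ≠ lv k v).card := by
        rw [← Set.ncard_coe_finset]
        congr 1
        ext k
        simp only [Set.mem_ofPred_eq, Finset.coe_filter, Finset.mem_univ, true_and, hlv, mul_one,
          div_one]
      rw [h2] at h1
      refine h1.trans ?_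
      have h4 : (N : ℝ) * (2 * t / r u) / 1 = 2 * (N * q) := by
        rw [hq, div_one]
        ring
      rw [h4]
      linarith
    have e2 : ∀ k : Fin N, ((Finset.univ.filter fun ω : Fin N × Fin N × Fin N =>
        cc k (lv k u) ω u ≠ cc k (lv k u) ω v).card : ℝ) ≤ 315 * (N : ℝ) ^ 3 * q := by
      intro k
      have h1 := hcc2 k (lv k u) u v ha
      have h2 : {ω | cc k (lv k u) ω u ≠ cc k (lv k u) ω v}.ncard =
          (Finset.univ.filter fun ω : Fin N × Fin N × Fin N =>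
        cc k (lv k u) ω u ≠ cc k (lv k u) ω v).card := by
        rw [← Set.ncard_coe_finset]
        congr 1
        ext ω
        simp
      rw [h2, ← ht'] at h1
      refine h1.trans ?_
      have h4 := hs2 k u huX
      have h5 := hsc0 k (lv k u)
      have h7 : t / (sc k (lv k u) / 52) ≤ 104 * q := by
        rw [div_le_iff₀ (div_pos h5 (by norm_num)), ← hqr]
        nlinarith
      have h8 : 1 / (N : ℝ) ≤ q := by
        rw [div_le_iff₀ hNR]
        linarith
      have h9 : (0 : ℝ) ≤ 3 * (N : ℝ) ^ 3 := by positivity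
      have h10 := mul_le_mul_of_nonneg_left (add_le_add h7 h8) h9
      refine h10.trans (le_of_eq ?_)
      ring
    have e3 : ∀ i : Fin N × Fin N × Fin N × Fin N, pathDist G ℓ (π i u) (π i v) ≤
        ((if lv i.1 u ≠ lv i.1 v then (1 : ℝ) else 0) +
          if cc i.1 (lv i.1 u) i.2 u ≠ cc i.1 (lv i.1 u) i.2 v then (1 : ℝ) else 0) *
          (7 * r u) := by
      rintro ⟨k, ω⟩
      have h1 := hall (k, ω)
      have h2 : pathDist G ℓ (π (k, ω) u) (π (k, ω) v) ≤ 7 * r u := by linarith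
      show _ ≤ ((if lv k u ≠ lv k v then (1 : ℝ) else 0) +
          if cc k (lv k u) ω u ≠ cc k (lv k u) ω v then (1 : ℝ) else 0) * (7 * r u)
      by_cases k1 : lv k u = lv k v
      · by_cases k2 : cc k (lv k u) ω u = cc k (lv k u) ω v
        · rw [hpe k ω u v huX hvX k1 k2, hd0]
          positivity
        · rw [if_neg (not_not.2 k1), if_pos k2]
          linarith
      · rw [if_pos k1]
        split_ifs
        · linarith
        · linarith
    have e4 : ∑ i : Fin N × Fin N × Fin N × Fin N,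
        ((if lv i.1 u ≠ lv i.1 v then (1 : ℝ) else 0) +
          if cc i.1 (lv i.1 u) i.2 u ≠ cc i.1 (lv i.1 u) i.2 v then (1 : ℝ) else 0) ≤
        318 * (N : ℝ) ^ 4 * q := by
      rw [Finset.sum_add_distrib, Fintype.sum_prod_type, Fintype.sum_prod_type]
      have h1 : ∑ k : Fin N, ∑ _ω : Fin N × Fin N × Fin N,
          (if lv k u ≠ lv k v then (1 : ℝ) else 0) =
          (N : ℝ) ^ 3 * (Finset.univ.filter fun k : Fin N => lv k u ≠ lv k v).card := by
        simp only [Finset.sum_const, Finset.card_univ, Fintype.card_prod, Fintype.card_fin,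
          nsmul_eq_mul]
        rw [← Finset.mul_sum, Finset.sum_boole]
        push_cast
        ring
      have h2 : ∑ k : Fin N, ∑ ω : Fin N × Fin N × Fin N,
          (if cc k (lv k u) ω u ≠ cc k (lv k u) ω v then (1 : ℝ) else 0) ≤
          N * (315 * (N : ℝ) ^ 3 * q) := by
        have h4 : ∀ k ∈ (Finset.univ : Finset (Fin N)), ∑ ω : Fin N × Fin N × Fin N,
            (if cc k (lv k u) ω u ≠ cc k (lv k u) ω v then (1 : ℝ) else 0) ≤
            315 * (N : ℝ) ^ 3 * q := by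
          intro k _
          rw [Finset.sum_boole]
          exact e2 k
        refine (Finset.sum_le_sum h4).trans (le_of_eq ?_)
        rw [Finset.sum_const, Finset.card_univ, Fintype.card_fin, nsmul_eq_mul]
      have h4 := mul_le_mul_of_nonneg_left e1 (show (0 : ℝ) ≤ (N : ℝ) ^ 3 by positivity)
      have h5 : (N : ℝ) ^ 3 * (3 * (N * q)) + N * (315 * (N : ℝ) ^ 3 * q) =
          318 * (N : ℝ) ^ 4 * q := by ring
      calc _ ≤ (N : ℝ) ^ 3 * (3 * (N * q)) + N * (315 * (N : ℝ) ^ 3 * q) := by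
            refine add_le_add ?_ h2
            exact (le_of_eq h1).trans h4
        _ = _ := h5
    calc ∑ i, 1 / (N : ℝ) ^ 4 * pathDist G ℓ (π i u) (π i v)
        ≤ ∑ i : Fin N × Fin N × Fin N × Fin N, 1 / (N : ℝ) ^ 4 *
          (((if lv i.1 u ≠ lv i.1 v then (1 : ℝ) else 0) +
          if cc i.1 (lv i.1 u) i.2 u ≠ cc i.1 (lv i.1 u) i.2 v then (1 : ℝ) else 0) *
          (7 * r u)) :=
          Finset.sum_le_sum fun i _ => mul_le_mul_of_nonneg_left (e3 i) (by positivity)
      _ = 1 / (N : ℝ) ^ 4 * ((∑ i : Fin N × Fin N × Fin N × Fin N,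
          ((if lv i.1 u ≠ lv i.1 v then (1 : ℝ) else 0) +
          if cc i.1 (lv i.1 u) i.2 u ≠ cc i.1 (lv i.1 u) i.2 v then (1 : ℝ) else 0)) *
          (7 * r u)) := by
          rw [← Finset.mul_sum, ← Finset.sum_mul]
      _ ≤ 1 / (N : ℝ) ^ 4 * ((318 * (N : ℝ) ^ 4 * q) * (7 * r u)) := by
          refine mul_le_mul_of_nonneg_left (mul_le_mul_of_nonneg_right e4 ?_) (by positivity)
          positivity
      _ = 2226 * (q * r u) := by
          field_simp
          ring
      _ ≤ 5000 * t := by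
          rw [hqr]
          linarith

end Vale.Agent.P235.Kpr
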