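import Vale.Agent.P235.R2.H90.Root
import Vale.Agent.P235.R2.H934.Multi4
import Vale.Agent.P235.R2.H582.Wide

/-!
# P235: graphs on surfaces with few sources and sinks (helper90)

`G` on a surface of Euler genus at most `g`, `h` nonexpansive, every vertex outside of `A` has a
tight edge down, every vertex which is neither in `B` nor on a face of `MB` a tight edge up, all
other edges arbitrary.
-/

set_option linter.unusedSectionVars false
set_option linter.unusedDecidableInType false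
set_option linter.unusedFintypeInType false

namespace Vale.Agent.P235.R2.H90.Surf

open Vale.Agent.P235 SimpleGraph Vale.Agent.P235.Red Vale.Agent.P235.R2.H90.Cut
  Vale.Agent.P235.R2.H90.Gam Vale.Agent.P235.R2.H90.Lift Vale.Agent.P235.R2.H90.Root
open Vale.Agent.P235.R2.H582 (embeds_mono ll_mono)

variable {V : Type} {G : SimpleGraph V} {σ : Equiv.Perm G.Dart} {h : V → ℝ} {A : Set V} {p : V → V}
  {C₀ : Set G.Dart} {ℓ : Sym2 V → ℝ}

/-- chains are isometric -/
theorem orb_le (hp : Par G h A p) (hc : G.Connected) (hℓ : ∀ e ∈ G.edgeSet, 0 < ℓ e)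
    (hlow : ∀ v, v ∉ A → ℓ s(v, p v) ≤ h v - h (p v)) {a b : V} (hab : Orb A p a b) :
    pathDist G ℓ a b ≤ h a - h b := by
  induction hab with
  | refl => rw [pd_self hℓ]; simp
  | @tail c b _ h1 ih =>
    obtain ⟨h2, rfl⟩ := h1
    have h3 := pd_tri hc hℓ a c (p c)
    have h4 := pd_adj hℓ (hp.adj c h2)
    have h5 := hlow c h2
    linarith

/-- the chains are lanes -/
theorem lanes_YY [Finite V] (hp : Par G h A p) (hc : G.Connected) (hℓ : ∀ e ∈ G.edgeSet, 0 < ℓ e)
    (hlip : ∀ u v, G.Adj u v → |h u - h v| ≤ ℓ s(u, v))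
    (hlow : ∀ v, v ∉ A → ℓ s(v, p v) ≤ h v - h (p v)) {n : ℕ}
    (hn : (QQ A p C₀ : Set G.Dart).ncard ≤ n) : Lanes G ℓ n (YY A p C₀) := by
  classical
  have : Finite G.Dart := Tight.fin_dart
  have hfin : (QQ A p C₀ : Set G.Dart).Finite := Set.toFinite _
  obtain ⟨e⟩ : Nonempty (Fin (QQ A p C₀ : Set G.Dart).ncard ≃ (QQ A p C₀ : Set G.Dart)) := by
    have := Fintype.ofFinite (QQ A p C₀ : Set G.Dart)
    refine ⟨(Fintype.equivFinOfCardEq ?_).symm⟩
    rw [← Nat.card_eq_fintype_card, Nat.card_coe_set_eq]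
  refine ⟨h, _, fun i => {v | Orb A p (e i).1.fst v}, hn, R2.H582.Wd.lip_pdE hc hlip, ?_, ?_, ?_⟩
  · intro i
    exact ⟨_, Relation.ReflTransGen.refl⟩
  · intro i a ha b hb
    have hu : Relator.RightUnique fun x y : V => x ∉ A ∧ y = p x := by
      rintro x y z ⟨_, rfl⟩ ⟨_, rfl⟩
      rfl
    rcases Relation.ReflTransGen.total_of_right_unique hu ha hb with h1 | h1
    · exact (orb_le hp hc hℓ hlow h1).trans (le_abs_self _)
    · rw [pd_comm hc hℓ, abs_sub_comm]
      exact (orb_le hp hc hℓ hlow h1).trans (le_abs_self _)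
  · ext v
    rw [Set.mem_iUnion]
    constructor
    · rintro ⟨q, hq, h1⟩
      refine ⟨e.symm ⟨q, hq⟩, ?_⟩
      show Orb A p (e (e.symm ⟨q, hq⟩)).1.fst v
      rw [Equiv.apply_symm_apply]
      exact h1
    · rintro ⟨i, hi⟩
      exact ⟨(e i).1, (e i).2, hi⟩

theorem reach_not_mem {X : Set V} {u v : V} (h : v ∈ compSet G X u) : v ∉ X := by
  obtain ⟨w, hw⟩ := h
  exact hw v w.end_mem_support

/-- the pieces -/
theorem piece_cut [Finite V] (hc : G.Connected) (hℓ : ∀ e ∈ G.edgeSet, 0 < ℓ e)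
    (hv : ∀ v, ∃ d : G.Dart, d.fst = v)
    {Γ : Set G.Dart} (hC : CD σ Γ) (hcon : (Gt hC).Connected) (u : V) :
    ∃ κ : compSet G (XX Γ) u → W σ Γ,
      H341W.Piece G ℓ (compSet G (XX Γ) u) (Gt hC) (fun e => ℓ (e.map pr)) κ := by
  have : Finite G.Dart := Tight.fin_dart
  choose dd hdd using hv
  refine ⟨fun a => tau σ Γ (dd a.1), ?_⟩
  refine R2.H582.Wd.piece_ofE hc hℓ (fun a b hab => pr_adj hC hab) ?_ hcon ?_
  · intro a b ha hb hab
    obtain ⟨d, rfl⟩ := tau_surj a
    obtain ⟨d', rfl⟩ := tau_surj b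
    have h1 := reach_not_mem ha
    have h2 := reach_not_mem hb
    rw [pr_tau hC] at h1 h2
    rw [pr_tau hC, pr_tau hC] at hab
    have h3 := adj_tau hC (⟨(d.fst, d'.fst), hab⟩ : G.Dart)
    have h4 : tau σ Γ (⟨(d.fst, d'.fst), hab⟩ : G.Dart) = tau σ Γ d := tau_out hC h1 rfl
    have h5 : tau σ Γ (faceNext σ (⟨(d.fst, d'.fst), hab⟩ : G.Dart)) = tau σ Γ d' :=
      tau_out hC h2 (Cut.faceNext_fst hC _)
    rw [h4, h5] at h3
    exact h3
  · intro a
    show pr (tau σ Γ (dd a.1)) = a.1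
    rw [pr_tau hC, hdd]

theorem log_three {x : ℝ} (hx : 1 ≤ x) {k : ℝ} (hk0 : 0 < k) (hk : k ≤ 7) :
    Real.log (k * x) ≤ 2 + Real.log x := by
  rw [Real.log_mul hk0.ne' (by linarith)]
  have h1 : Real.log k ≤ 2 := by
    have h2 : Real.log k ≤ Real.log 7 := Real.log_le_log hk0 hk
    have h3 : Real.log 7 ≤ 2 := by
      rw [Real.log_le_iff_le_exp (by norm_num)]
      have h4 := Real.exp_one_gt_d9
      have h5 : Real.exp 2 = Real.exp 1 * Real.exp 1 := by
        rw [← Real.exp_add]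
        norm_num
      rw [h5]
      nlinarith
    linarith
  linarith

theorem ll_two (m : ℕ) : ll (2 * m) ≤ ll m + 1 := by
  unfold ll
  rcases Nat.eq_zero_or_pos m with rfl | hm
  · simp
  · rw [mul_comm 2 m, Nat.log_mul_base (by norm_num) hm.ne']
    calc Nat.log 2 (Nat.log 2 m + 1 + 1) ≤ Nat.log 2 ((Nat.log 2 m + 1) * 2) :=
          Nat.log_mono_right (by omega)
      _ = Nat.log 2 (Nat.log 2 m + 1) + 1 := Nat.log_mul_base (by norm_num) (by omega)

/-- **surfaces, few sources and sinks, tight form** -/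
theorem surf_tight {C : ℝ} (hC1 : 1 ≤ C) (hMS : MStarLL C) (V : Type) [Finite V]
    (G : SimpleGraph V) (σ : Equiv.Perm G.Dart) (ℓ : Sym2 V → ℝ) (h : V → ℝ) (A B : Finset V)
    (MB : Finset G.Dart) (g : ℕ) (hc : G.Connected) (hσ : SurfMap g G σ)
    (hℓ : ∀ e ∈ G.edgeSet, 0 < ℓ e)
    (hlip : ∀ u v, G.Adj u v → |h u - h v| ≤ ℓ s(u, v))
    (hlow : ∀ v, v ∉ A → ∃ u, G.Adj v u ∧ ℓ s(v, u) ≤ h v - h u)
    (hhigh : ∀ v, v ∉ B → (∀ m ∈ MB, v ∉ onFace σ m) →
      ∃ u, G.Adj v u ∧ ℓ s(v, u) ≤ h u - h v) :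
    EmbedsL1 (pathDist G ℓ) (17000000000000000000000 * C *
      ((ll (Nat.card V) : ℝ) + 1 + Real.log (g + A.card + B.card + MB.card + 2))) := by
  classical
  have : Finite G.Dart := Tight.fin_dart
  set S : ℝ := g + A.card + B.card + MB.card + 2 with hS
  have hg0 : (0 : ℝ) ≤ g := Nat.cast_nonneg _
  have hA0 : (0 : ℝ) ≤ A.card := Nat.cast_nonneg _
  have hB0 : (0 : ℝ) ≤ B.card := Nat.cast_nonneg _
  have hM0 : (0 : ℝ) ≤ MB.card := Nat.cast_nonneg _
  have hS2 : 2 ≤ S := by rw [hS]; linarith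
  have hL0 : (0 : ℝ) ≤ ll (Nat.card V) := Nat.cast_nonneg _
  have hlogS : 0 ≤ Real.log S := Real.log_nonneg (by linarith)
  by_cases hne : Nonempty G.Dart
  swap
  · have hsub := subsingleton_of_no_dart hc hne
    exact distortion_subsingleton G hc.nonempty ℓ hℓ
  have hpos : ∀ u v, G.Adj u v → 0 < ℓ s(u, v) := fun u v ha => hℓ _ (G.mem_edgeSet.2 ha)
  have hAne : (A : Set V).Nonempty := by
    have := hc.nonempty
    obtain ⟨v0, hv0⟩ := Finite.exists_min h
    refine ⟨v0, ?_⟩
    by_contra hcon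
    obtain ⟨u, hu, h1⟩ := hlow v0 hcon
    have h2 := hpos _ _ hu
    have h3 := hv0 u
    linarith
  choose f hf1 hf2 using hlow
  let p : V → V := fun v => if hv : v ∉ A then f v hv else v
  have hpv : ∀ v (hv : v ∉ A), p v = f v hv := fun v hv => dif_pos hv
  have hplow : ∀ v, v ∉ (A : Set V) → ℓ s(v, p v) ≤ h v - h (p v) := by
    intro v hv
    have hv' : v ∉ A := fun h1 => hv (Finset.mem_coe.2 h1)
    rw [hpv v hv']
    exact hf2 v hv'
  have hp : Par G h (A : Set V) p := by
    refine ⟨fun v hv => ?_, fun v hv => ?_⟩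
    · have hv' : v ∉ A := fun h1 => hv (Finset.mem_coe.2 h1)
      rw [hpv v hv']
      exact hf1 v hv'
    · have hv' : v ∉ A := fun h1 => hv (Finset.mem_coe.2 h1)
      have h1 := hplow v hv
      have h2 : G.Adj v (p v) := by
        rw [hpv v hv']
        exact hf1 v hv'
      have h3 := hpos _ _ h2
      linarith
  have hv : ∀ v, ∃ d : G.Dart, d.fst = v := by
    intro v
    obtain ⟨d0⟩ := hne
    obtain ⟨w, hw⟩ : ∃ w, G.Adj v w := by
      by_cases hv : v = d0.fst
      · exact ⟨d0.snd, hv ▸ d0.adj⟩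
      · obtain ⟨pw⟩ := hc.preconnected v d0.fst
        cases pw with
        | nil => exact absurd rfl hv
        | cons hadj _ => exact ⟨_, hadj⟩
    exact ⟨⟨(v, w), hw⟩, rfl⟩
  rcases exists_cut hc hne hσ hAne hp with hP | ⟨C₀, hs, hN, hGne, hQ, hcut⟩
  · -- the map is plane
    have h1 := R2.H934.multi_faces hC1 hMS V G σ ℓ h A B ∅ MB 1 le_rfl hc hP hℓ hlip
      (fun m hm => absurd hm (Finset.notMem_empty m))
      (fun v hv _ => ⟨f v hv, hf1 v hv, by rw [one_mul]; exact hf2 v hv⟩)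
      (fun v hv hm => by
        obtain ⟨u, hu, h1⟩ := hhigh v hv hm
        exact ⟨u, hu, by rw [one_mul]; exact h1⟩)
    refine embeds_mono (pd_nonneg hℓ) ?_ h1
    rw [Finset.card_empty, Nat.cast_zero]
    have h2 : Real.log ((A.card : ℝ) + B.card + 0 + MB.card + 2) ≤ Real.log S :=
      Real.log_le_log (by positivity) (by rw [hS]; linarith)
    have h3 : (ll (Nat.card V) : ℝ) + 1 + Real.log ((A.card : ℝ) + B.card + 0 + MB.card + 2) ≤
        (ll (Nat.card V) : ℝ) + 1 + Real.log S := by linarith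
    calc 320000000000000 * C * 1 *
          ((ll (Nat.card V) : ℝ) + 1 + Real.log ((A.card : ℝ) + B.card + 0 + MB.card + 2)) ≤
        320000000000000 * C * 1 * ((ll (Nat.card V) : ℝ) + 1 + Real.log S) :=
          mul_le_mul_of_nonneg_left h3 (by positivity)
      _ ≤ _ := by
          have h4 : 0 ≤ C * ((ll (Nat.card V) : ℝ) + 1 + Real.log S) := by positivity
          nlinarith
  · -- the cut
    have hCD : CD σ (Gm (A : Set V) p C₀) := ⟨hσ.fst, hσ.cyc, Gm_symm hs⟩
    have hP := hcut hCD hN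
    have hX := XX_Gm (C₀ := C₀) hp
    have hconn : (Gt hCD).Connected := hP.1
    have hfinW : Finite (W σ (Gm (A : Set V) p C₀)) := inferInstance
    let ℓ' : Sym2 (W σ (Gm (A : Set V) p C₀)) → ℝ := fun e => ℓ (e.map pr)
    have hℓ' : ∀ e ∈ (Gt hCD).edgeSet, 0 < ℓ' e := by
      intro e he
      induction e with
      | _ a b => exact hℓ _ (G.mem_edgeSet.2 (pr_adj hCD he))
    have hATf : (AT hCD).Finite := Set.toFinite _
    have hBTf : (BT σ (A : Set V) p C₀ (B : Set V)).Finite := Set.toFinite _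
    have h1 := R2.H934.multi_faces hC1 hMS (W σ (Gm (A : Set V) p C₀)) (Gt hCD) (Cut.sg hCD hN) ℓ'
      (h ∘ pr) hATf.toFinset hBTf.toFinset ∅ (MB.image fun m => Cut.psi hCD (Sum.inl m)) 1 le_rfl
      hconn hP.2 hℓ' (fun u v ha => hlip _ _ (pr_adj hCD ha))
      (fun m hm => absurd hm (Finset.notMem_empty m))
      (fun w hw _ => by
        obtain ⟨u, hu, h2⟩ := lift_low hp hCD hplow w (fun h3 => hw (hATf.mem_toFinset.2 h3))
        exact ⟨u, hu, by rw [one_mul]; exact h2⟩)
      (fun w hw hm => by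
        obtain ⟨u, hu, h2⟩ := lift_high hp hCD hplow (B := (B : Set V)) (M := (MB : Set G.Dart)) hN
          (fun v h3 h4 => hhigh v (fun h5 => h3 (Finset.mem_coe.2 h5))
            (fun m h5 => h4 m (Finset.mem_coe.2 h5))) w
          (fun h3 => hw (hBTf.mem_toFinset.2 h3))
          (fun m h3 => hm _ (Finset.mem_image.2 ⟨m, Finset.mem_coe.1 h3, rfl⟩))
        exact ⟨u, hu, by rw [one_mul]; exact h2⟩)
    set n := (QQ (A : Set V) p C₀).ncard with hn
    set T : ℝ := (ll (Nat.card V) : ℝ) + 1 + Real.log S with hT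
    have hT1 : 1 ≤ T := by rw [hT]; linarith
    have hQ' : (n : ℝ) ≤ 2 * (g + A.card) := by
      rw [Set.ncard_coe_finset] at hQ
      exact_mod_cast hQ
    have ha : (hATf.toFinset.card : ℝ) ≤ n + A.card := by
      rw [← Set.ncard_eq_toFinset_card _ hATf]
      have h2 := card_AT hp hCD
      rw [Set.ncard_coe_finset] at h2
      exact_mod_cast h2
    have hb : (hBTf.toFinset.card : ℝ) ≤ 2 * n + B.card := by
      rw [← Set.ncard_eq_toFinset_card _ hBTf]
      have h2 := card_BT hp hCD (B : Set V)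
      rw [Set.ncard_coe_finset] at h2
      exact_mod_cast h2
    have hm : ((MB.image fun m => Cut.psi hCD (Sum.inl m)).card : ℝ) ≤ MB.card := by
      exact_mod_cast Finset.card_image_le
    have hlog1 : Real.log ((n : ℝ) + 2) ≤ 2 + Real.log S := by
      refine le_trans (Real.log_le_log (by positivity) ?_)
        (log_three (x := S) (k := 2) (by linarith) (by norm_num) (by norm_num))
      rw [hS]
      linarith
    have hW : (ll (Nat.card (W σ (Gm (A : Set V) p C₀))) : ℝ) ≤
        (ll (Nat.card V) : ℝ) + 7 + 2 * Real.log S := by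
      have h2 := card_W hCD hv
      have h3 := card_Gm (C₀ := C₀) hp
      rw [← Nat.card_coe_set_eq] at h3
      rw [hX] at h2
      have h4 : (YY (A : Set V) p C₀ \ (A : Set V)).ncard ≤ (YY (A : Set V) p C₀).ncard :=
        Set.ncard_le_ncard Set.sdiff_subset (Set.toFinite _)
      have h5 : (YY (A : Set V) p C₀).ncard ≤ Nat.card V := by
        rw [← Set.ncard_univ]
        exact Set.ncard_le_ncard (Set.subset_univ _) (Set.toFinite _)
      have h6 : Nat.card (W σ (Gm (A : Set V) p C₀)) ≤ 2 * Nat.card V + n := by omega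
      have h7 : ll (Nat.card (W σ (Gm (A : Set V) p C₀))) ≤ ll (2 * Nat.card V) + ll n + 2 :=
        (ll_mono h6).trans (R2.H934.ll_add _ _)
      have h8 : ll (2 * Nat.card V) ≤ ll (Nat.card V) + 1 := by
        have h9 := R2.H934.ll_le_log n
        exact ll_two (Nat.card V)
      have h9 := R2.H934.ll_le_log n
      have h10 : (ll (Nat.card (W σ (Gm (A : Set V) p C₀))) : ℝ) ≤
          (ll (Nat.card V) : ℝ) + 1 + ll n + 2 := by
        exact_mod_cast h7.trans (by omega)
      linarith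
    have hlog2 : Real.log ((hATf.toFinset.card : ℝ) + hBTf.toFinset.card + ((∅ : Finset
        (Gt hCD).Dart).card : ℝ) + ((MB.image fun m => Cut.psi hCD (Sum.inl m)).card : ℝ) + 2) ≤
        2 + Real.log S := by
      refine le_trans (Real.log_le_log (by positivity) ?_)
        (log_three (x := S) (k := 7) (by linarith) (by norm_num) (by norm_num))
      rw [Finset.card_empty, Nat.cast_zero, hS]
      linarith
    have hCT : 0 ≤ C * T := by positivity
    have h2 : EmbedsL1 (pathDist (Gt hCD) ℓ') (3200000000000000 * (C * T)) := by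
      refine embeds_mono (pd_nonneg hℓ') ?_ h1
      have h3 : (ll (Nat.card (W σ (Gm (A : Set V) p C₀))) : ℝ) + 1 +
          Real.log ((hATf.toFinset.card : ℝ) + hBTf.toFinset.card + ((∅ : Finset
        (Gt hCD).Dart).card : ℝ) + ((MB.image fun m => Cut.psi hCD (Sum.inl m)).card : ℝ) + 2) ≤
          10 * T := by
        rw [hT]
        linarith
      have h4 := mul_le_mul_of_nonneg_left h3 (show (0 : ℝ) ≤ 320000000000000 * C * 1 by positivity)
      refine h4.trans (le_of_eq ?_)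
      ring
    choose κ hκ using fun u => piece_cut hc hℓ hv hCD hconn u
    have hR : H341W.Rounds (fun W' G' ℓ₁ => EmbedsL1 (pathDist G' ℓ₁) (3200000000000000 * (C * T)))
        n 0 1 G ℓ := by
      refine H341W.Rounds.lanes (X := XX (Gm (A : Set V) p C₀)) (W := fun _ => _)
        (G' := fun _ => Gt hCD) (ℓ' := fun _ => ℓ') (κ := κ) ?_ ?_ (fun u _ => hκ u)
        (fun u _ => H341W.Rounds.leaf h2)
      · obtain ⟨e, he⟩ := hGne
        exact ⟨e.fst, mem_XX he⟩
      · rw [hX]
        exact lanes_YY hp hc hℓ hlip hplow le_rfl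
    have hCT1 : 1 ≤ C * T := by nlinarith
    have h3 := H341W.rounds_distortion _ (C := 3200000000000000 * (C * T)) (by linarith)
      (fun W' _ G' ℓ₁ _ _ hQ => hQ) n 0 1 V G ℓ hc hℓ hR
    refine embeds_mono (pd_nonneg hℓ) ?_ h3
    have h4 : T ≤ C * T := by nlinarith
    have h5 : 2 + Real.log S ≤ 2 * T := by rw [hT]; linarith
    push_cast
    have h6 : 17000000000000000000000 * C * T = 17000000000000000000000 * (C * T) := by ring
    rw [h6]
    linarith

end Vale.Agent.P235.R2.H90.Surf
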