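import Vale.Agent.P235.R2.H90.Outer
import Vale.Agent.P235.R2.H90.Surf

/-!
# P235: graphs on surfaces, reduction to plane leaves with one source face (helper90)
-/

set_option linter.unusedSectionVars false
set_option linter.unusedDecidableInType false
set_option linter.unusedFintypeInType false

namespace Vale.Agent.P235.R2.H90.Leaf

open Vale.Agent.P235 SimpleGraph Vale.Agent.P235.Red Vale.Agent.P235.R2.H90.Cut
  Vale.Agent.P235.R2.H90.Gam Vale.Agent.P235.R2.H90.Lift Vale.Agent.P235.R2.H90.Root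
  Vale.Agent.P235.R2.H90.Outer Vale.Agent.P235.R2.H90.Surf
open Vale.Agent.P235.R2.H582 (embeds_mono ll_mono)

/-- one source on a plane map, tight -/
structure One {V : Type} (G : SimpleGraph V) (σ : Equiv.Perm G.Dart) (ℓ : Sym2 V → ℝ) (h : V → ℝ)
    (s : V) (B : Finset V) (MB : Finset G.Dart) : Prop where
  conn : G.Connected
  plane : PlaneMap G σ
  pos : ∀ e ∈ G.edgeSet, 0 < ℓ e
  lip : ∀ u v, G.Adj u v → |h u - h v| ≤ ℓ s(u, v)
  low : ∀ v, v ≠ s → ∃ u, G.Adj v u ∧ ℓ s(v, u) ≤ h v - h u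
  high : ∀ v, (∃ u, G.Adj v u ∧ ℓ s(v, u) ≤ h u - h v) ∨ v ∈ B ∨ ∃ m ∈ MB, v ∈ onFace σ m

/-- one source face on a plane map, tight -/
structure OneFace {V : Type} (G : SimpleGraph V) (σ : Equiv.Perm G.Dart) (ℓ : Sym2 V → ℝ)
    (h : V → ℝ) (d₁ : G.Dart) (B : Finset V) (MB : Finset G.Dart) : Prop where
  conn : G.Connected
  plane : PlaneMap G σ
  pos : ∀ e ∈ G.edgeSet, 0 < ℓ e
  lip : ∀ u v, G.Adj u v → |h u - h v| ≤ ℓ s(u, v)
  low : ∀ v, v ∉ onFace σ d₁ → ∃ u, G.Adj v u ∧ ℓ s(v, u) ≤ h v - h u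
  high : ∀ v, (∃ u, G.Adj v u ∧ ℓ s(v, u) ≤ h u - h v) ∨ v ∈ B ∨ ∃ m ∈ MB, v ∈ onFace σ m
  sep : ∀ m ∈ MB, ¬ (faceNext σ).SameCycle d₁ m

/-- two adjacent sources: lower one of them -/
theorem lower {V : Type} [Finite V] {G : SimpleGraph V} {σ : Equiv.Perm G.Dart} {ℓ : Sym2 V → ℝ}
    {h : V → ℝ} {a b : V} {B : Finset V} {MB : Finset G.Dart} (hc : G.Connected)
    (hP : PlaneMap G σ) (hℓ : ∀ e ∈ G.edgeSet, 0 < ℓ e)
    (hlip : ∀ u v, G.Adj u v → |h u - h v| ≤ ℓ s(u, v)) (hab : G.Adj a b)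
    (hlow : ∀ v, v ≠ a → v ≠ b → ∃ u, G.Adj v u ∧ ℓ s(v, u) ≤ h v - h u)
    (hmin : ∀ u, G.Adj a u → h a - h u < ℓ s(a, u))
    (hhigh : ∀ v, (∃ u, G.Adj v u ∧ ℓ s(v, u) ≤ h u - h v) ∨ v ∈ B ∨
      ∃ m ∈ MB, v ∈ onFace σ m) :
    ∃ (ℓ' : Sym2 V → ℝ) (h' : V → ℝ), One G σ ℓ' h' a B MB ∧
      (∀ x y, G.Adj x y → ℓ s(x, y) ≤ ℓ' s(x, y)) ∧
      ∀ x y, x ≠ a → y ≠ a → ℓ' s(x, y) = ℓ s(x, y) := by
  classical
  have := hc.nonempty
  obtain ⟨m, hm⟩ := Finite.exists_max fun v : V => ℓ s(a, v) - h v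
  set R : ℝ := ℓ s(a, m) - h m with hR
  have hpos : ∀ u v, G.Adj u v → 0 < ℓ s(u, v) := fun u v ha => hℓ _ (G.mem_edgeSet.2 ha)
  have hRv : ∀ v, ℓ s(a, v) ≤ h v + R := fun v => by
    have := hm v
    beta_reduce at this
    rw [hR]
    linarith
  let h' : V → ℝ := fun v => if v = a then -R else h v
  let ℓ' : Sym2 V → ℝ := fun e => if a ∈ e then R2.H168.hlen h' e else ℓ e
  have ha' : h' a = -R := if_pos rfl
  have hv' : ∀ v, v ≠ a → h' v = h v := fun v hv => if_neg hv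
  have e1 : ∀ v, G.Adj a v → ℓ' s(a, v) = h v + R := by
    intro v hav
    show (if a ∈ s(a, v) then R2.H168.hlen h' s(a, v) else ℓ s(a, v)) = _
    rw [if_pos (Sym2.mem_mk_left a v), R2.H168.hlen_mk, ha', hv' v hav.ne']
    have h1 := hRv v
    have h2 := hpos _ _ hav
    rw [abs_sub_comm, abs_of_pos (by linarith)]
    ring
  have e2 : ∀ x y, x ≠ a → y ≠ a → ℓ' s(x, y) = ℓ s(x, y) := by
    intro x y hx hy
    refine if_neg ?_
    rw [Sym2.mem_iff]
    rintro (h1 | h1)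
    · exact hx h1.symm
    · exact hy h1.symm
  have e3 : ∀ v, G.Adj v a → ℓ' s(v, a) = h v + R := fun v hva => by
    rw [Sym2.eq_swap]
    exact e1 v hva.symm
  refine ⟨ℓ', h', ⟨hc, hP, ?_, ?_, ?_, ?_⟩, ?_, e2⟩
  · intro e he
    induction e with
    | _ x y =>
      have hxy : G.Adj x y := he
      by_cases hx : x = a
      · subst hx
        rw [e1 y hxy]
        exact lt_of_lt_of_le (hpos _ _ hxy) (hRv y)
      · by_cases hy : y = a
        · subst hy
          rw [e3 x hxy]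
          exact lt_of_lt_of_le (hpos _ _ hxy.symm) (hRv x)
        · rw [e2 x y hx hy]
          exact hpos _ _ hxy
  · intro x y hxy
    by_cases hx : x = a
    · subst hx
      rw [e1 y hxy, ha', hv' y hxy.ne']
      have h1 := hRv y
      have h2 := hpos _ _ hxy
      rw [abs_sub_comm, abs_of_pos (by linarith)]
      linarith
    · by_cases hy : y = a
      · subst hy
        rw [e3 x hxy, ha', hv' x hxy.ne]
        have h1 := hRv x
        have h2 := hpos _ _ hxy.symm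
        rw [abs_of_pos (by linarith)]
        linarith
      · rw [e2 x y hx hy, hv' x hx, hv' y hy]
        exact hlip x y hxy
  · intro v hv
    by_cases hb : v = b
    · subst hb
      refine ⟨a, hab.symm, ?_⟩
      rw [e3 v hab.symm, ha', hv' v hv]
      linarith
    · obtain ⟨u, hu, h1⟩ := hlow v hv hb
      refine ⟨u, hu, ?_⟩
      by_cases hua : u = a
      · subst hua
        rw [e3 v hu, ha', hv' v hv]
        linarith
      · rw [e2 v u hv hua, hv' v hv, hv' u hua]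
        exact h1
  · intro v
    by_cases hv : v = a
    · subst hv
      refine Or.inl ⟨b, hab, ?_⟩
      rw [e1 b hab, ha', hv' b hab.ne']
      linarith
    · rcases hhigh v with ⟨u, hu, h1⟩ | h1
      · refine Or.inl ⟨u, hu, ?_⟩
        have hua : u ≠ a := by
          rintro rfl
          have h2 := hmin v hu.symm
          rw [Sym2.eq_swap] at h2
          linarith
        rw [e2 v u hv hua, hv' v hv, hv' u hua]
        exact h1
      · exact Or.inr h1
  · intro x y hxy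
    by_cases hx : x = a
    · subst hx
      rw [e1 y hxy]
      exact hRv y
    · by_cases hy : y = a
      · subst hy
        rw [e3 x hxy, Sym2.eq_swap]
        exact hRv x
      · rw [e2 x y hx hy]

/-- **reduction to plane leaves with one source face** -/
theorem surf_of_leaf {K' : ℝ} (hK' : 1 ≤ K') (V : Type) [Finite V]
    (G : SimpleGraph V) (σ : Equiv.Perm G.Dart) (ℓ : Sym2 V → ℝ) (h : V → ℝ) (A B : Finset V)
    (MB : Finset G.Dart) (g : ℕ) (hc : G.Connected) (hne : Nonempty G.Dart) (hσ : SurfMap g G σ)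
    (hℓ : ∀ e ∈ G.edgeSet, 0 < ℓ e)
    (hlip : ∀ u v, G.Adj u v → |h u - h v| ≤ ℓ s(u, v))
    (hlow : ∀ v, v ∉ A → ∃ u, G.Adj v u ∧ ℓ s(v, u) ≤ h v - h u)
    (hmin : ∀ a ∈ A, ∀ u, G.Adj a u → h a - h u < ℓ s(a, u))
    (hhigh : ∀ v, (∃ u, G.Adj v u ∧ ℓ s(v, u) ≤ h u - h v) ∨ v ∈ B ∨
      ∃ m ∈ MB, v ∈ onFace σ m)
    (hleaf : ∀ (V' : Type) [Finite V'] (G' : SimpleGraph V') (σ' : Equiv.Perm G'.Dart)
      (ℓ' : Sym2 V' → ℝ) (h' : V' → ℝ) (d₁ : G'.Dart) (B' : Finset V') (MB' : Finset G'.Dart),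
      OneFace G' σ' ℓ' h' d₁ B' MB' → B'.card ≤ B.card + 4 * (g + A.card) →
      MB'.card ≤ MB.card → Nat.card V' ≤ 2 * Nat.card V + 2 * (g + A.card) →
      EmbedsL1 (pathDist G' ℓ') K')
    (hleaf1 : ∀ (ℓ' : Sym2 V → ℝ) (h' : V → ℝ) (s : V), One G σ ℓ' h' s B MB →
      EmbedsL1 (pathDist G ℓ') K') :
    EmbedsL1 (pathDist G ℓ) (5000000 * (K' + Real.log (2 * (g + A.card) + 2))) := by
  classical
  have : Finite G.Dart := Tight.fin_dart
  have hg0 : (0 : ℝ) ≤ g := Nat.cast_nonneg _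
  have hA0 : (0 : ℝ) ≤ A.card := Nat.cast_nonneg _
  have hpos : ∀ u v, G.Adj u v → 0 < ℓ s(u, v) := fun u v ha => hℓ _ (G.mem_edgeSet.2 ha)
  have hlog0 : 0 ≤ Real.log (2 * ((g : ℝ) + A.card) + 2) := Real.log_nonneg (by linarith)
  have hAne : (A : Set V).Nonempty := by
    have := hc.nonempty
    obtain ⟨v0, hv0⟩ := Finite.exists_min h
    refine ⟨v0, ?_⟩
    by_contra hcon
    obtain ⟨u, hu, h1⟩ := hlow v0 hcon
    have h2 := hpos _ _ hu
    have h3 := hv0 u
    linarith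
  have hlow0 := hlow
  choose f hf1 hf2 using hlow
  let p : V → V := fun v => if hv : v ∉ A then f v hv else v
  have hpv : ∀ v (hv : v ∉ A), p v = f v hv := fun v hv => dif_pos hv
  have hplow : ∀ v, v ∉ (A : Set V) → ℓ s(v, p v) ≤ h v - h (p v) := by
    intro v hv
    have hv' : v ∉ A := fun h1 => hv (Finset.mem_coe.2 h1)
    rw [hpv v hv']
    exact hf2 v hv'
  have hp : Par G h (A : Set V) p := by
    refine ⟨fun v hv => ?_, fun v hv => ?_⟩
    · have hv' : v ∉ A := fun h1 => hv (Finset.mem_coe.2 h1)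
      rw [hpv v hv']
      exact hf1 v hv'
    · have hv' : v ∉ A := fun h1 => hv (Finset.mem_coe.2 h1)
      have h1 := hplow v hv
      have h2 : G.Adj v (p v) := by
        rw [hpv v hv']
        exact hf1 v hv'
      have h3 := hpos _ _ h2
      linarith
  have hv : ∀ v, ∃ d : G.Dart, d.fst = v := by
    intro v
    obtain ⟨d0⟩ := hne
    obtain ⟨w, hw⟩ : ∃ w, G.Adj v w := by
      by_cases hv : v = d0.fst
      · exact ⟨d0.snd, hv ▸ d0.adj⟩
      · obtain ⟨pw⟩ := hc.preconnected v d0.fst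
        cases pw with
        | nil => exact absurd rfl hv
        | cons hadj _ => exact ⟨_, hadj⟩
    exact ⟨⟨(v, w), hw⟩, rfl⟩
  rcases exists_cut2 hc hne hσ hAne hp with ⟨hP, hA1 | ⟨a, b, hA2, hab⟩⟩ |
    ⟨C₀, hs, hN, hGne, hQ, hAX, hcut⟩
  · -- one source
    obtain ⟨s, hs⟩ := hAne
    have h1 : ∀ v, v ∉ A → ∃ u, G.Adj v u ∧ ℓ s(v, u) ≤ h v - h u := hlow0
    have h2 : ∀ v, v ≠ s → v ∉ A := by
      intro v hvs hvA
      exact hvs ((Set.ncard_le_one (Set.toFinite _)).1 hA1 v (Finset.mem_coe.2 hvA) s hs)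
    refine embeds_mono (pd_nonneg hℓ) ?_ (hleaf1 ℓ h s
      ⟨hc, hP, hℓ, hlip, fun v hv => h1 v (h2 v hv), hhigh⟩)
    linarith
  · -- two adjacent sources
    have haA : a ∈ A := by
      have : a ∈ (A : Set V) := by rw [hA2]; exact Or.inl rfl
      exact Finset.mem_coe.1 this
    obtain ⟨ℓ', h', hO, hle, heq⟩ := lower (B := B) (MB := MB) hc hP hℓ hlip hab
      (fun v h1 h2 => hlow0 v fun h3 => by
        have h4 : v ∈ (A : Set V) := Finset.mem_coe.2 h3
        rw [hA2] at h4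
        exact h4.elim h1 h2) (fun u hu => hmin a haA u hu) hhigh
    have h1 := hleaf1 ℓ' h' a hO
    have hpc : ∀ u, H341W.Piece G ℓ (compSet G {a} u) G ℓ' (fun x => x.1) := by
      intro u
      refine ⟨inferInstance, hc, hO.pos, fun x y hxy => ?_, fun x y => ?_⟩
      · refine (pd_adj hO.pos hxy).trans (le_of_eq (heq _ _ ?_ ?_))
        · exact fun h2 => reach_not_mem x.2 (Set.mem_singleton_iff.2 h2)
        · exact fun h2 => reach_not_mem y.2 (Set.mem_singleton_iff.2 h2)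
      · have h2 := pd_semi (ℓ := ℓ') (ρ := fun x y => pathDist G ℓ x y) hc
          one_pos (fun x => pd_self hℓ _) (fun x y z => pd_tri hc hℓ _ _ _) (fun u v huv => by
            rw [one_mul]
            exact (pd_adj hℓ huv).trans (hle u v huv)) x.1 y.1
        rwa [one_mul] at h2
    have hR : H341W.Rounds (fun W' G' ℓ₁ => EmbedsL1 (pathDist G' ℓ₁) K') 1 0 1 G ℓ := by
      refine H341W.Rounds.lanes (X := {a}) (W := fun _ => _)
        (G' := fun _ => G) (ℓ' := fun _ => ℓ') (κ := fun u x => x.1) ⟨a, rfl⟩ ?_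
        (fun u _ => hpc u) (fun u _ => H341W.Rounds.leaf h1)
      refine ⟨h, 1, fun _ => {a}, le_rfl, R2.H582.Wd.lip_pdE hc hlip, fun _ => ⟨a, rfl⟩, ?_, ?_⟩
      · intro _ x hx y hy
        rw [Set.mem_singleton_iff.1 hx, Set.mem_singleton_iff.1 hy, pd_self hℓ]
        exact abs_nonneg _
      · rw [Set.iUnion_const]
    have h3 := H341W.rounds_distortion _ (C := K') hK'
      (fun W' _ G' ℓ₁ _ _ hQ => hQ) 1 0 1 V G ℓ hc hℓ hR
    refine embeds_mono (pd_nonneg hℓ) ?_ h3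
    have hA1 : (1 : ℝ) ≤ A.card := by
      have := Finset.card_pos.2 ⟨a, haA⟩
      exact_mod_cast this
    have h4 : Real.log (((1 : ℕ) : ℝ) + 2) ≤ Real.log (2 * ((g : ℝ) + A.card) + 2) :=
      Real.log_le_log (by norm_num) (by push_cast; linarith)
    push_cast at h4 ⊢
    linarith
  · -- the cut
    have hCD : CD σ (Gm (A : Set V) p C₀) := ⟨hσ.fst, hσ.cyc, Gm_symm hs⟩
    obtain ⟨hconn, hPl, hout⟩ := hcut hCD hN
    have hX := XX_Gm (C₀ := C₀) hp
    obtain ⟨e0, he0⟩ := hGne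
    have hfinW : Finite (W σ (Gm (A : Set V) p C₀)) := inferInstance
    let ℓ' : Sym2 (W σ (Gm (A : Set V) p C₀)) → ℝ := fun e => ℓ (e.map pr)
    have hℓ' : ∀ e ∈ (Gt hCD).edgeSet, 0 < ℓ' e := by
      intro e he
      induction e with
      | _ a b => exact hℓ _ (G.mem_edgeSet.2 (pr_adj hCD he))
    have hBTf : (BT σ (A : Set V) p C₀ (B : Set V)).Finite := Set.toFinite _
    rw [Set.ncard_coe_finset] at hQ
    have hb : hBTf.toFinset.card ≤ B.card + 4 * (g + A.card) := by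
      rw [← Set.ncard_eq_toFinset_card _ hBTf]
      have h2 := card_BT hp hCD (B : Set V)
      rw [Set.ncard_coe_finset] at h2
      omega
    have hW : Nat.card (W σ (Gm (A : Set V) p C₀)) ≤ 2 * Nat.card V + 2 * (g + A.card) := by
      have h2 := card_W hCD hv
      have h3 := card_Gm (C₀ := C₀) hp
      rw [← Nat.card_coe_set_eq] at h3
      rw [hX] at h2
      have h4 : (YY (A : Set V) p C₀ \ (A : Set V)).ncard ≤ (YY (A : Set V) p C₀).ncard :=
        Set.ncard_le_ncard Set.sdiff_subset (Set.toFinite _)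
      have h5 : (YY (A : Set V) p C₀).ncard ≤ Nat.card V := by
        rw [← Set.ncard_univ]
        exact Set.ncard_le_ncard (Set.subset_univ _) (Set.toFinite _)
      omega
    have h1 := hleaf (W σ (Gm (A : Set V) p C₀)) (Gt hCD) (Cut.sg hCD hN) ℓ' (h ∘ pr)
      (Cut.psi hCD (Sum.inr ⟨e0, he0⟩)) hBTf.toFinset
      (MB.image fun m => Cut.psi hCD (Sum.inl m))
      ⟨hconn, hPl, hℓ', fun u v ha => hlip _ _ (pr_adj hCD ha), fun w hw => by
        obtain ⟨u, hu, h2⟩ := lift_low hp hCD hplow w (by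
          rintro (⟨e, -, rfl⟩ | ⟨h3, h4⟩)
          · exact hw (corner_outer hCD hN hout ⟨e0, he0⟩ e)
          · exact h4 (hAX h3))
        exact ⟨u, hu, h2⟩, fun w => by
        by_cases hw1 : w ∈ hBTf.toFinset
        · exact Or.inr (Or.inl hw1)
        · by_cases hw2 : ∃ m ∈ MB.image fun m => Cut.psi hCD (Sum.inl m),
              w ∈ onFace (Cut.sg hCD hN) m
          · exact Or.inr (Or.inr hw2)
          · refine Or.inl ?_
            push Not at hw2
            obtain ⟨u, hu, h2⟩ := lift_high hp hCD hplow (B := (B : Set V))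
              (M := (MB : Set G.Dart)) hN
              (fun v h3 h4 => by
                rcases hhigh v with h5 | h5 | ⟨m, h5, h6⟩
                · exact h5
                · exact absurd (Finset.mem_coe.2 h5) h3
                · exact absurd h6 (h4 m (Finset.mem_coe.2 h5))) w
              (fun h3 => hw1 (hBTf.mem_toFinset.2 h3))
              (fun m h3 => hw2 _ (Finset.mem_image.2 ⟨m, Finset.mem_coe.1 h3, rfl⟩))
            exact ⟨u, hu, h2⟩, fun m hm => by
        obtain ⟨m', -, rfl⟩ := Finset.mem_image.1 hm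
        exact not_outer hCD hN _ _⟩ hb Finset.card_image_le hW
    choose κ hκ using fun u => piece_cut hc hℓ hv hCD hconn u
    have hR : H341W.Rounds (fun W' G' ℓ₁ => EmbedsL1 (pathDist G' ℓ₁) K')
        (QQ (A : Set V) p C₀).ncard 0 1 G ℓ := by
      refine H341W.Rounds.lanes (X := XX (Gm (A : Set V) p C₀)) (W := fun _ => _)
        (G' := fun _ => Gt hCD) (ℓ' := fun _ => ℓ') (κ := κ) ?_ ?_ (fun u _ => hκ u)
        (fun u _ => H341W.Rounds.leaf h1)
      · exact ⟨e0.fst, mem_XX he0⟩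
      · rw [hX]
        exact lanes_YY hp hc hℓ hlip hplow le_rfl
    have h3 := H341W.rounds_distortion _ (C := K') hK'
      (fun W' _ G' ℓ₁ _ _ hQ => hQ) _ 0 1 V G ℓ hc hℓ hR
    refine embeds_mono (pd_nonneg hℓ) ?_ h3
    have hQ' : (((QQ (A : Set V) p C₀).ncard : ℕ) : ℝ) ≤ 2 * (g + A.card) := by
      exact_mod_cast hQ
    have h4 : Real.log (((QQ (A : Set V) p C₀).ncard : ℝ) + 2) ≤
        Real.log (2 * ((g : ℝ) + A.card) + 2) :=
      Real.log_le_log (by positivity) (by linarith)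
    push_cast at h4 ⊢
    linarith

end Vale.Agent.P235.R2.H90.Leaf
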