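import Vale.Agent.P235.R2.H90.Gam

/-!
# P235: steep edges of the map cut open (helper90)
-/

set_option linter.unusedSectionVars false
set_option linter.unusedDecidableInType false
set_option linter.unusedFintypeInType false

namespace Vale.Agent.P235.R2.H90.Lift

open Vale.Agent.P235 SimpleGraph Vale.Agent.P235.R2.H90.Cut Vale.Agent.P235.R2.H90.Gam

variable {V : Type} {G : SimpleGraph V} {σ : Equiv.Perm G.Dart}

section gen
variable {Γ : Set G.Dart} [Finite V] (hC : CD σ Γ)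
include hC

/-- a dart fixed by the first return is alone -/
theorem alone {a : Γ} (ha : ret hC a = a) : ∀ b ∈ Γ, b.fst = a.1.fst → b = a.1 := by
  intro b hb hba
  have h5 : ∀ k : ℕ, hit σ Γ (σ ((σ ^ k) a.1)) = a.1 := by
    intro k
    induction k with
    | zero => exact congrArg Subtype.val ha
    | succ k ih =>
      rw [pow_succ', Equiv.Perm.mul_apply]
      by_cases hk : σ ((σ ^ k) a.1) ∈ Γ
      · rw [hit_of_mem hk] at ih
        rw [ih]
        exact congrArg Subtype.val ha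
      · rw [hit_next hC hk (by
          rw [hC.fst, fst_pow hC.fst]
          exact mem_XX a.2)]
        exact ih
  have : Finite G.Dart := Tight.fin_dart
  obtain ⟨n, hn⟩ := (hC.cyc a.1 b hba.symm).exists_pow_eq'
  rcases n with _ | n
  · exact hn.2.symm
  · have h6 := h5 n
    rw [← Equiv.Perm.mul_apply, ← pow_succ', hn.2, hit_of_mem hb] at h6
    exact h6

theorem ret_fst (a : Γ) : (ret hC a).1.fst = a.1.fst := by
  rw [ret_val, hit_fst hC, hC.fst]

/-- vertices of the map cut open -/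
theorem w_cases (w : W σ Γ) : (∃ d : G.Dart, d.fst ∉ XX Γ ∧ tau σ Γ d = w) ∨
    ∃ e : Γ, tau σ Γ e.1 = w := by
  obtain ⟨d, rfl⟩ := tau_surj w
  by_cases h : d.fst ∈ XX Γ
  · refine Or.inr ⟨⟨hit σ Γ d, hit_mem hC h⟩, Subtype.ext ?_⟩
    rw [tau_mem hC (hit_mem hC h), tau_of_mem h]
  · exact Or.inl ⟨d, h, rfl⟩

theorem tau_out {d d' : G.Dart} (h : d.fst ∉ XX Γ) (hd : d'.fst = d.fst) :
    tau σ Γ d' = tau σ Γ d := by
  apply Subtype.ext
  rw [tau_of_not h, tau_of_not (hd ▸ h), hd]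

theorem pr_face (d : G.Dart) : pr (tau σ Γ (faceNext σ d)) = d.snd := by
  rw [pr_tau hC, faceNext_fst hC]

theorem tau_sigma_ret (a : Γ) : tau σ Γ (σ a.1) = tau σ Γ (ret hC a).1 := by
  apply Subtype.ext
  rw [tau_mem hC (ret hC a).2, tau_of_mem (sigma_XX hC a.2), ret_val]

/-- the edge of the corner of `e` before `e` -/
theorem adj_ret (e : Γ) : (Gt hC).Adj (tau σ Γ e.1) (tau σ Γ ((ret hC).symm e).1.symm) := by
  have h1 := adj_tau hC ((ret hC).symm e).1.symm
  have h2 : faceNext σ ((ret hC).symm e).1.symm = σ ((ret hC).symm e).1 := by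
    change σ ((ret hC).symm e).1.symm.symm = _
    rw [Dart.symm_symm]
  rw [h2, tau_sigma_ret hC, Equiv.apply_symm_apply] at h1
  exact h1.symm

theorem pr_ret (e : Γ) : pr (tau σ Γ ((ret hC).symm e).1.symm) = ((ret hC).symm e).1.snd := by
  rw [pr_tau hC]
  rfl

theorem ret_symm_fst (e : Γ) : ((ret hC).symm e).1.fst = e.1.fst := by
  have h1 := ret_fst hC ((ret hC).symm e)
  rw [Equiv.apply_symm_apply] at h1
  exact h1.symm

/-- the vertices outside of the cut which lie over a set of vertices -/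
theorem card_over (B : Set V) : {w : W σ Γ | pr w ∈ B ∧ pr w ∉ XX Γ}.ncard ≤ B.ncard := by
  refine Set.ncard_le_ncard_of_injOn pr (fun w hw => hw.1) ?_ (Set.toFinite _)
  intro w hw w' hw' h
  rcases w_cases hC w with ⟨d, h1, rfl⟩ | ⟨e, rfl⟩
  · rcases w_cases hC w' with ⟨d', h1', rfl⟩ | ⟨e', rfl⟩
    · rw [pr_tau hC, pr_tau hC] at h
      exact tau_out hC h1' h
    · exact absurd (by rw [pr_tau hC]; exact mem_XX e'.2) hw'.2
  · exact absurd (by rw [pr_tau hC]; exact mem_XX e.2) hw.2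

end gen

variable {h : V → ℝ} {A : Set V} {p : V → V} {C₀ : Set G.Dart}
variable [Finite V] (hp : Par G h A p) (hC : CD σ (Gm A p C₀))
include hp

/-- two consecutive darts of the cut graph do not both go down -/
theorem not_both (e : Gm A p C₀) (h1 : e.1 ∈ Dn G A p)
    (h2 : ((ret hC).symm e).1 ∈ Dn G A p) : False := by
  have h3 : ((ret hC).symm e).1 = e.1 := by
    rw [dn_eq hp h1, dn_eq hp h2]
    have h4 := ret_symm_fst hC e
    refine Dart.ext _ _ (Prod.ext h4 ?_)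
    show p _ = p _
    exact congrArg p h4
  have h4 : ret hC e = e := by
    have h5 : (ret hC).symm e = e := Subtype.ext h3
    conv_lhs => rw [← h5]
    exact Equiv.apply_symm_apply _ _
  have h6 : e.1.fst ∈ YY A p C₀ := by
    rw [← XX_Gm hp]
    exact mem_XX e.2
  obtain ⟨d, h7, h8, h9⟩ := exists_up hp h6
  have h10 := alone hC h4 d h7 h8
  exact not_Dn hp h9 (h10 ▸ h1)

/-- the corners without an edge down -/
def BadL : Set (Gm A p C₀) := {e | e.1 ∉ Dn G A p ∧ ((ret hC).symm e).1 ∉ Dn G A p}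

theorem card_BadL : (BadL hC).ncard = (QQ A p C₀).ncard := by
  have : Finite G.Dart := Tight.fin_dart
  let DD : Set (Gm A p C₀) := {e | e.1 ∈ Dn G A p}
  have h1 : BadL hC = (DD ∪ ret hC '' DD)ᶜ := by
    ext e
    constructor
    · rintro ⟨h1, h2⟩ (h3 | ⟨e', h3, rfl⟩)
      · exact h1 h3
      · rw [Equiv.symm_apply_apply] at h2
        exact h2 h3
    · intro h1
      refine ⟨fun h2 => h1 (Or.inl h2), fun h2 => h1 (Or.inr ⟨(ret hC).symm e, h2, ?_⟩)⟩
      exact Equiv.apply_symm_apply _ _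
  have h2 : Disjoint DD (ret hC '' DD) := by
    rw [Set.disjoint_left]
    rintro _ h3 ⟨e', h4, rfl⟩
    refine not_both hp hC (ret hC e') h3 ?_
    rw [Equiv.symm_apply_apply]
    exact h4
  have h3 : DD.ncard = (YY A p C₀ \ A).ncard := by
    rw [← card_Dn hp]
    refine Set.ncard_congr (fun e _ => e.1) ?_ ?_ ?_
    · intro e he
      refine ⟨he, ?_⟩
      rw [← XX_Gm hp]
      exact mem_XX e.2
    · intro e e' _ _ h5
      exact Subtype.ext h5
    · rintro d ⟨h5, h6⟩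
      exact ⟨⟨d, Or.inr (Or.inl ⟨h5, h6⟩)⟩, h5, rfl⟩
  have h4 := Set.ncard_add_ncard_compl (DD ∪ ret hC '' DD)
  rw [← h1, Set.ncard_union_eq h2, Set.ncard_image_of_injective _ (ret hC).injective, h3,
    Nat.card_coe_set_eq, card_Gm hp] at h4
  omega

/-- the vertices without an edge down -/
def AT : Set (W σ (Gm A p C₀)) := (fun e : Gm A p C₀ => tau σ _ e.1) '' BadL hC ∪
  {w | pr w ∈ A ∧ pr w ∉ XX (Gm A p C₀)}

/-- the vertices without an edge up -/
def BT (σ : Equiv.Perm G.Dart) (A : Set V) (p : V → V) (C₀ : Set G.Dart) (B : Set V) :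
    Set (W σ (Gm A p C₀)) := (tau σ _ '' QQ A p C₀ ∪ (fun q => tau σ _ (σ q)) '' QQ A p C₀) ∪
  {w | pr w ∈ B ∧ pr w ∉ XX (Gm A p C₀)}

theorem card_AT : (AT hC).ncard ≤ (QQ A p C₀).ncard + A.ncard := by
  have : Finite G.Dart := Tight.fin_dart
  refine (Set.ncard_union_le _ _).trans (add_le_add ?_ (card_over hC A))
  rw [← card_BadL hp hC]
  exact Set.ncard_image_le

include hC in
theorem card_BT (B : Set V) : (BT σ A p C₀ B).ncard ≤ 2 * (QQ A p C₀).ncard + B.ncard := by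
  have : Finite G.Dart := Tight.fin_dart
  refine (Set.ncard_union_le _ _).trans (add_le_add ?_ (card_over hC B))
  refine (Set.ncard_union_le _ _).trans ?_
  rw [two_mul]
  exact add_le_add Set.ncard_image_le Set.ncard_image_le

/-- steep edges down -/
theorem lift_low {ℓ : Sym2 V → ℝ} (hlow : ∀ v, v ∉ A → ℓ s(v, p v) ≤ h v - h (p v))
    (w : W σ (Gm A p C₀)) (hw : w ∉ AT hC) :
    ∃ u, (Gt hC).Adj w u ∧ ℓ s(pr w, pr u) ≤ h (pr w) - h (pr u) := by
  rcases w_cases hC w with ⟨d, h1, rfl⟩ | ⟨e, rfl⟩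
  · have h2 : d.fst ∉ A := fun h2 => hw (Or.inr (by
      show pr _ ∈ A ∧ pr _ ∉ _
      rw [pr_tau hC]
      exact ⟨h2, h1⟩))
    have h3 := adj_tau hC (dn hp d.fst h2)
    rw [tau_out hC h1 (d' := dn hp d.fst h2) rfl] at h3
    refine ⟨_, h3, ?_⟩
    rw [pr_face hC, pr_tau hC]
    exact hlow _ h2
  · by_cases h1 : e.1 ∈ Dn G A p
    · refine ⟨_, adj_tau hC e.1, ?_⟩
      rw [pr_face hC, pr_tau hC, h1.2]
      exact hlow _ h1.1
    · by_cases h2 : ((ret hC).symm e).1 ∈ Dn G A p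
      · refine ⟨_, adj_ret hC e, ?_⟩
        rw [pr_ret hC, pr_tau hC, h2.2, ret_symm_fst hC]
        refine hlow _ ?_
        rw [← ret_symm_fst hC]
        exact h2.1
      · exact absurd (Or.inl ⟨e, ⟨h1, h2⟩, rfl⟩) hw

/-- steep edges up -/
theorem lift_high {ℓ : Sym2 V → ℝ} (hlow : ∀ v, v ∉ A → ℓ s(v, p v) ≤ h v - h (p v))
    {B : Set V} {M : Set G.Dart} (hN : NI (Gm A p C₀))
    (hhigh : ∀ v, v ∉ B → (∀ m ∈ M, v ∉ onFace σ m) →
      ∃ u, G.Adj v u ∧ ℓ s(v, u) ≤ h u - h v)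
    (w : W σ (Gm A p C₀)) (hw : w ∉ BT σ A p C₀ B)
    (hM : ∀ m ∈ M, w ∉ onFace (sg hC hN) (psi hC (Sum.inl m))) :
    ∃ u, (Gt hC).Adj w u ∧ ℓ s(pr w, pr u) ≤ h (pr u) - h (pr w) := by
  rcases w_cases hC w with ⟨d, h1, rfl⟩ | ⟨e, rfl⟩
  · have h2 : d.fst ∉ B := fun h2 => hw (Or.inr (by
      show pr _ ∈ B ∧ pr _ ∉ _
      rw [pr_tau hC]
      exact ⟨h2, h1⟩))
    obtain ⟨u, hu, h3⟩ := hhigh d.fst h2 (by
      rintro m hm ⟨d', h4, h5⟩
      refine hM m hm ⟨psi hC (Sum.inl d'), face_lift hC hN h4, ?_⟩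
      rw [psi_inl_fst]
      exact tau_out hC h1 h5)
    have h4 := adj_tau hC (⟨(d.fst, u), hu⟩ : G.Dart)
    rw [tau_out hC h1 (d' := ⟨(d.fst, u), hu⟩) rfl] at h4
    refine ⟨_, h4, ?_⟩
    rw [pr_face hC, pr_tau hC]
    exact h3
  · have up : ∀ d : G.Dart, d ∈ Un G A p → ℓ s(d.fst, d.snd) ≤ h d.snd - h d.fst := by
      intro d hd
      have h3 := hlow _ hd.1
      rw [Sym2.eq_swap, ← hd.2] at h3
      exact h3
    rcases e.2 with h1 | h1 | h1
    · exact absurd (Or.inl (Or.inl ⟨e.1, h1, rfl⟩)) hw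
    · rcases ((ret hC).symm e).2 with h2 | h2 | h2
      · refine absurd (Or.inl (Or.inr ⟨_, h2, ?_⟩)) hw
        show tau σ _ (σ ((ret hC).symm e).1) = _
        rw [tau_sigma_ret hC, Equiv.apply_symm_apply]
      · exact (not_both hp hC e h1.1 h2.1).elim
      · refine ⟨_, adj_ret hC e, ?_⟩
        have h3 := up _ h2.1
        rw [ret_symm_fst hC] at h3
        rw [pr_ret hC, pr_tau hC]
        exact h3
    · refine ⟨_, adj_tau hC e.1, ?_⟩
      rw [pr_face hC, pr_tau hC]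
      exact up _ h1.1

end Vale.Agent.P235.R2.H90.Lift
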