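import Vale.Agent.P235.R2.H90.Outer

/-!
# P235: steep edges of the map cut open which end in a set of terminals (helper90)
-/

set_option linter.unusedSectionVars false
set_option linter.unusedDecidableInType false
set_option linter.unusedFintypeInType false

namespace Vale.Agent.P235.R2.H90.LiftL

open Vale.Agent.P235 SimpleGraph Vale.Agent.P235.R2.H90.Cut Vale.Agent.P235.R2.H90.Gam
  Vale.Agent.P235.R2.H90.Lift

variable {V : Type} {G : SimpleGraph V} {σ : Equiv.Perm G.Dart}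
variable {h : V → ℝ} {A : Set V} {p : V → V} {C₀ : Set G.Dart}

/-- the darts of the chains which enter `L` (written upwards) -/
def En (A : Set V) (p : V → V) (C₀ : Set G.Dart) (L : Set V) : Set G.Dart :=
  {d | d ∈ Gm A p C₀ ∧ d ∈ Un G A p ∧ d.fst ∈ L ∧ d.snd ∉ L}

theorem orb_L {L : Set V} (hpL : ∀ v ∈ L, v ∉ A → p v ∈ L) {a b : V} (h1 : Orb A p a b)
    (ha : a ∈ L) : b ∈ L := by
  induction h1 with
  | refl => exact ha
  | tail _ h3 ih =>
    obtain ⟨h4, rfl⟩ := h3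
    exact hpL _ ih h4

theorem card_En [Finite V] (hp : Par G h A p) {L : Set V} (hpL : ∀ v ∈ L, v ∉ A → p v ∈ L)
    (hAL : A ⊆ L) : (En A p C₀ L).ncard ≤ (QQ A p C₀).ncard := by
  have : Finite G.Dart := Tight.fin_dart
  have h1 : ∀ d ∈ En A p C₀ L, ∃ q ∈ QQ A p C₀, Orb A p q.fst d.snd := by
    rintro d ⟨h1, h2, h3, h4⟩
    rcases h1 with h5 | h5 | h5
    · exact absurd h2 h5.2.1
    · exact (Dn_Un hp h5.1 h2).elim
    · exact h5.2
  choose! q hq1 hq2 using h1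
  refine Set.ncard_le_ncard_of_injOn q hq1 ?_ (Set.toFinite _)
  intro d hd d' hd' h2
  have h3 := hq2 d hd
  have h4 := hq2 d' hd'
  rw [h2] at h3
  have hu : Relator.RightUnique fun x y : V => x ∉ A ∧ y = p x := by
    rintro x y z ⟨_, rfl⟩ ⟨_, rfl⟩
    rfl
  have key : ∀ {d d' : G.Dart}, d ∈ En A p C₀ L → d' ∈ En A p C₀ L →
      Orb A p d.snd d'.snd → d.snd = d'.snd := by
    intro d d' hd hd' h5
    rcases Relation.ReflTransGen.cases_head h5 with h6 | ⟨w, ⟨h6, rfl⟩, h7⟩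
    · exact h6
    · exfalso
      have h8 : p d.snd ∈ L := by
        rw [← hd.2.1.2]
        exact hd.2.2.1
      exact hd'.2.2.2 (orb_L hpL h7 h8)
  have h5 : d.snd = d'.snd := by
    rcases Relation.ReflTransGen.total_of_right_unique hu h3 h4 with h6 | h6
    · exact key hd hd' h6
    · exact (key hd' hd h6).symm
  refine Dart.ext _ _ (Prod.ext ?_ h5)
  rw [hd.2.1.2, hd'.2.1.2, h5]

/-- the terminals without an edge up -/
def BTL (σ : Equiv.Perm G.Dart) (A : Set V) (p : V → V) (C₀ : Set G.Dart) (L B : Set V) :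
    Set (W σ (Gm A p C₀)) := (tau σ _ '' (QQ A p C₀ ∪ En A p C₀ L) ∪
    (fun q => tau σ _ (σ q)) '' (QQ A p C₀ ∪ En A p C₀ L)) ∪
  {w | pr w ∈ B ∧ pr w ∉ XX (Gm A p C₀)}

variable [Finite V] (hp : Par G h A p) (hC : CD σ (Gm A p C₀))
include hp hC

theorem card_BTL {L : Set V} (hpL : ∀ v ∈ L, v ∉ A → p v ∈ L) (hAL : A ⊆ L) (B : Set V) :
    (BTL σ A p C₀ L B).ncard ≤ 4 * (QQ A p C₀).ncard + B.ncard := by
  have : Finite G.Dart := Tight.fin_dart
  have h1 : (QQ A p C₀ ∪ En A p C₀ L).ncard ≤ 2 * (QQ A p C₀).ncard := by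
    have h2 := card_En (C₀ := C₀) hp hpL hAL
    have h3 := Set.ncard_union_le (QQ A p C₀) (En A p C₀ L)
    omega
  refine (Set.ncard_union_le _ _).trans (add_le_add ?_ (card_over hC B))
  refine (Set.ncard_union_le _ _).trans ?_
  have h2 : (tau σ (Gm A p C₀) '' (QQ A p C₀ ∪ En A p C₀ L)).ncard ≤
      (QQ A p C₀ ∪ En A p C₀ L).ncard := Set.ncard_image_le
  have h3 : ((fun q => tau σ (Gm A p C₀) (σ q)) '' (QQ A p C₀ ∪ En A p C₀ L)).ncard ≤
      (QQ A p C₀ ∪ En A p C₀ L).ncard := Set.ncard_image_le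
  omega

/-- steep edges down, between terminals -/
theorem lift_lowL {ℓ : Sym2 V → ℝ} {L : Set V} (hpL : ∀ v ∈ L, v ∉ A → p v ∈ L)
    (hlow : ∀ v, v ∉ A → ℓ s(v, p v) ≤ h v - h (p v))
    (w : W σ (Gm A p C₀)) (hwL : pr w ∈ L) (hw : pr w ∉ XX (Gm A p C₀)) (hwA : pr w ∉ A) :
    ∃ u, pr u ∈ L ∧ (Gt hC).Adj w u ∧ ℓ s(pr w, pr u) ≤ h (pr w) - h (pr u) := by
  rcases w_cases hC w with ⟨d, h1, rfl⟩ | ⟨e, rfl⟩
  · rw [pr_tau hC] at hwL hwA
    have h3 := adj_tau hC (dn hp d.fst hwA)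
    rw [tau_out hC h1 (d' := dn hp d.fst hwA) rfl] at h3
    refine ⟨_, ?_, h3, ?_⟩
    · rw [pr_face hC]
      exact hpL _ hwL hwA
    · rw [pr_face hC, pr_tau hC]
      exact hlow _ hwA
  · exact absurd (by rw [pr_tau hC]; exact mem_XX e.2) hw

/-- steep edges up, between terminals -/
theorem lift_highL {ℓ : Sym2 V → ℝ} (hlow : ∀ v, v ∉ A → ℓ s(v, p v) ≤ h v - h (p v))
    {L B : Set V} {M : Set G.Dart} (hN : NI (Gm A p C₀))
    (hhigh : ∀ v ∈ L, v ∉ B → (∀ m ∈ M, v ∉ onFace σ m) →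
      ∃ u ∈ L, G.Adj v u ∧ ℓ s(v, u) ≤ h u - h v)
    (w : W σ (Gm A p C₀)) (hwL : pr w ∈ L) (hw : w ∉ BTL σ A p C₀ L B)
    (hM : ∀ m ∈ M, w ∉ onFace (sg hC hN) (psi hC (Sum.inl m))) :
    ∃ u, pr u ∈ L ∧ (Gt hC).Adj w u ∧ ℓ s(pr w, pr u) ≤ h (pr u) - h (pr w) := by
  rcases w_cases hC w with ⟨d, h1, rfl⟩ | ⟨e, rfl⟩
  · rw [pr_tau hC] at hwL
    have h2 : d.fst ∉ B := fun h2 => hw (Or.inr (by
      show pr _ ∈ B ∧ pr _ ∉ _
      rw [pr_tau hC]
      exact ⟨h2, h1⟩))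
    obtain ⟨u, huL, hu, h3⟩ := hhigh d.fst hwL h2 (by
      rintro m hm ⟨d', h4, h5⟩
      refine hM m hm ⟨psi hC (Sum.inl d'), face_lift hC hN h4, ?_⟩
      rw [psi_inl_fst]
      exact tau_out hC h1 h5)
    have h4 := adj_tau hC (⟨(d.fst, u), hu⟩ : G.Dart)
    rw [tau_out hC h1 (d' := ⟨(d.fst, u), hu⟩) rfl] at h4
    refine ⟨_, ?_, h4, ?_⟩
    · rw [pr_face hC]
      exact huL
    · rw [pr_face hC, pr_tau hC]
      exact h3
  · rw [pr_tau hC] at hwL
    have up : ∀ d : G.Dart, d ∈ Un G A p → ℓ s(d.fst, d.snd) ≤ h d.snd - h d.fst := by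
      intro d hd
      have h3 := hlow _ hd.1
      rw [Sym2.eq_swap, ← hd.2] at h3
      exact h3
    rcases e.2 with h1 | h1 | h1
    · exact absurd (Or.inl (Or.inl ⟨e.1, Or.inl h1, rfl⟩)) hw
    · rcases ((ret hC).symm e).2 with h2 | h2 | h2
      · refine absurd (Or.inl (Or.inr ⟨_, Or.inl h2, ?_⟩)) hw
        show tau σ _ (σ ((ret hC).symm e).1) = _
        rw [tau_sigma_ret hC, Equiv.apply_symm_apply]
      · exact (not_both hp hC e h1.1 h2.1).elim
      · by_cases h4 : ((ret hC).symm e).1.snd ∈ L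
        · refine ⟨_, ?_, adj_ret hC e, ?_⟩
          · rw [pr_ret hC]
            exact h4
          · have h3 := up _ h2.1
            rw [ret_symm_fst hC] at h3
            rw [pr_ret hC, pr_tau hC]
            exact h3
        · refine absurd (Or.inl (Or.inr ⟨_, Or.inr ⟨((ret hC).symm e).2, h2.1, ?_, h4⟩, ?_⟩)) hw
          · rw [ret_symm_fst hC]
            exact hwL
          · show tau σ _ (σ ((ret hC).symm e).1) = _
            rw [tau_sigma_ret hC, Equiv.apply_symm_apply]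
    · by_cases h4 : e.1.snd ∈ L
      · refine ⟨_, ?_, adj_tau hC e.1, ?_⟩
        · rw [pr_face hC]
          exact h4
        · rw [pr_face hC, pr_tau hC]
          exact up _ h1.1
      · exact absurd (Or.inl (Or.inl ⟨e.1, Or.inr ⟨e.2, h1.1, hwL, h4⟩, rfl⟩)) hw

end Vale.Agent.P235.R2.H90.LiftL
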