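import Vale.Agent.P235.R2.H90.Root

/-!
# P235: the outer face of the map cut open (helper90)
-/

set_option linter.unusedSectionVars false
set_option linter.unusedDecidableInType false
set_option linter.unusedFintypeInType false

namespace Vale.Agent.P235.R2.H90.Outer

open Vale.Agent.P235 SimpleGraph Vale.Agent.P235.R2.H90.Cut Vale.Agent.P235.R2.H90.Gam
  Vale.Agent.P235.R2.H90.Lift Vale.Agent.P235.R2.H90.Root

variable {V : Type} {G : SimpleGraph V} {σ : Equiv.Perm G.Dart} {Γ : Set G.Dart}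

/-- the darts of the copies of the cut graph are on one face, and the Euler count is exact -/
theorem outer [Finite V] (hC : CD σ Γ) (hN : NI Γ) (hne : Γ.Nonempty)
    (hv : ∀ v, ∃ d : G.Dart, d.fst = v) (hconn : (Gt hC).Connected)
    (hE : 2 * (Nat.card G.edgeSet + (XX Γ).ncard + 1) ≤ 2 * (Nat.card V +
      Nat.card (Quotient (Equiv.Perm.SameCycle.setoid (faceNext σ)))) + Nat.card Γ) :
    (∀ e e' : Γ, (faceNext (sg hC hN)).SameCycle (psi hC (Sum.inr e)) (psi hC (Sum.inr e'))) ∧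
    2 * (Nat.card V + Nat.card (Quotient (Equiv.Perm.SameCycle.setoid (faceNext σ)))) +
      Nat.card Γ ≤ 2 * (Nat.card G.edgeSet + (XX Γ).ncard + 1) := by
  have : Finite G.Dart := Tight.fin_dart
  have : Finite (Gt hC).Dart := Tight.fin_dart
  have h1 := card_W hC hv
  have h2 : Nat.card (Gt hC).Dart = Nat.card G.Dart + Nat.card Γ := by
    rw [← Nat.card_congr (psiE hC hN), Nat.card_sum]
  rw [card_dart, card_dart] at h2
  have hs := labQ_surj hC hN hne
  have h3 := Nat.card_le_card_of_surjective _ hs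
  have h4 : Nat.card (Option (Quotient (Equiv.Perm.SameCycle.setoid (faceNext σ)))) =
      Nat.card (Quotient (Equiv.Perm.SameCycle.setoid (faceNext σ))) + 1 :=
    Finite.card_option
  have h5 := Tight.genus hconn (sg_fst hC hN) (sg_cyc hC hN)
  refine ⟨fun e e' => ?_, by omega⟩
  have h6 : Nat.card (Quotient (Equiv.Perm.SameCycle.setoid (faceNext (sg hC hN)))) =
      Nat.card (Option (Quotient (Equiv.Perm.SameCycle.setoid (faceNext σ)))) := by omega
  have h7 := ((Nat.bijective_iff_surjective_and_card _).2 ⟨hs, h6⟩).1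
  have h8 : labQ hC hN (Quotient.mk _ (psi hC (Sum.inr e))) =
      labQ hC hN (Quotient.mk _ (psi hC (Sum.inr e'))) := by
    have h9 : labQ hC hN (Quotient.mk _ (psi hC (Sum.inr e))) = none := labT_psi hC hN _
    have h10 : labQ hC hN (Quotient.mk _ (psi hC (Sum.inr e'))) = none := labT_psi hC hN _
    rw [h9, h10]
  exact Quotient.exact (h7 h8)

/-- the corners are on the outer face -/
theorem corner_outer [Finite V] (hC : CD σ Γ) (hN : NI Γ)
    (ho : ∀ e e' : Γ,
      (faceNext (sg hC hN)).SameCycle (psi hC (Sum.inr e)) (psi hC (Sum.inr e'))) (e0 e : Γ) :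
    tau σ Γ e.1 ∈ onFace (sg hC hN) (psi hC (Sum.inr e0)) := by
  refine ⟨psi hC (Sum.inr (wlk hC e)), ho _ _, ?_⟩
  rw [psi_inr_fst]
  exact tau_wlk hC e

/-- old faces are not the outer face -/
theorem not_outer [Finite V] (hC : CD σ Γ) (hN : NI Γ) (e0 : Γ) (m : G.Dart) :
    ¬ (faceNext (sg hC hN)).SameCycle (psi hC (Sum.inr e0)) (psi hC (Sum.inl m)) := by
  intro h
  have h1 := Tight.cyc_const (labT_face hC hN) h
  rw [labT_psi, labT_psi] at h1
  exact absurd h1 (by simp [lab])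

variable {h : V → ℝ} {A : Set V} {p : V → V}

/-- **the choice of the cut graph**, with one outer face -/
theorem exists_cut2 [Finite V] (hc : G.Connected) (hne : Nonempty G.Dart) {g : ℕ}
    (hσ : SurfMap g G σ) (hA : A.Nonempty) (hp : Par G h A p) :
    (PlaneMap G σ ∧ (A.ncard ≤ 1 ∨ ∃ a b, A = {a, b} ∧ G.Adj a b)) ∨
    ∃ C : Set G.Dart, (∀ d, d ∈ C → d.symm ∈ C) ∧ NI (Gm A p C) ∧
      (Gm A p C).Nonempty ∧ (QQ A p C).ncard ≤ 2 * (g + A.ncard) ∧ A ⊆ XX (Gm A p C) ∧
      ∀ (hC : CD σ (Gm A p C)) (hN : NI (Gm A p C)),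
        (Gt hC).Connected ∧ PlaneMap (Gt hC) (sg hC hN) ∧ ∀ e e' : Gm A p C,
          (faceNext (sg hC hN)).SameCycle (psi hC (Sum.inr e)) (psi hC (Sum.inr e')) := by
  classical
  have : Finite G.Dart := Tight.fin_dart
  obtain ⟨C0, h1, h2, h3, h4⟩ := ExDA.exists_dual hc hσ.fst hσ.cyc
    (h := h) (A := A) (p := p) (fun v hv => ⟨hp.adj v hv, hp.lt v hv⟩)
  set C : Set G.Dart := (C0 : Set G.Dart) with hCdef
  have hs : ∀ d, d ∈ C → d.symm ∈ C := fun d hd => h1 d hd
  set C1 : Set G.Dart := C ∪ Iso A p C with hC1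
  have hs1 : ∀ d, d ∈ C1 → d.symm ∈ C1 := fun d hd => hd.imp (hs d) (iso_symm hs)
  have hd : ∀ d ∈ C, d ∉ Dn G A p ∧ d ∉ Un G A p := fun d hd =>
    ⟨fun h => h2 d hd (Or.inl h), fun h => h2 d hd (Or.inr h)⟩
  have hd1 : ∀ d ∈ C1, d ∉ Dn G A p ∧ d ∉ Un G A p := fun d hd' =>
    hd'.elim (hd d) fun h => ⟨h.1.1, h.1.2.1⟩
  set F := Nat.card (Quotient (Equiv.Perm.SameCycle.setoid (faceNext σ))) with hF
  have hF1 : 1 ≤ F := by
    obtain ⟨d⟩ := hne
    have : Nonempty (Quotient (Equiv.Perm.SameCycle.setoid (faceNext σ))) := ⟨Quotient.mk _ d⟩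
    exact Nat.card_pos
  have h5 : C.ncard = 2 * (F - 1) := by
    rw [hCdef, Set.ncard_coe_finset, h3]
  have h6 : C1.ncard ≤ C.ncard + (Iso A p C).ncard := Set.ncard_union_le _ _
  have h7 : C.ncard ≤ C1.ncard := Set.ncard_le_ncard Set.subset_union_left (Set.toFinite _)
  have h8 : (A ∩ YY A p C1).ncard + (Iso A p C).ncard ≤ A.ncard := card_iso (C := C) hp
  have h9 := card_all hp hd1
  rw [card_dart] at h9
  have h10 : 1 ≤ A.ncard := (Set.ncard_pos (Set.toFinite _)).2 hA
  have h11 : Nat.card G.edgeSet + 2 ≤ Nat.card V + F + g := hσ.euler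
  have h13 : Nat.card V + F ≤ Nat.card G.edgeSet + 2 := Tight.genus hc hσ.fst hσ.cyc
  by_cases hG : (Gm A p C1).Nonempty
  · right
    have hcon : ∀ s : G.Dart → Prop, (∀ d, s (faceNext σ d) ↔ s d) →
        (∀ d, d ∉ Gm A p C1 → (s d.symm ↔ s d)) → ∀ d d', s d ↔ s d' := by
      intro s hs2 hs3 d d'
      have h12 := h4 Prop s (fun d => propext (hs2 d)) (fun d hd' => propext (hs3 d ?_)) d d'
      · exact iff_of_eq h12
      · rintro (h13 | h13 | h13)
        · exact h13.2.2 (Or.inl hd')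
        · exact (hd d hd').1 h13.1
        · exact (hd d hd').2 h13.1
    have hv : ∀ v, ∃ d : G.Dart, d.fst = v := by
      intro v
      obtain ⟨d0⟩ := hne
      obtain ⟨w, hw⟩ : ∃ w, G.Adj v w := by
        by_cases hv : v = d0.fst
        · exact ⟨d0.snd, hv ▸ d0.adj⟩
        · obtain ⟨pw⟩ := hc.preconnected v d0.fst
          cases pw with
          | nil => exact absurd rfl hv
          | cons hadj _ => exact ⟨_, hadj⟩
      exact ⟨⟨(v, w), hw⟩, rfl⟩
    have hEu : 2 * (Nat.card G.edgeSet + (XX (Gm A p C1)).ncard + 1) ≤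
        2 * (Nat.card V + F) + Nat.card (Gm A p C1) :=
      euler_count hp hd1 (F := F) (i := (Iso A p C).ncard) (by omega) (by omega)
    have hNI : NI (Gm A p C1) := ni_iso hp hs
    have hCD : CD σ (Gm A p C1) := ⟨hσ.fst, hσ.cyc, Gm_symm hs1⟩
    refine ⟨C1, hs1, hNI, hG, by omega, ?_, fun hC hN =>
      ⟨Gt_conn hC hne hcon, plane_cut hC hN hG hv hcon hEu,
        (outer hC hN hG hv (Gt_conn hC hne hcon) hEu).1⟩⟩
    have h14 := (outer hCD hNI hG hv (Gt_conn hCD hne hcon) hEu).2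
    have h15 := card_Gm (C₀ := C1) hp
    have h16 : (YY A p C1).ncard = (A ∩ YY A p C1).ncard + (YY A p C1 \ A).ncard := by
      rw [Set.inter_comm]
      exact (Set.ncard_inter_add_ncard_sdiff_eq_ncard _ _ (Set.toFinite _)).symm
    rw [XX_Gm hp, h16, Nat.card_coe_set_eq (Gm A p C1), h15] at h14
    have h17 : A.ncard ≤ (A ∩ YY A p C1).ncard := by
      omega
    have h18 := Set.eq_of_subset_of_ncard_le (Set.inter_subset_left : A ∩ YY A p C1 ⊆ A) h17
      (Set.toFinite _)
    rw [XX_Gm hp]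
    exact Set.inter_eq_left.1 h18
  · left
    have h12 : (QQ A p C1).ncard = 0 := by
      rw [Set.ncard_eq_zero]
      rw [Set.not_nonempty_iff_eq_empty] at hG
      rw [Set.eq_empty_iff_forall_notMem] at hG ⊢
      exact fun d hd' => hG d (Or.inl hd')
    refine ⟨Tight.plane_of_le hc hσ.fst hσ.cyc ?_, ?_⟩
    · show Nat.card G.edgeSet + 2 ≤ Nat.card V + F
      omega
    · by_cases hA1 : A.ncard ≤ 1
      · exact Or.inl hA1
      · right
        have hA2 : A.ncard = 2 := by omega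
        have hI : (Iso A p C).Nonempty := by
          rw [← Set.ncard_pos (Set.toFinite _)]
          omega
        obtain ⟨q, hq⟩ := hI
        refine ⟨q.fst, q.snd, ?_, q.adj⟩
        symm
        refine Set.eq_of_subset_of_ncard_le ?_ ?_ (Set.toFinite _)
        · rintro x (rfl | hx)
          · exact iso_mem hp hq
          · rw [Set.mem_singleton_iff.1 hx]
            exact iso_mem hp (iso_symm hs hq)
        · rw [hA2, Set.ncard_pair q.adj.ne]

end Vale.Agent.P235.R2.H90.Outer
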