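import Vale.Agent.P235.R2.H90.TermD
import Vale.Agent.P235.R2.H611.T6
import Vale.Agent.P235.R2.H582.KprSpec
import Vale.Agent.P235.H105.Hop

/-!
# P235: terminals on plane graphs, square root bound for sources and sinks (helper90)

One round which deletes a union `X` of lanes, with the step map of an arbitrary set (`RowStep`) and
the metric of `G` on a union of lanes.
-/

set_option linter.unusedSectionVars false
set_option linter.unusedDecidableInType false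
set_option linter.unusedFintypeInType false

namespace Vale.Agent.P235.R2.H90.PlaneU

open Vale.Agent.P235 SimpleGraph Vale.Agent.P235.Red Vale.Agent.P235.R2.H90.Cut
  Vale.Agent.P235.R2.H90.Gam Vale.Agent.P235.R2.H90.Lift Vale.Agent.P235.R2.H90.LiftL
  Vale.Agent.P235.R2.H90.Outer Vale.Agent.P235.R2.H90.Surf
  Vale.Agent.P235.R2.H90.Final Vale.Agent.P235.R2.H90.TermFinal
open Vale.Agent.P235.R2.H582 (embeds_mono ll_mono)

/-- the metric of a plane graph on a union of `s` lanes (helper718's `RowLanes`, with constant) -/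
def LanesC (C : ℝ) : Prop :=
  ∀ (V : Type) [Finite V] (G : SimpleGraph V) (ℓ : Sym2 V → ℝ), G.Connected →
    (∃ σ : Equiv.Perm G.Dart, PlaneMap G σ) → (∀ e ∈ G.edgeSet, 0 < ℓ e) →
    ∀ (u : V → ℝ), (∀ a b, |u a - u b| ≤ pathDist G ℓ a b) → ∀ (s : ℕ) (L : Fin s → Set V),
    (∀ i, ∀ a ∈ L i, ∀ b ∈ L i, pathDist G ℓ a b ≤ |u a - u b|) → (⋃ i, L i).Nonempty →
    EmbedsL1 (fun x y : ↥(⋃ i, L i) => pathDist G ℓ x y) (C * √(Real.log ((s : ℝ) + 2)))

theorem sqrt_eight {n N : ℕ} (h : n ≤ 8 * N) :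
    √(Real.log ((n : ℝ) + 2)) ≤ 2 + √(Real.log ((N : ℝ) + 2)) := by
  have hn0 : (0 : ℝ) ≤ (n : ℝ) := Nat.cast_nonneg _
  have hN0 : (0 : ℝ) ≤ (N : ℝ) := Nat.cast_nonneg _
  have hz : 0 ≤ Real.log ((N : ℝ) + 2) := Real.log_nonneg (by linarith)
  have hy := Real.sqrt_nonneg (Real.log ((N : ℝ) + 2))
  have hy2 := Real.sq_sqrt hz
  have h1 : (n : ℝ) ≤ 8 * N := by exact_mod_cast h
  have h2 : Real.log ((n : ℝ) + 2) ≤ Real.log (2 ^ 3) + Real.log ((N : ℝ) + 2) := by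
    rw [← Real.log_mul (by norm_num) (by positivity)]
    exact Real.log_le_log (by positivity) (by norm_num; linarith)
  have h3 : Real.log ((2 : ℝ) ^ 3) ≤ 3 := by
    rw [Real.log_pow]
    have := Real.log_two_lt_d9
    push_cast
    linarith
  refine Real.sqrt_le_iff.2 ⟨by linarith, ?_⟩
  nlinarith

/-- one round for terminals which deletes any set `X` with a step map `F` -/
theorem round_F {K' Λ : ℝ} (hK' : 0 < K') (hΛ : 1 ≤ Λ) {V : Type} [Finite V] {G : SimpleGraph V}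
    {ℓ : Sym2 V → ℝ} (hc : G.Connected) (hℓ : ∀ e ∈ G.edgeSet, 0 < ℓ e) {L X : Set V}
    (hX : X.Nonempty) {F : V → V → ℝ} (hF : IsL1 F) (hFl : ∀ a b, F a b ≤ pathDist G ℓ a b)
    (hFX : ∀ ν : V → V, Near G ℓ X ν → ∀ x y δ, 0 < δ → pathDist G ℓ x (ν x) ≤ δ →
      pathDist G ℓ y (ν y) ≤ 5 / 4 * δ → 8 * δ ≤ pathDist G ℓ x y → 2 * δ ≤ Λ * F x y)
    {W : Type} [Finite W] {G' : SimpleGraph W} {ℓ' : Sym2 W → ℝ} (hc' : G'.Connected)
    (hℓ' : ∀ e ∈ G'.edgeSet, 0 < ℓ' e) {ι : W → V} {κ : V → W}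
    (hι : ∀ a b, G'.Adj a b → pathDist G ℓ (ι a) (ι b) ≤ ℓ' s(a, b))
    (hκ : ∀ v, v ∉ X → ι (κ v) = v)
    (hκa : ∀ x y, x ∉ X → y ∉ X → G.Adj x y →
      G'.Adj (κ x) (κ y) ∧ ℓ' s(κ x, κ y) ≤ ℓ s(x, y))
    (hleaf : EmbedsL1 (fun a b : {w : W | ι w ∈ L} => pathDist G' ℓ' a b) K') :
    EmbedsL1 (fun a b : L => pathDist G ℓ a b) (16000 * (96 * K' + 112 + (Λ + 4))) := by
  classical
  have hfar : ∀ x y : W, pathDist G ℓ (ι x) (ι y) ≤ pathDist G' ℓ' x y := by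
    intro x y
    have h1 := pd_semi (ℓ := ℓ') (ρ := fun x y => pathDist G ℓ (ι x) (ι y)) hc'
      one_pos (fun x => pd_self hℓ _) (fun x y z => pd_tri hc hℓ _ _ _) (fun u v huv => by
        rw [one_mul]
        exact hι u v huv) x y
    rwa [one_mul] at h1
  have hwalk : ∀ {x y : V} (w : G.Walk x y), (∀ z ∈ w.support, z ∉ X) →
      pathDist G' ℓ' (κ x) (κ y) ≤ T5.wl ℓ w := by
    intro x y w
    induction w with
    | nil =>
      intro _
      rw [pd_self hℓ']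
      exact T5.wl_nonneg hℓ _
    | @cons x z y h1 w ih =>
      intro hw
      have hx : x ∉ X := hw x (by rw [Walk.support_cons]; exact List.mem_cons_self ..)
      have hw' : ∀ z' ∈ w.support, z' ∉ X := fun z' hz' => hw z' (by
        rw [Walk.support_cons]
        exact List.mem_cons_of_mem _ hz')
      have hz : z ∉ X := hw' z w.start_mem_support
      obtain ⟨h2, h3⟩ := hκa x z hx hz h1
      have h4 := pd_adj hℓ' h2
      have h5 := pd_tri hc' hℓ' (κ x) (κ z) (κ y)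
      have h6 := ih hw'
      have h7 : T5.wl ℓ (Walk.cons h1 w) = ℓ s(x, z) + T5.wl ℓ w := by
        unfold T5.wl
        rw [Walk.edges_cons, List.map_cons, List.sum_cons]
      rw [h7]
      linarith
  have hK0 : (0 : ℝ) < 96 * K' + 112 + (Λ + 4) := by linarith
  have h := T5.ptL_embeds hc hℓ L (k := 0) (K := 96 * K' + 112 + (Λ + 4)) le_rfl hK0
    fun H hH hHl => T6.ptL_round hc hℓ hH hHl hX hF hFl hΛ hFX le_rfl (by linarith)
      fun v hv φ hφ0 hφK hφX hφl => by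
        by_cases hne : ∃ x, x ∈ L ∧ x ∈ compSet G X v
        · obtain ⟨x0, hx0, hx1⟩ := hne
          have hx2 : x0 ∉ X := fun h2 => ReachOff.right hx1 h2
          let t0 : {w : W | ι w ∈ L} := ⟨κ x0, by
            show ι (κ x0) ∈ L
            rw [hκ _ hx2]
            exact hx0⟩
          have hκL : ∀ x, x ∈ L ∧ x ∉ X → κ x ∈ {w : W | ι w ∈ L} := fun x h2 => by
            show ι (κ x) ∈ L
            rw [hκ _ h2.2]
            exact h2.1
          let κ' : V → {w : W | ι w ∈ L} := fun x =>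
            if h : x ∈ L ∧ x ∉ X then ⟨κ x, hκL x h⟩ else t0
          have hκ' : ∀ x (h : x ∈ L ∧ x ∉ X), κ' x = ⟨κ x, hκL x h⟩ := fun x h => dif_pos h
          have hd' := pathDist_isMet hc' hℓ'
          refine T6.ptL_leaf' hc hℓ (T := {w : W | ι w ∈ L})
            (ρ := fun a b => pathDist G' ℓ' a b) (κ := κ') ⟨fun x => hd'.self _,
              fun x y hxy => hd'.pos _ _ fun h => hxy (Subtype.ext h), fun x y => hd'.symm _ _,
              fun x y z => hd'.tri _ _ _⟩ hK' hleaf ?_ ?_ hφK hφl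
          · intro x hx y hy hxK hyK
            have k1 : x ∈ L ∧ x ∉ X := ⟨hx, fun h2 => ReachOff.right hxK h2⟩
            have k2 : y ∈ L ∧ y ∉ X := ⟨hy, fun h2 => ReachOff.right hyK h2⟩
            rw [hκ' x k1, hκ' y k2]
            have h3 := hfar (κ x) (κ y)
            rwa [hκ _ k1.2, hκ _ k2.2] at h3
          · intro x hx y hy q hq
            have k0 : ∀ z ∈ q.support, z ∉ X := fun z hz h2 => ReachOff.right (hq z hz) h2
            rw [hκ' x ⟨hx, k0 x q.start_mem_support⟩, hκ' y ⟨hy, k0 y q.end_mem_support⟩]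
            exact hwalk q k0
        · push Not at hne
          refine T6.ptL_leaf' hc hℓ (T := Unit) (ρ := fun _ _ => 0) (κ := fun _ => ())
            ⟨fun _ => rfl, fun x y hxy => absurd (Subsingleton.elim x y) hxy, fun _ _ => rfl,
              fun _ _ _ => by norm_num⟩ hK' ?_ (fun x hx y hy hxK => absurd hxK (hne x hx))
            (fun x hx y hy q hq => absurd (hq x q.start_mem_support) (hne x hx)) hφK hφl
          exact (IsL1.zero (V := Unit)).embeds (fun _ _ => le_rfl) fun _ _ => by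
            rw [mul_zero]
  have h2 : (48000 : ℝ) * √0 + 16000 * (96 * K' + 112 + (Λ + 4)) =
      16000 * (96 * K' + 112 + (Λ + 4)) := by
    rw [Real.sqrt_zero, mul_zero, zero_add]
  rw [h2] at h
  exact h

/-- the step map for a union of at most `n` lanes in a plane graph -/
theorem step_lanes {C₁ : ℝ} (hC₁ : 1 ≤ C₁) (hLS : LanesC C₁) (hRS : Kpr.RowStep) {V : Type}
    [Finite V] {G : SimpleGraph V} {ℓ : Sym2 V → ℝ} (hc : G.Connected)
    (hP : ∃ σ : Equiv.Perm G.Dart, PlaneMap G σ) (hℓ : ∀ e ∈ G.edgeSet, 0 < ℓ e) {X : Set V}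
    (hX : X.Nonempty) {n : ℕ} (hlanes : Lanes G ℓ n X) :
    ∃ F : V → V → ℝ, IsL1 F ∧ (∀ a b, F a b ≤ pathDist G ℓ a b) ∧
      ∀ ν : V → V, Near G ℓ X ν → ∀ x y δ, 0 < δ → pathDist G ℓ x (ν x) ≤ δ →
        pathDist G ℓ y (ν y) ≤ 5 / 4 * δ → 8 * δ ≤ pathDist G ℓ x y →
        2 * δ ≤ 10000 * (C₁ * (1 + √(Real.log ((n : ℝ) + 2)))) * F x y := by
  obtain ⟨u, n', Ls, h1, h2, h3, h4, rfl⟩ := hlanes
  have hn : ((n' : ℕ) : ℝ) ≤ n := by exact_mod_cast h1
  have hn0 : (0 : ℝ) ≤ ((n' : ℕ) : ℝ) := Nat.cast_nonneg _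
  have h5 := hLS V G ℓ hc hP hℓ u h2 n' Ls h4 hX
  have h6 : √(Real.log ((n' : ℝ) + 2)) ≤ √(Real.log ((n : ℝ) + 2)) :=
    Real.sqrt_le_sqrt (Real.log_le_log (by positivity) (by linarith))
  have h7 := Real.sqrt_nonneg (Real.log ((n : ℝ) + 2))
  have hB : 1 ≤ C₁ * (1 + √(Real.log ((n : ℝ) + 2))) := by nlinarith
  have h8 : EmbedsL1 (fun x y : ↥(⋃ i, Ls i) => pathDist G ℓ x y)
      (C₁ * (1 + √(Real.log ((n : ℝ) + 2)))) :=
    embeds_mono (fun a b => pd_nonneg hℓ _ _)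
      (mul_le_mul_of_nonneg_left (by linarith) (by linarith)) h5
  obtain ⟨F, k1, k2, k3⟩ := hRS V G ℓ hc hP hℓ _ _ hX hB h8
  refine ⟨F, k1, fun a b => ?_, k3⟩
  have h9 := pd_semi (ℓ := ℓ) (ρ := F) hc one_pos (fun x => k1.self x) (fun x y z => k1.tri x y z)
    (fun u v huv => by rw [one_mul]; exact k2 u v huv) a b
  rwa [one_mul] at h9

/-- one round for terminals of a plane graph which deletes at most `n` lanes -/
theorem round_plane {C₁ : ℝ} (hC₁ : 1 ≤ C₁) (hLS : LanesC C₁) (hRS : Kpr.RowStep)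
    {K' : ℝ} (hK' : 1 ≤ K') {V : Type} [Finite V] {G : SimpleGraph V}
    {ℓ : Sym2 V → ℝ} (hc : G.Connected) (hP : ∃ σ : Equiv.Perm G.Dart, PlaneMap G σ)
    (hℓ : ∀ e ∈ G.edgeSet, 0 < ℓ e) {L X : Set V}
    (hX : X.Nonempty) {n : ℕ} (hlanes : Lanes G ℓ n X)
    {W : Type} [Finite W] {G' : SimpleGraph W} {ℓ' : Sym2 W → ℝ} (hc' : G'.Connected)
    (hℓ' : ∀ e ∈ G'.edgeSet, 0 < ℓ' e) {ι : W → V} {κ : V → W}
    (hι : ∀ a b, G'.Adj a b → pathDist G ℓ (ι a) (ι b) ≤ ℓ' s(a, b))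
    (hκ : ∀ v, v ∉ X → ι (κ v) = v)
    (hκa : ∀ x y, x ∉ X → y ∉ X → G.Adj x y →
      G'.Adj (κ x) (κ y) ∧ ℓ' s(κ x, κ y) ≤ ℓ s(x, y))
    (hleaf : EmbedsL1 (fun a b : {w : W | ι w ∈ L} => pathDist G' ℓ' a b) K') :
    EmbedsL1 (fun a b : L => pathDist G ℓ a b) (16000 * (96 * K' + 112 +
      (10000 * (C₁ * (1 + √(Real.log ((n : ℝ) + 2)))) + 4))) := by
  obtain ⟨F, h1, h2, h3⟩ := step_lanes hC₁ hLS hRS hc hP hℓ hX hlanes
  have h7 := Real.sqrt_nonneg (Real.log ((n : ℝ) + 2))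
  have hB : 1 ≤ C₁ * (1 + √(Real.log ((n : ℝ) + 2))) := by nlinarith
  exact round_F (by linarith) (by linarith) hc hℓ hX h1 h2 h3 hc' hℓ' hι hκ hκa hleaf

/-- **terminals on plane graphs, tight form, the square root also for the sources** -/
theorem planeL_tight {C C₁ : ℝ} (hC1 : 1 ≤ C) (hMS : MStarLL C) (hC₁ : 1 ≤ C₁)
    (hLS : LanesC C₁) (hRS : Kpr.RowStep) (V : Type) [Finite V]
    (G : SimpleGraph V) (σ : Equiv.Perm G.Dart) (ℓ : Sym2 V → ℝ) (h : V → ℝ) (L : Set V)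
    (A B : Finset V) (M : Finset G.Dart) (hc : G.Connected) (hσ : SurfMap 0 G σ)
    (hℓ : ∀ e ∈ G.edgeSet, 0 < ℓ e)
    (h1 : ∀ u ∈ L, ∀ v ∈ L, |h u - h v| ≤ pathDist G ℓ u v)
    (hlow : ∀ v ∈ L, v ∉ A → ∃ u ∈ L, G.Adj v u ∧ ℓ s(v, u) ≤ h v - h u)
    (hhigh : ∀ v ∈ L, (∃ u ∈ L, G.Adj v u ∧ ℓ s(v, u) ≤ h u - h v) ∨ v ∈ B ∨
      ∃ m ∈ M, v ∈ onFace σ m) :
    EmbedsL1 (fun u v : L => pathDist G ℓ u v) (10 ^ 30 * (C * C₁) *
      ((ll (Nat.card V) : ℝ) + 1 + √(Real.log ((A.card + B.card + M.card : ℕ) + 2)))) := by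
  classical
  have hFin : Finite G.Dart := Tight.fin_dart
  obtain ⟨g, hg⟩ : ∃ g, g = 0 := ⟨0, rfl⟩
  rw [← hg] at hσ
  have hP0 : ∃ τ : Equiv.Perm G.Dart, PlaneMap G τ := ⟨σ, SurfMap.plane hc (hg ▸ hσ)⟩
  have hL0 : (0 : ℝ) ≤ ll (Nat.card V) := Nat.cast_nonneg _
  have hy := Real.sqrt_nonneg (Real.log (((A.card + B.card + M.card : ℕ) : ℝ) + 2))
  set y := √(Real.log (((A.card + B.card + M.card : ℕ) : ℝ) + 2)) with hydef
  set T : ℝ := (ll (Nat.card V) : ℝ) + 1 + y with hT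
  have hsq : ∀ n : ℕ, n ≤ 8 * (A.card + B.card + M.card) → √(Real.log ((n : ℝ) + 2)) ≤ 2 + y :=
    fun n hn => sqrt_eight hn
  have hT1 : 1 ≤ T := by rw [hT]; linarith
  have hCT : 1 ≤ C * T := by nlinarith
  have hTCT : T ≤ C * T := by nlinarith
  have hnn : ∀ a b : L, 0 ≤ pathDist G ℓ a b := fun a b => pd_nonneg hℓ _ _
  have hpos : ∀ u v, G.Adj u v → 0 < ℓ s(u, v) := fun u v ha => hℓ _ (G.mem_edgeSet.2 ha)
  rcases L.eq_empty_or_nonempty with rfl | hL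
  · exact (IsL1.zero (V := (∅ : Set V))).embeds (fun a => a.2.elim) (fun a => a.2.elim)
  by_cases hne : Nonempty G.Dart
  swap
  · have hsub := subsingleton_of_no_dart hc hne
    exact Tight.embeds_restrict (fun a : L => a.1) (fun _ _ => rfl)
      (distortion_subsingleton G hc.nonempty ℓ hℓ)
  obtain ⟨k, hk, hkl, hko⟩ := T5.exists_mcshane hc hℓ hL h1
  let A2 : Finset V := A.filter fun a => a ∈ L ∧ ∀ u ∈ L, G.Adj a u → k a - k u < ℓ s(a, u)
  have hA2 : A2.card ≤ A.card := Finset.card_filter_le _ _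
  have hAL : (A2 : Set V) ⊆ L := fun a ha => (Finset.mem_filter.1 (Finset.mem_coe.1 ha)).2.1
  have hmin : ∀ a ∈ A2, ∀ u ∈ L, G.Adj a u → k a - k u < ℓ s(a, u) :=
    fun a ha => (Finset.mem_filter.1 ha).2.2
  have hpar : ∀ v, ∃ u, v ∉ A2 → G.Adj v u ∧ ℓ s(v, u) ≤ k v - k u ∧ (v ∈ L → u ∈ L) := by
    intro v
    by_cases hv : v ∈ A2
    · exact ⟨v, fun h2 => absurd hv h2⟩
    · by_cases hvL : v ∈ L
      · by_cases hvA : v ∈ A
        · have h2 : ¬ ∀ u ∈ L, G.Adj v u → k v - k u < ℓ s(v, u) := fun h2 =>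
            hv (Finset.mem_filter.2 ⟨hvA, hvL, h2⟩)
          push Not at h2
          obtain ⟨u, h3, h4, h5⟩ := h2
          exact ⟨u, fun _ => ⟨h4, h5, fun _ => h3⟩⟩
        · obtain ⟨u, h3, h4, h5⟩ := hlow v hvL hvA
          exact ⟨u, fun _ => ⟨h4, by rw [hk v hvL, hk u h3]; exact h5, fun _ => h3⟩⟩
      · obtain ⟨u, h3, h4⟩ := hko v hvL
        refine ⟨u, fun _ => ⟨h3.symm, ?_, fun h5 => absurd h5 hvL⟩⟩
        rw [Sym2.eq_swap]
        linarith
  choose p hp0 using hpar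
  have hmc : ∀ v, v ∉ (A2 : Set V) → v ∉ A2 := fun v hv h2 => hv (Finset.mem_coe.2 h2)
  have hplow : ∀ v, v ∉ (A2 : Set V) → ℓ s(v, p v) ≤ k v - k (p v) := fun v hv =>
    (hp0 v (hmc v hv)).2.1
  have hpL : ∀ v ∈ L, v ∉ (A2 : Set V) → p v ∈ L := fun v hvL hv =>
    (hp0 v (hmc v hv)).2.2 hvL
  have hp : Par G k (A2 : Set V) p := by
    refine ⟨fun v hv => (hp0 v (hmc v hv)).1, fun v hv => ?_⟩
    have h2 := hpos _ _ (hp0 v (hmc v hv)).1
    have h3 := hplow v hv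
    linarith
  have hAne : (A2 : Set V).Nonempty := by
    have := hc.nonempty
    obtain ⟨v0, hv0⟩ := Finite.exists_min k
    refine ⟨v0, ?_⟩
    by_contra hcon
    have h2 := hp.lt v0 hcon
    have h3 := hv0 (p v0)
    linarith
  have hkh : ∀ v ∈ L, (∃ u ∈ L, G.Adj v u ∧ ℓ s(v, u) ≤ k u - k v) ∨ v ∈ B ∨
      ∃ m ∈ M, v ∈ onFace σ m := by
    intro v hv
    rcases hhigh v hv with ⟨u, h2, h3, h4⟩ | h2
    · exact Or.inl ⟨u, h2, h3, by rw [hk v hv, hk u h2]; exact h4⟩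
    · exact Or.inr h2
  have hv : ∀ v, ∃ d : G.Dart, d.fst = v := by
    intro v
    obtain ⟨d0⟩ := hne
    obtain ⟨w, hw⟩ : ∃ w, G.Adj v w := by
      by_cases hv : v = d0.fst
      · exact ⟨d0.snd, hv ▸ d0.adj⟩
      · obtain ⟨pw⟩ := hc.preconnected v d0.fst
        cases pw with
        | nil => exact absurd rfl hv
        | cons hadj _ => exact ⟨_, hadj⟩
    exact ⟨⟨(v, w), hw⟩, rfl⟩
  have hlipd : ∀ (ℓ₁ : Sym2 V → ℝ) (k₁ : V → ℝ), (∀ u v, G.Adj u v → |k₁ u - k₁ v| ≤ ℓ₁ s(u, v)) →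
      ∀ u v, |k₁ u - k₁ v| ≤ pathDist G ℓ₁ u v := fun ℓ₁ k₁ h2 u v =>
    R2.H582.Wd.lip_pdE hc h2 u v
  have hC0 : (0 : ℝ) < C := by linarith
  have hC₁0 : (0 : ℝ) < C₁ := by linarith
  have hCC1 : C * T ≤ C * C₁ * T := by
    have h4 : 0 ≤ C * T := by linarith
    have h5 : C * T * 1 ≤ C * T * C₁ := mul_le_mul_of_nonneg_left hC₁ h4
    linarith
  have hCC2 : C₁ * T ≤ C * C₁ * T := by
    have h4 : 0 ≤ C₁ * T := by positivity
    have h5 : C₁ * T * 1 ≤ C₁ * T * C := mul_le_mul_of_nonneg_left hC1 h4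
    linarith
  have hTC1 : T ≤ C₁ * T := by nlinarith
  have hfin : ∀ n : ℕ, √(Real.log ((n : ℝ) + 2)) ≤ 2 + y → 16000 * (96 * (27 * 10 ^ 22 * (C * T)) +
      112 + (10000 * (C₁ * (1 + √(Real.log ((n : ℝ) + 2)))) + 4)) ≤ 10 ^ 30 * (C * C₁) * T := by
    intro n hn
    have h4 : 1 + √(Real.log ((n : ℝ) + 2)) ≤ 3 * T := by rw [hT]; linarith
    have h5 : C₁ * (1 + √(Real.log ((n : ℝ) + 2))) ≤ C₁ * (3 * T) :=
      mul_le_mul_of_nonneg_left h4 hC₁0.le
    linarith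
  have hone : ∀ (ℓ₁ : Sym2 V → ℝ) (k₁ : V → ℝ) (s : V), PlaneMap G σ →
      (∀ e ∈ G.edgeSet, 0 < ℓ₁ e) → (∀ u v, G.Adj u v → |k₁ u - k₁ v| ≤ ℓ₁ s(u, v)) →
      (∀ v ∈ L, v ≠ s → ∃ u ∈ L, G.Adj v u ∧ ℓ₁ s(v, u) ≤ k₁ v - k₁ u) →
      (∀ v ∈ L, (∃ u ∈ L, G.Adj v u ∧ ℓ₁ s(v, u) ≤ k₁ u - k₁ v) ∨ v ∈ B ∨
        ∃ m ∈ M, v ∈ onFace σ m) →
      EmbedsL1 (fun u v : L => pathDist G ℓ₁ u v) (27 * 10 ^ 22 * (C * T)) := by
    intro ℓ₁ k₁ s hP hℓ₁ hlip₁ hlow₁ hhigh₁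
    have h2 := T5.peaks hC1 hMS V G σ ℓ₁ k₁ L {s} B M 1 le_rfl hc hP hℓ₁ (Or.inl ⟨s, rfl⟩)
      (fun u _ v _ => hlipd ℓ₁ k₁ hlip₁ u v)
      (fun v hvL hvs => by
        obtain ⟨u, h3, h4, h5⟩ := hlow₁ v hvL hvs
        exact ⟨u, h3, h4, by rwa [one_mul]⟩)
      (fun v hvL => by
        rcases hhigh₁ v hvL with ⟨u, h3, h4, h5⟩ | h3
        · exact Or.inl ⟨u, h3, h4, by rwa [one_mul]⟩
        · exact Or.inr h3)
    refine embeds_mono (fun a b => pd_nonneg hℓ₁ _ _) ?_ h2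
    have h4 : (ll (Nat.card V) : ℝ) + 1 + √(Real.log ((B.card + M.card : ℕ) + 2)) ≤ 9 * T := by
      have h4 := hsq (B.card + M.card) (by omega)
      rw [hT]
      linarith
    have h5 := mul_le_mul_of_nonneg_left h4 (show (0 : ℝ) ≤ 3 * (10 ^ 22 * C * 1) by positivity)
    refine h5.trans (le_of_eq ?_)
    ring
  rcases exists_cut2 hc hne hσ hAne hp with ⟨hP, hA1 | ⟨a, b, hA3, hab⟩⟩ |
    ⟨C₀, hs, hN, hGne, hQ, hAX, hcut⟩
  · -- one source
    obtain ⟨s, hs⟩ := hAne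
    have h2 : ∀ v, v ≠ s → v ∉ (A2 : Set V) := by
      intro v hvs hvA
      exact hvs ((Set.ncard_le_one (Set.toFinite _)).1 hA1 v hvA s hs)
    refine embeds_mono hnn ?_ (hone ℓ k s hP hℓ hkl
      (fun v hvL hvs => ⟨p v, hpL v hvL (h2 v hvs), hp.adj v (h2 v hvs), hplow v (h2 v hvs)⟩) hkh)
    have h5 : 10 ^ 30 * (C * C₁) * T = 10 ^ 30 * (C * C₁ * T) := by ring
    rw [h5]
    linarith
  · -- two adjacent sources
    have haA : a ∈ A2 := by
      have : a ∈ (A2 : Set V) := by rw [hA3]; exact Or.inl rfl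
      exact Finset.mem_coe.1 this
    have haL : a ∈ L := hAL (Finset.mem_coe.2 haA)
    have hbL : b ∈ L := hAL (by rw [hA3]; exact Or.inr rfl)
    obtain ⟨ℓ', k', hp', hlip', hlow', hhigh', hle, heq⟩ := lowerL (L := L)
      (R := fun v => v ∈ B ∨ ∃ m ∈ M, v ∈ onFace σ m) haL hbL hc hℓ hkl hab
      (fun v hvL h2 h3 => by
        have h4 : v ∉ (A2 : Set V) := by
          rw [hA3]
          exact fun h4 => h4.elim h2 h3
        exact ⟨p v, hpL v hvL h4, hp.adj v h4, hplow v h4⟩)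
      (fun u huL hu => hmin a haA u huL hu) hkh
    have h2 := hone ℓ' k' a hP hp' hlip' hlow' hhigh'
    have h3 := round_plane hC₁ hLS hRS (K' := 27 * 10 ^ 22 * (C * T)) (by linarith) hc hP0 hℓ
      (L := L) (X := {a}) ⟨a, rfl⟩ (n := 1)
      ⟨k, 1, fun _ => {a}, le_rfl, hlipd ℓ k hkl, fun _ => ⟨a, rfl⟩, by
        intro _ x hx y hy
        rw [Set.mem_singleton_iff.1 hx, Set.mem_singleton_iff.1 hy, pd_self hℓ]
        exact abs_nonneg _, by rw [Set.iUnion_const]⟩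
      (G' := G) (ℓ' := ℓ') hc hp' (ι := id) (κ := id)
      (fun u v huv => (pd_adj hℓ huv).trans (hle u v huv)) (fun _ _ => rfl)
      (fun x y hx hy hxy => ⟨hxy, le_of_eq (heq x y hx hy)⟩) h2
    refine embeds_mono hnn (hfin 1 (hsq 1 ?_)) h3
    have h4 : 1 ≤ A.card := (Finset.card_pos.2 ⟨a, haA⟩).trans_le hA2
    omega
  · -- the cut
    have hCD : CD σ (Gm (A2 : Set V) p C₀) := ⟨hσ.fst, hσ.cyc, Gm_symm hs⟩
    obtain ⟨hconn, hPl, hout⟩ := hcut hCD hN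
    have hX := XX_Gm (C₀ := C₀) hp
    obtain ⟨e0, he0⟩ := hGne
    have hfinW : Finite (W σ (Gm (A2 : Set V) p C₀)) := inferInstance
    let ℓ' : Sym2 (W σ (Gm (A2 : Set V) p C₀)) → ℝ := fun e => ℓ (e.map pr)
    have hℓ' : ∀ e ∈ (Gt hCD).edgeSet, 0 < ℓ' e := by
      intro e he
      induction e with
      | _ a b => exact hℓ _ (G.mem_edgeSet.2 (pr_adj hCD he))
    have hBTf : (BTL σ (A2 : Set V) p C₀ L (B : Set V)).Finite := Set.toFinite _
    rw [Set.ncard_coe_finset] at hQ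
    have hQ2 : (QQ (A2 : Set V) p C₀).ncard ≤ 2 * (g + A.card) := by omega
    have hb : hBTf.toFinset.card ≤ B.card + 4 * (2 * (g + A.card)) := by
      rw [← Set.ncard_eq_toFinset_card _ hBTf]
      have h2 := card_BTL (C₀ := C₀) hp hCD hpL hAL (B : Set V)
      rw [Set.ncard_coe_finset] at h2
      omega
    have hW : Nat.card (W σ (Gm (A2 : Set V) p C₀)) ≤ 2 * Nat.card V + 2 * (g + A.card) := by
      have h2 := card_W hCD hv
      have h3 := card_Gm (C₀ := C₀) hp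
      rw [← Nat.card_coe_set_eq] at h3
      rw [hX] at h2
      have h4 : (YY (A2 : Set V) p C₀ \ (A2 : Set V)).ncard ≤ (YY (A2 : Set V) p C₀).ncard :=
        Set.ncard_le_ncard Set.sdiff_subset (Set.toFinite _)
      have h5 : (YY (A2 : Set V) p C₀).ncard ≤ Nat.card V := by
        rw [← Set.ncard_univ]
        exact Set.ncard_le_ncard (Set.subset_univ _) (Set.toFinite _)
      omega
    have hfar : ∀ u v, |k (pr u) - k (pr v)| ≤ pathDist (Gt hCD) ℓ' u v := fun u v =>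
      R2.H582.Wd.lip_pdE hconn (h := fun w => k (pr w))
        (fun u v ha => hkl _ _ (pr_adj hCD ha)) u v
    have h2 := T5.peaks hC1 hMS (W σ (Gm (A2 : Set V) p C₀)) (Gt hCD) (Cut.sg hCD hN) ℓ'
      (fun w => k (pr w)) {w | pr w ∈ L} (onFace (Cut.sg hCD hN)
        (Cut.psi hCD (Sum.inr ⟨e0, he0⟩))) hBTf.toFinset
      (M.image fun m => Cut.psi hCD (Sum.inl m)) 1 le_rfl hconn hPl hℓ'
      (Or.inr ⟨_, rfl, fun m hm => by
        obtain ⟨m', -, rfl⟩ := Finset.mem_image.1 hm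
        exact not_outer hCD hN _ _⟩)
      (fun u _ v _ => hfar u v)
      (fun w hwL hw => by
        have h3 : pr w ∉ XX (Gm (A2 : Set V) p C₀) := by
          intro h3
          rcases w_cases hCD w with ⟨d, h4, rfl⟩ | ⟨e, rfl⟩
          · rw [pr_tau hCD] at h3
            exact h4 h3
          · exact hw (corner_outer hCD hN hout ⟨e0, he0⟩ e)
        obtain ⟨u, h4, h5, h6⟩ := lift_lowL hp hCD hpL hplow w hwL h3 fun h4 => h3 (hAX h4)
        exact ⟨u, h4, h5, by rw [one_mul]; exact h6⟩)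
      (fun w hwL => by
        by_cases hw1 : w ∈ hBTf.toFinset
        · exact Or.inr (Or.inl hw1)
        · by_cases hw2 : ∃ m ∈ M.image fun m => Cut.psi hCD (Sum.inl m),
              w ∈ onFace (Cut.sg hCD hN) m
          · exact Or.inr (Or.inr hw2)
          · refine Or.inl ?_
            push Not at hw2
            obtain ⟨u, h4, h5, h6⟩ := lift_highL hp hCD hplow (L := L) (B := (B : Set V))
              (M := (M : Set G.Dart)) hN
              (fun v h3 h4 h5 => by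
                rcases hkh v h3 with h6 | h6 | ⟨m, h6, h7⟩
                · exact h6
                · exact absurd (Finset.mem_coe.2 h6) h4
                · exact absurd h7 (h5 m (Finset.mem_coe.2 h6))) w hwL
              (fun h3 => hw1 (hBTf.mem_toFinset.2 h3))
              (fun m h3 => hw2 _ (Finset.mem_image.2 ⟨m, Finset.mem_coe.1 h3, rfl⟩))
            exact ⟨u, h4, h5, by rw [one_mul]; exact h6⟩)
    have h3 : EmbedsL1 (fun a b : {w : W σ (Gm (A2 : Set V) p C₀) | pr w ∈ L} =>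
        pathDist (Gt hCD) ℓ' a b) (27 * 10 ^ 22 * (C * T)) := by
      refine embeds_mono (fun a b => pd_nonneg hℓ' _ _) ?_ h2
      have h4 : (ll (Nat.card (W σ (Gm (A2 : Set V) p C₀))) : ℝ) ≤ ll (Nat.card V) + 2 := by
        have k1 : A.card ≤ Nat.card V := by
          have := Fintype.ofFinite V
          rw [Nat.card_eq_fintype_card]
          exact Finset.card_le_univ A
        have k2 : Nat.card (W σ (Gm (A2 : Set V) p C₀)) ≤ 2 * (2 * Nat.card V) := by omega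
        have k3 := (ll_mono k2).trans (ll_two _)
        have k4 := ll_two (Nat.card V)
        exact_mod_cast k3.trans (by omega)
      have h5 : √(Real.log ((hBTf.toFinset.card + (M.image fun m =>
          Cut.psi hCD (Sum.inl m)).card : ℕ) + 2)) ≤ 2 + y := by
        refine hsq _ ?_
        have h6 : (M.image fun m => Cut.psi hCD (Sum.inl m)).card ≤ M.card :=
          Finset.card_image_le
        omega
      have h6 : (ll (Nat.card (W σ (Gm (A2 : Set V) p C₀))) : ℝ) + 1 +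
          √(Real.log ((hBTf.toFinset.card + (M.image fun m =>
          Cut.psi hCD (Sum.inl m)).card : ℕ) + 2)) ≤ 9 * T := by
        rw [hT]
        linarith
      have h7 := mul_le_mul_of_nonneg_left h6 (show (0 : ℝ) ≤ 3 * (10 ^ 22 * C * 1) by positivity)
      refine h7.trans (le_of_eq ?_)
      ring
    choose dd hdd using hv
    have h4 := round_plane hC₁ hLS hRS (K' := 27 * 10 ^ 22 * (C * T)) (by linarith) hc hP0 hℓ
      (L := L) (X := XX (Gm (A2 : Set V) p C₀)) ⟨e0.fst, mem_XX he0⟩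
      (n := (QQ (A2 : Set V) p C₀).ncard) (by
        rw [hX]
        exact lanes_YY hp hc hℓ hkl hplow le_rfl)
      (G' := Gt hCD) (ℓ' := ℓ') hconn hℓ' (ι := pr) (κ := fun v => tau σ _ (dd v))
      (fun u v huv => pd_adj hℓ (pr_adj hCD huv))
      (fun v _ => by rw [pr_tau hCD, hdd])
      (fun x y hx hy hxy => by
        have e1 : tau σ (Gm (A2 : Set V) p C₀) (⟨(x, y), hxy⟩ : G.Dart) = tau σ _ (dd x) :=
          tau_out hCD (by rw [hdd]; exact hx) (hdd x).symm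
        have e2 : tau σ (Gm (A2 : Set V) p C₀) (faceNext σ (⟨(x, y), hxy⟩ : G.Dart)) =
            tau σ _ (dd y) :=
          tau_out hCD (by rw [hdd]; exact hy)
            ((Cut.faceNext_fst hCD (⟨(x, y), hxy⟩ : G.Dart)).trans (hdd y).symm)
        have e3 := adj_tau hCD (⟨(x, y), hxy⟩ : G.Dart)
        rw [e1, e2] at e3
        refine ⟨e3, le_of_eq ?_⟩
        show ℓ s(pr (tau σ _ (dd x)), pr (tau σ _ (dd y))) = _
        rw [pr_tau hCD, pr_tau hCD, hdd, hdd]) h3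
    exact embeds_mono hnn (hfin _ (hsq _ (by omega))) h4

end Vale.Agent.P235.R2.H90.PlaneU
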