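import Vale.Agent.P235.R2.H90.PlaneU
import Vale.Agent.P235.R2.H90.TermS

/-!
# P235: terminals, square root bound for the sources, slopes `1 / D`, exceptional faces (helper90)

The bound `LL(|V|) + log (1 + p (a + 1)) + √(log (a + b + 2))` for genus `p`, `a` sources, `b`
sinks.
-/

set_option linter.unusedSectionVars false
set_option linter.unusedDecidableInType false
set_option linter.unusedFintypeInType false

namespace Vale.Agent.P235.R2.H90.PlaneU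

open Vale.Agent.P235 SimpleGraph Vale.Agent.P235.Red Vale.Agent.P235.R2.H90.TermFinal
open Vale.Agent.P235.R2.H582.GL Vale.Agent.P235.R2.H582.FewT
open Vale.Agent.P235.R2.H934 (ll_mono' ll_le_log)
open Vale.Agent.P235.R2.H582 (embeds_mono ll_mono)
open Vale.Agent.P235.R2.H582.FaceT (onM)

/-- **Terminals on plane graphs**, slopes at least `1 / D`. -/
theorem planeL {C C₁ : ℝ} (hC1 : 1 ≤ C) (hMS : MStarLL C) (hC₁ : 1 ≤ C₁)
    (hLS : LanesC C₁) (hRS : Kpr.RowStep) (V : Type) [Finite V]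
    (G : SimpleGraph V) (σ : Equiv.Perm G.Dart) (ℓ : Sym2 V → ℝ) (h : V → ℝ) (L : Set V)
    (A B : Finset V) (M : Finset G.Dart) (D : ℝ) (hD : 1 ≤ D)
    (hc : G.Connected) (hσ : SurfMap 0 G σ) (hℓ : ∀ e ∈ G.edgeSet, 0 < ℓ e)
    (h1 : ∀ u ∈ L, ∀ v ∈ L, |h u - h v| ≤ pathDist G ℓ u v)
    (hlow : ∀ v ∈ L, (∃ u ∈ L, G.Adj v u ∧ ℓ s(v, u) ≤ D * (h v - h u)) ∨ v ∈ A)
    (hhigh : ∀ v ∈ L, (∃ u ∈ L, G.Adj v u ∧ ℓ s(v, u) ≤ D * (h u - h v)) ∨ v ∈ B ∨
      ∃ m ∈ M, v ∈ onFace σ m) :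
    EmbedsL1 (fun u v : L => pathDist G ℓ u v) (10 ^ 30 * (C * C₁) * D *
      ((ll (Nat.card V) : ℝ) + 1 + √(Real.log ((A.card + B.card + M.card : ℕ) + 2)))) := by
  obtain ⟨ℓ', k1, k2, k3, k4, k5⟩ := T5.exists_tight_lengths (A := (A : Set V))
    (B := {v | v ∈ B ∨ ∃ m ∈ M, v ∈ onFace σ m}) hD hc hℓ h1
    (fun v hv hvA => (hlow v hv).resolve_right fun h2 => hvA (Finset.mem_coe.2 h2))
    (fun v hv hvB => (hhigh v hv).resolve_right hvB)
  have hE := planeL_tight hC1 hMS hC₁ hLS hRS V G σ ℓ' h L A B M hc hσ k1 k2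
    (fun v hv hvA => by
      obtain ⟨u, h2, h3, h4, h5⟩ := k3 v hv fun h6 => hvA (Finset.mem_coe.1 h6)
      exact ⟨u, h4, h2.symm, by rw [Sym2.eq_swap]; exact h3⟩)
    (fun v hv => by
      by_cases hvB : v ∈ {v | v ∈ B ∨ ∃ m ∈ M, v ∈ onFace σ m}
      · exact Or.inr hvB
      · obtain ⟨u, h2, h3, h4, h5⟩ := k4 v hv hvB
        exact Or.inl ⟨u, h5, h2, h3⟩)
  have hK : (0 : ℝ) ≤ 10 ^ 30 * (C * C₁) *
      ((ll (Nat.card V) : ℝ) + 1 + √(Real.log ((A.card + B.card + M.card : ℕ) + 2))) := by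
    have h2 := Real.sqrt_nonneg (Real.log ((A.card + B.card + M.card : ℕ) + 2))
    positivity
  have h4 := k5 _ hK hE
  have h5 : 10 ^ 30 * (C * C₁) * ((ll (Nat.card V) : ℝ) + 1 +
        √(Real.log ((A.card + B.card + M.card : ℕ) + 2))) * D = 10 ^ 30 * (C * C₁) * D *
      ((ll (Nat.card V) : ℝ) + 1 + √(Real.log ((A.card + B.card + M.card : ℕ) + 2))) := by ring
  rwa [h5] at h4

/-- **Terminals on plane graphs**, exceptional vertices and faces in both directions. -/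
theorem planeL_ends {C C₁ : ℝ} (hC1 : 1 ≤ C) (hMS : MStarLL C) (hC₁ : 1 ≤ C₁)
    (hLS : LanesC C₁) (hRS : Kpr.RowStep) (V : Type) [Finite V]
    (G : SimpleGraph V) (σ : Equiv.Perm G.Dart) (ℓ : Sym2 V → ℝ) (h : V → ℝ) (L : Set V)
    (A B : Finset V) (M₁ M₂ : Finset G.Dart) (D : ℝ) (hD : 1 ≤ D) (hc : G.Connected)
    (hS : SurfMap 0 G σ) (hℓ : ∀ e ∈ G.edgeSet, 0 < ℓ e)
    (hsep : ∀ a ∈ M₁, ∀ b ∈ M₂, ¬ (faceNext σ).SameCycle a b)
    (h1 : ∀ u ∈ L, ∀ v ∈ L, |h u - h v| ≤ pathDist G ℓ u v)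
    (hlow : ∀ v ∈ L, (∃ u ∈ L, G.Adj v u ∧ ℓ s(v, u) ≤ D * (h v - h u)) ∨ v ∈ A ∨
      ∃ m ∈ M₁, v ∈ onFace σ m)
    (hhigh : ∀ v ∈ L, (∃ u ∈ L, G.Adj v u ∧ ℓ s(v, u) ≤ D * (h u - h v)) ∨ v ∈ B ∨
      ∃ m ∈ M₂, v ∈ onFace σ m) :
    EmbedsL1 (fun u v : L => pathDist G ℓ u v) (4 * (10 ^ 30 * (C * C₁)) * D *
      ((ll (Nat.card V) : ℝ) + 1 +
        √(Real.log (((A.card + M₁.card : ℕ) : ℝ) + ((B.card + M₂.card : ℕ) : ℝ) + 2)))) := by
  classical
  have hW : SurfL.WFL 0 G σ ℓ h D L (A : Set V) (B : Set V) M₁ M₂ :=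
    { surf := hS
      wide := ⟨hc, hℓ, h1, fun v hv hv' => by
          rcases hlow v hv with k | k | k
          · exact k
          · exact absurd (Or.inl k) hv'
          · exact absurd (Or.inr k) hv', fun v hv hv' => by
          rcases hhigh v hv with k | k | k
          · exact k
          · exact absurd (Or.inl k) hv'
          · exact absurd (Or.inr k) hv'⟩
      sep := hsep }
  obtain ⟨K, hK'⟩ : ∃ K : ℝ, K = 10 ^ 30 * (C * C₁) := ⟨_, rfl⟩
  have hK0 : 0 ≤ K := by rw [hK']; positivity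
  rw [← hK']
  have hK : (0 : ℝ) ≤ K * D := by positivity
  have hE := SurfL.faces_surfL hD (g := 0) (M₁.card + M₂.card)
    (fun n a b => K * D * ((ll n : ℝ) + 1 + √(Real.log ((a : ℝ) + (b : ℝ) + 2))))
    (fun a b c a' b' c' ha hb hc => by
      have k1 := ll_mono' ha
      have hb' : (b : ℝ) ≤ b' := by exact_mod_cast hb
      have hc' : (c : ℝ) ≤ c' := by exact_mod_cast hc
      have k3 : √(Real.log ((b : ℝ) + c + 2)) ≤ √(Real.log ((b' : ℝ) + c' + 2)) :=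
        Real.sqrt_le_sqrt (Real.log_le_log (by positivity) (by linarith))
      exact mul_le_mul_of_nonneg_left (by linarith) hK)
    (fun V _ G σ ℓ h L A B hS hW => by
      have hAf : A.Finite := Set.toFinite _
      have hBf : B.Finite := Set.toFinite _
      have h2 := planeL hC1 hMS hC₁ hLS hRS V G σ ℓ h L hAf.toFinset hBf.toFinset ∅ D hD hW.conn
        hS hW.pos hW.lip
        (fun v hv => by
          by_cases hvA : v ∈ A
          · exact Or.inr (hAf.mem_toFinset.2 hvA)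
          · exact Or.inl (hW.low v hv hvA))
        (fun v hv => by
          by_cases hvB : v ∈ B
          · exact Or.inr (Or.inl (hBf.mem_toFinset.2 hvB))
          · exact Or.inl (hW.high v hv hvB))
      rw [← Set.ncard_eq_toFinset_card _ hAf, ← Set.ncard_eq_toFinset_card _ hBf,
        Finset.card_empty, add_zero, ← hK'] at h2
      push_cast at h2
      exact h2)
    V G σ ℓ h L (A : Set V) (B : Set V) M₁ M₂ hW le_rfl
  rw [Set.ncard_coe_finset, Set.ncard_coe_finset] at hE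
  refine embeds_mono (fun x y => pd_nonneg hℓ _ _) ?_ hE
  have h2 := SurfF.ll_add' (Nat.card V) (M₁.card + M₂.card)
  have h3 := SurfF.ll_le_sqrt (M₁.card + M₂.card)
  have h0 : (0 : ℝ) ≤ ll (Nat.card V) := Nat.cast_nonneg _
  have hA0 : (0 : ℝ) ≤ A.card := Nat.cast_nonneg _
  have hB0 : (0 : ℝ) ≤ B.card := Nat.cast_nonneg _
  have h4 : √(Real.log (((M₁.card + M₂.card : ℕ) : ℝ) + 2)) ≤
      √(Real.log (((A.card + M₁.card : ℕ) : ℝ) + ((B.card + M₂.card : ℕ) : ℝ) + 2)) := by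
    refine Real.sqrt_le_sqrt (Real.log_le_log (by positivity) ?_)
    push_cast
    linarith
  have h6 := Real.sqrt_nonneg
    (Real.log (((A.card + M₁.card : ℕ) : ℝ) + ((B.card + M₂.card : ℕ) : ℝ) + 2))
  set y := √(Real.log (((A.card + M₁.card : ℕ) : ℝ) + ((B.card + M₂.card : ℕ) : ℝ) + 2)) with hy
  have h7 : (ll (Nat.card V + (M₁.card + M₂.card)) : ℝ) + 1 + y ≤
      4 * ((ll (Nat.card V) : ℝ) + 1 + y) := by linarith
  calc K * D * ((ll (Nat.card V + (M₁.card + M₂.card)) : ℝ) + 1 + y) ≤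
      K * D * (4 * ((ll (Nat.card V) : ℝ) + 1 + y)) := mul_le_mul_of_nonneg_left h7 hK
    _ = _ := by ring

/-- **Terminals on surfaces.**  Euler genus at most `p`, at most `a` exceptional vertices and faces
downwards, at most `b` upwards. -/
theorem surfP {C C₁ : ℝ} (hC1 : 1 ≤ C) (hMS : MStarLL C) (hC₁ : 1 ≤ C₁)
    (hLS : LanesC C₁) (hRS : Kpr.RowStep) (V : Type) [Finite V]
    (G : SimpleGraph V) (σ : Equiv.Perm G.Dart) (ℓ : Sym2 V → ℝ) (h : V → ℝ) (L : Set V)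
    (A B : Finset V) (M₁ M₂ : Finset G.Dart) (p a b : ℕ) (D : ℝ) (hD : 1 ≤ D) (hc : G.Connected)
    (hS : SurfMap p G σ) (ha : A.card + M₁.card ≤ a) (hb : B.card + M₂.card ≤ b)
    (hℓ : ∀ e ∈ G.edgeSet, 0 < ℓ e)
    (hsep : ∀ a ∈ M₁, ∀ b ∈ M₂, ¬ (faceNext σ).SameCycle a b)
    (h1 : ∀ u ∈ L, ∀ v ∈ L, |h u - h v| ≤ pathDist G ℓ u v)
    (hlow : ∀ v ∈ L, (∃ u ∈ L, G.Adj v u ∧ ℓ s(v, u) ≤ D * (h v - h u)) ∨ v ∈ A ∨
      ∃ m ∈ M₁, v ∈ onFace σ m)
    (hhigh : ∀ v ∈ L, (∃ u ∈ L, G.Adj v u ∧ ℓ s(v, u) ≤ D * (h u - h v)) ∨ v ∈ B ∨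
      ∃ m ∈ M₂, v ∈ onFace σ m) :
    EmbedsL1 (fun u v : L => pathDist G ℓ u v) (10 ^ 32 * (C * C₁) * D *
      ((ll (Nat.card V) : ℝ) + 1 + Real.log (1 + (p : ℝ) * ((a : ℝ) + 1)) +
        √(Real.log ((a : ℝ) + b + 2)))) := by
  have ha' : ((A.card + M₁.card : ℕ) : ℝ) ≤ a := by exact_mod_cast ha
  have hb' : ((B.card + M₂.card : ℕ) : ℝ) ≤ b := by exact_mod_cast hb
  have ha0 : (0 : ℝ) ≤ a := Nat.cast_nonneg _
  have hb0 : (0 : ℝ) ≤ b := Nat.cast_nonneg _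
  have h0 : (0 : ℝ) ≤ ll (Nat.card V) := Nat.cast_nonneg _
  have hCC : 0 ≤ C * C₁ := by positivity
  have hCC2 : C ≤ C * C₁ := by nlinarith
  have hy := Real.sqrt_nonneg (Real.log ((a : ℝ) + b + 2))
  have hx : 0 ≤ Real.log (1 + (p : ℝ) * ((a : ℝ) + 1)) := Real.log_nonneg (by
    have : (0 : ℝ) ≤ (p : ℝ) * ((a : ℝ) + 1) := by positivity
    linarith)
  rcases Nat.eq_zero_or_pos p with rfl | hp
  · refine embeds_mono (fun x y => pd_nonneg hℓ _ _) ?_ (planeL_ends hC1 hMS hC₁ hLS hRS V G σ ℓ h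
      L A B M₁ M₂ D hD hc hS hℓ hsep h1 hlow hhigh)
    have h4 : √(Real.log (((A.card + M₁.card : ℕ) : ℝ) + ((B.card + M₂.card : ℕ) : ℝ) + 2)) ≤
        √(Real.log ((a : ℝ) + b + 2)) :=
      Real.sqrt_le_sqrt (Real.log_le_log (by positivity) (by linarith))
    have h5 : 4 * (10 ^ 30 * (C * C₁)) * D ≤ 10 ^ 32 * (C * C₁) * D := by
      refine mul_le_mul_of_nonneg_right ?_ (by linarith)
      linarith
    exact mul_le_mul h5 (by linarith) (by positivity) (by positivity)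
  · refine embeds_mono (fun x y => pd_nonneg hℓ _ _) ?_ (surfL_ends hC1 hMS V G σ ℓ h L A B M₁ M₂
      p D hD hc hS hℓ hsep h1 hlow hhigh)
    have hp1 : (1 : ℝ) ≤ p := by exact_mod_cast hp
    have h3 : Real.log ((p : ℝ) + A.card + M₁.card + 2) ≤
        1 + Real.log (1 + (p : ℝ) * ((a : ℝ) + 1)) := by
      have k1 : Real.log (2 * (1 + (p : ℝ) * ((a : ℝ) + 1))) =
          Real.log 2 + Real.log (1 + (p : ℝ) * ((a : ℝ) + 1)) :=
        Real.log_mul (by norm_num) (by positivity)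
      have k2 := Real.log_two_lt_d9
      have k3 : Real.log ((p : ℝ) + A.card + M₁.card + 2) ≤
          Real.log (2 * (1 + (p : ℝ) * ((a : ℝ) + 1))) := by
        refine Real.log_le_log (by positivity) ?_
        push_cast at ha'
        nlinarith
      linarith
    have h4 : √(Real.log ((B.card : ℝ) + M₂.card + 2)) ≤ √(Real.log ((a : ℝ) + b + 2)) := by
      refine Real.sqrt_le_sqrt (Real.log_le_log (by positivity) ?_)
      push_cast at hb'
      linarith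
    set y := √(Real.log ((a : ℝ) + b + 2))
    set x := Real.log (1 + (p : ℝ) * ((a : ℝ) + 1))
    have h5 : (ll (Nat.card V) : ℝ) + 1 + Real.log ((p : ℝ) + A.card + M₁.card + 2) +
        √(Real.log ((B.card : ℝ) + M₂.card + 2)) ≤ 2 * ((ll (Nat.card V) : ℝ) + 1 + x + y) := by
      linarith
    have h6 : (0 : ℝ) ≤ 10 ^ 31 * C * D := by positivity
    have h7 : 10 ^ 31 * C * D * 2 ≤ 10 ^ 32 * (C * C₁) * D := by
      have h8 : 10 ^ 31 * C * 2 ≤ 10 ^ 32 * (C * C₁) := by linarith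
      have h9 := mul_le_mul_of_nonneg_right h8 (show (0 : ℝ) ≤ D by linarith)
      linarith
    calc _ ≤ 10 ^ 31 * C * D * (2 * ((ll (Nat.card V) : ℝ) + 1 + x + y)) :=
          mul_le_mul_of_nonneg_left h5 h6
      _ = (10 ^ 31 * C * D * 2) * ((ll (Nat.card V) : ℝ) + 1 + x + y) := by ring
      _ ≤ _ := mul_le_mul_of_nonneg_right h7 (by positivity)

end Vale.Agent.P235.R2.H90.PlaneU
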