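import Vale.Agent.P235.R2.H90.Lift
import Vale.Agent.P235.R2.H680.ExDualA

/-!
# P235: the choice of the cut graph (helper90)

For a rotation system on a surface of Euler genus at most `g` and a forest with roots `A` either
the map is plane, or there is a cut graph such that the map cut open is plane.
-/

set_option linter.unusedSectionVars false
set_option linter.unusedDecidableInType false
set_option linter.unusedFintypeInType false

namespace Vale.Agent.P235.R2.H90.Root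

open Vale.Agent.P235 SimpleGraph Vale.Agent.P235.R2.H90.Cut Vale.Agent.P235.R2.H90.Gam
  Vale.Agent.P235.R2.H90.Lift

variable {V : Type} {G : SimpleGraph V} {σ : Equiv.Perm G.Dart} {h : V → ℝ} {A : Set V} {p : V → V}

/-- the darts of the isolated edges of the cut graph -/
def Iso (A : Set V) (p : V → V) (C : Set G.Dart) : Set G.Dart :=
  {q | q ∈ QQ A p C ∧ (∀ e ∈ Gm A p C, e.fst = q.fst → e = q) ∧
    ∀ e ∈ Gm A p C, e.fst = q.snd → e = q.symm}

variable {C : Set G.Dart}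

theorem iso_symm (hs : ∀ d, d ∈ C → d.symm ∈ C) {q : G.Dart} (hq : q ∈ Iso A p C) :
    q.symm ∈ Iso A p C := by
  refine ⟨QQ_symm hs hq.1, hq.2.2, fun e he h1 => ?_⟩
  rw [Dart.symm_symm]
  exact hq.2.1 e he h1

theorem iso_mem (hp : Par G h A p) {q : G.Dart} (hq : q ∈ Iso A p C) : q.fst ∈ A := by
  by_contra h1
  have h2 := hq.2.1 _ (dn_Gm hp h1 (Y_of_Q hq.1)) rfl
  exact hq.1.1 (h2 ▸ dn_mem hp h1)

theorem QQ_iso {q : G.Dart} : q ∈ QQ A p (C ∪ Iso A p C) ↔ q ∈ QQ A p C ∧ q ∉ Iso A p C := by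
  constructor
  · rintro ⟨h1, h2, h3⟩
    exact ⟨⟨h1, h2, fun h => h3 (Or.inl h)⟩, fun h => h3 (Or.inr h)⟩
  · rintro ⟨⟨h1, h2, h3⟩, h4⟩
    exact ⟨h1, h2, fun h => h.elim h3 h4⟩

theorem YY_iso {v : V} (hv : v ∈ YY A p (C ∪ Iso A p C)) : v ∈ YY A p C := by
  obtain ⟨q, hq, h1⟩ := hv
  exact ⟨q, (QQ_iso.1 hq).1, h1⟩

theorem Gm_iso {d : G.Dart} (hd : d ∈ Gm A p (C ∪ Iso A p C)) : d ∈ Gm A p C := by
  rcases hd with h1 | h1 | h1
  · exact Or.inl (QQ_iso.1 h1).1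
  · exact Or.inr (Or.inl ⟨h1.1, YY_iso h1.2⟩)
  · exact Or.inr (Or.inr ⟨h1.1, YY_iso h1.2⟩)

/-- the chain of a root is trivial -/
theorem orb_root {a v : V} (ha : a ∈ A) (h1 : Orb A p a v) : v = a := by
  induction h1 with
  | refl => rfl
  | tail _ h3 ih => exact absurd (ih ▸ ha) h3.1

theorem YY_iso' (hp : Par G h A p) {v : V} (hv : v ∈ YY A p C) (hA : v ∉ A) :
    v ∈ YY A p (C ∪ Iso A p C) := by
  obtain ⟨q, hq, h1⟩ := hv
  by_cases h2 : q ∈ Iso A p C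
  · rw [orb_root (iso_mem hp h2) h1] at hA
    exact absurd (iso_mem hp h2) hA
  · exact ⟨q, QQ_iso.2 ⟨hq, h2⟩, h1⟩

theorem Gm_iso' (hp : Par G h A p) {d : G.Dart} (hd : d ∈ Gm A p C) :
    d ∈ Gm A p (C ∪ Iso A p C) ∨ d ∈ Iso A p C := by
  rcases hd with h1 | h1 | h1
  · by_cases h2 : d ∈ Iso A p C
    · exact Or.inr h2
    · exact Or.inl (Or.inl (QQ_iso.2 ⟨h1, h2⟩))
  · exact Or.inl (Or.inr (Or.inl ⟨h1.1, YY_iso' hp h1.2 h1.1.1⟩))
  · exact Or.inl (Or.inr (Or.inr ⟨h1.1, YY_iso' hp h1.2 h1.1.1⟩))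

theorem ni_iso (hp : Par G h A p) (hs : ∀ d, d ∈ C → d.symm ∈ C) :
    NI (Gm A p (C ∪ Iso A p C)) := by
  refine ni_Gm hp (fun d hd => hd.imp (hs d) (iso_symm hs)) ?_
  rintro q hq ⟨-, -, h3, h4⟩
  have hq' := QQ_iso.1 hq
  refine hq'.2 ⟨hq'.1, fun e he h5 => ?_, fun e he h5 => ?_⟩
  · rcases Gm_iso' hp he with h6 | h6
    · exact h3 e h6 h5
    · exact (h6.2.1 q (Or.inl hq'.1) h5.symm).symm
  · rcases Gm_iso' hp he with h6 | h6
    · exact h4 e h6 h5
    · exact (h6.2.1 q.symm (Or.inl (QQ_symm hs hq'.1)) h5.symm).symm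

theorem iso_not_YY (hp : Par G h A p) {q : G.Dart} (hq : q ∈ Iso A p C) :
    q.fst ∉ YY A p (C ∪ Iso A p C) := by
  intro h1
  rw [← XX_Gm hp] at h1
  obtain ⟨e, he, h2⟩ := h1
  have h3 := hq.2.1 e (Gm_iso he) h2
  rw [h3] at he
  rcases he with h4 | h4 | h4
  · exact (QQ_iso.1 h4).2 hq
  · exact hq.1.1 h4.1
  · exact hq.1.2.1 h4.1

theorem card_iso [Finite V] (hp : Par G h A p) :
    (A ∩ YY A p (C ∪ Iso A p C)).ncard + (Iso A p C).ncard ≤ A.ncard := by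
  have : Finite G.Dart := Tight.fin_dart
  have h1 : (Iso A p C).ncard ≤ (A \ YY A p (C ∪ Iso A p C)).ncard := by
    refine Set.ncard_le_ncard_of_injOn (fun q => q.fst)
      (fun q hq => ⟨iso_mem hp hq, iso_not_YY hp hq⟩) ?_ (Set.toFinite _)
    intro q hq q' hq' h2
    exact hq'.2.1 q (Or.inl hq.1) h2
  have h2 := Set.ncard_inter_add_ncard_sdiff_eq_ncard A (YY A p (C ∪ Iso A p C)) (Set.toFinite _)
  omega

/-- **the choice of the cut graph** -/
theorem exists_cut [Finite V] (hc : G.Connected) (hne : Nonempty G.Dart) {g : ℕ}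
    (hσ : SurfMap g G σ) (hA : A.Nonempty) (hp : Par G h A p) :
    PlaneMap G σ ∨ ∃ C : Set G.Dart, (∀ d, d ∈ C → d.symm ∈ C) ∧ NI (Gm A p C) ∧
      (Gm A p C).Nonempty ∧ (QQ A p C).ncard ≤ 2 * (g + A.ncard) ∧
      ∀ (hC : CD σ (Gm A p C)) (hN : NI (Gm A p C)),
        (Gt hC).Connected ∧ PlaneMap (Gt hC) (sg hC hN) := by
  classical
  have : Finite G.Dart := Tight.fin_dart
  obtain ⟨C0, h1, h2, h3, h4⟩ := ExDA.exists_dual hc hσ.fst hσ.cyc
    (h := h) (A := A) (p := p) (fun v hv => ⟨hp.adj v hv, hp.lt v hv⟩)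
  set C : Set G.Dart := (C0 : Set G.Dart) with hCdef
  have hs : ∀ d, d ∈ C → d.symm ∈ C := fun d hd => h1 d hd
  set C1 : Set G.Dart := C ∪ Iso A p C with hC1
  have hs1 : ∀ d, d ∈ C1 → d.symm ∈ C1 := fun d hd => hd.imp (hs d) (iso_symm hs)
  have hd : ∀ d ∈ C, d ∉ Dn G A p ∧ d ∉ Un G A p := fun d hd =>
    ⟨fun h => h2 d hd (Or.inl h), fun h => h2 d hd (Or.inr h)⟩
  have hd1 : ∀ d ∈ C1, d ∉ Dn G A p ∧ d ∉ Un G A p := fun d hd' =>
    hd'.elim (hd d) fun h => ⟨h.1.1, h.1.2.1⟩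
  set F := Nat.card (Quotient (Equiv.Perm.SameCycle.setoid (faceNext σ))) with hF
  have hF1 : 1 ≤ F := by
    obtain ⟨d⟩ := hne
    have : Nonempty (Quotient (Equiv.Perm.SameCycle.setoid (faceNext σ))) := ⟨Quotient.mk _ d⟩
    exact Nat.card_pos
  have h5 : C.ncard = 2 * (F - 1) := by
    rw [hCdef, Set.ncard_coe_finset, h3]
  have h6 : C1.ncard ≤ C.ncard + (Iso A p C).ncard := Set.ncard_union_le _ _
  have h7 : C.ncard ≤ C1.ncard := Set.ncard_le_ncard Set.subset_union_left (Set.toFinite _)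
  have h8 : (A ∩ YY A p C1).ncard + (Iso A p C).ncard ≤ A.ncard := card_iso (C := C) hp
  have h9 := card_all hp hd1
  rw [card_dart] at h9
  have h10 : 1 ≤ A.ncard := (Set.ncard_pos (Set.toFinite _)).2 hA
  have h11 : Nat.card G.edgeSet + 2 ≤ Nat.card V + F + g := hσ.euler
  by_cases hG : (Gm A p C1).Nonempty
  · right
    have hcon : ∀ s : G.Dart → Prop, (∀ d, s (faceNext σ d) ↔ s d) →
        (∀ d, d ∉ Gm A p C1 → (s d.symm ↔ s d)) → ∀ d d', s d ↔ s d' := by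
      intro s hs2 hs3 d d'
      have h12 := h4 Prop s (fun d => propext (hs2 d)) (fun d hd' => propext (hs3 d ?_)) d d'
      · exact iff_of_eq h12
      · rintro (h13 | h13 | h13)
        · exact h13.2.2 (Or.inl hd')
        · exact (hd d hd').1 h13.1
        · exact (hd d hd').2 h13.1
    refine ⟨C1, hs1, ni_iso hp hs, hG, by omega, fun hC hN => ⟨Gt_conn hC hne hcon, ?_⟩⟩
    refine plane_cut hC hN hG ?_ hcon ?_
    · intro v
      obtain ⟨d0⟩ := hne
      obtain ⟨w, hw⟩ : ∃ w, G.Adj v w := by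
        by_cases hv : v = d0.fst
        · exact ⟨d0.snd, hv ▸ d0.adj⟩
        · obtain ⟨pw⟩ := hc.preconnected v d0.fst
          cases pw with
          | nil => exact absurd rfl hv
          | cons hadj _ => exact ⟨_, hadj⟩
      exact ⟨⟨(v, w), hw⟩, rfl⟩
    · refine euler_count hp hd1 (F := F) (i := (Iso A p C).ncard) (by omega) ?_
      omega
  · left
    have h12 : (QQ A p C1).ncard = 0 := by
      rw [Set.ncard_eq_zero]
      rw [Set.not_nonempty_iff_eq_empty] at hG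
      rw [Set.eq_empty_iff_forall_notMem] at hG ⊢
      exact fun d hd' => hG d (Or.inl hd')
    refine Tight.plane_of_le hc hσ.fst hσ.cyc ?_
    show Nat.card G.edgeSet + 2 ≤ Nat.card V + F
    omega

end Vale.Agent.P235.R2.H90.Root
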