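import Vale.Agent.P235.R2.H582.GL
import Vale.Agent.P235.R2.H90.Surf

/-!
# P235: one round of lanes for terminals, with one piece which is not a subgraph (helper90)
-/

set_option linter.unusedSectionVars false
set_option linter.unusedDecidableInType false
set_option linter.unusedFintypeInType false

namespace Vale.Agent.P235.R2.H90.Term

open Vale.Agent.P235 SimpleGraph Vale.Agent.P235.Red Vale.Agent.P235.R2.H582.GL
  Vale.Agent.P235.Red.F0 Vale.Agent.P235.Quo

/-- one round for terminals: `X` is a union of at most `n` lanes, `G'` is a connected graph with a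
nonexpansive map `ι` to `G` which is invertible outside of `X`; the terminals of `G'` over `L`
embed with distortion `K'` -/
theorem round_terminals {K' : ℝ} (hK' : 1 ≤ K') {V : Type} [Finite V] {G : SimpleGraph V}
    {ℓ : Sym2 V → ℝ} (hc : G.Connected) (hℓ : ∀ e ∈ G.edgeSet, 0 < ℓ e) {L X : Set V}
    (hX : X.Nonempty) {n : ℕ} (hlanes : Lanes G ℓ n X)
    {W : Type} [Finite W] {G' : SimpleGraph W} {ℓ' : Sym2 W → ℝ} (hc' : G'.Connected)
    (hℓ' : ∀ e ∈ G'.edgeSet, 0 < ℓ' e) {ι : W → V} {κ : V → W}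
    (hι : ∀ a b, G'.Adj a b → pathDist G ℓ (ι a) (ι b) ≤ ℓ' s(a, b))
    (hκ : ∀ v, v ∉ X → ι (κ v) = v)
    (hκa : ∀ x y, x ∉ X → y ∉ X → G.Adj x y →
      G'.Adj (κ x) (κ y) ∧ ℓ' s(κ x, κ y) ≤ ℓ s(x, y))
    (hleaf : EmbedsL1 (fun a b : {w : W | ι w ∈ L} => pathDist G' ℓ' a b) K') :
    EmbedsL1 (fun a b : L => pathDist G ℓ a b) (5000000 * (K' + Real.log (n + 2))) := by
  classical
  set L' : Set V := L ∪ X with hL'
  set Lt : Set W := {w : W | ι w ∈ L} with hLt
  have hX' : ∀ x ∈ X, x ∈ L' := fun x hx => Or.inr hx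
  have hfar : ∀ x y : W, pathDist G ℓ (ι x) (ι y) ≤ pathDist G' ℓ' x y := by
    intro x y
    have h1 := pd_semi (ℓ := ℓ') (ρ := fun x y => pathDist G ℓ (ι x) (ι y)) hc'
      one_pos (fun x => pd_self hℓ _) (fun x y z => pd_tri hc hℓ _ _ _) (fun u v huv => by
        rw [one_mul]
        exact hι u v huv) x y
    rwa [one_mul] at h1
  have hwalk : ∀ {x y : V} (w : G.Walk x y), (∀ z ∈ w.support, z ∉ X) →
      pathDist G' ℓ' (κ x) (κ y) ≤ wl ℓ w := by
    intro x y w
    induction w with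
    | nil =>
      intro _
      rw [wl_nil, pd_self hℓ']
    | @cons x z y h1 w ih =>
      intro hw
      have hx : x ∉ X := hw x (by rw [Walk.support_cons]; exact List.mem_cons_self ..)
      have hw' : ∀ z' ∈ w.support, z' ∉ X := fun z' hz' => hw z' (by
        rw [Walk.support_cons]
        exact List.mem_cons_of_mem _ hz')
      have hz : z ∉ X := hw' z w.start_mem_support
      obtain ⟨h2, h3⟩ := hκa x z hx hz h1
      have h4 := pd_adj hℓ' h2
      have h5 := pd_tri hc' hℓ' (κ x) (κ z) (κ y)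
      have h6 := ih hw'
      rw [wl_cons]
      linarith
  have hH : (gr G L').Connected := gr_conn hc hℓ (hX.mono hX')
  have hHpos := gl_pos (L := L') hc hℓ
  set X' : Set L' := {x | x.1 ∈ X} with hX'def
  have himg : (Subtype.val '' X' : Set V) = X := by
    ext x
    constructor
    · rintro ⟨y, hy, rfl⟩
      exact hy
    · intro hx
      exact ⟨⟨x, hX' x hx⟩, hx, rfl⟩
  have hlanes' : Lanes (gr G L') (gl G ℓ L') n X' := by
    obtain ⟨u, n', Ls, h1, h2, h3, h4, h5⟩ := hlanes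
    refine ⟨fun x => u x.1, n', fun i => {x | x.1 ∈ Ls i}, h1, ?_, ?_, ?_, ?_⟩
    · intro a b
      rw [gr_dist hc hℓ]
      exact h2 _ _
    · intro i
      obtain ⟨x, hx⟩ := h3 i
      exact ⟨⟨x, hX' x (by rw [h5]; exact Set.mem_iUnion.2 ⟨i, hx⟩)⟩, hx⟩
    · intro i a ha b hb
      rw [gr_dist hc hℓ]
      exact h4 i _ ha _ hb
    · ext x
      rw [Set.mem_iUnion]
      show x.1 ∈ X ↔ _
      rw [h5, Set.mem_iUnion]
      rfl
  have hpiece : ∀ u : L', ∃ κ' : compSet (gr G L') X' u → Lt, u ∉ X' →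
      H341W.Piece (gr G L') (gl G ℓ L') (compSet (gr G L') X' u) (gr G' Lt) (gl G' ℓ' Lt) κ' := by
    intro u
    have hK : ∀ a : compSet (gr G L') X' u, a.1.1 ∉ X := fun a h => Surf.reach_not_mem (X := X') a.2 h
    have hKL : ∀ a : compSet (gr G L') X' u, a.1.1 ∈ L := fun a => a.1.2.resolve_right (hK a)
    refine ⟨fun a => ⟨κ a.1.1, by
      show ι (κ a.1.1) ∈ L
      rw [hκ _ (hK a)]
      exact hKL a⟩, fun hu => ?_⟩
    have huX : u.1 ∉ X := hu
    have hne : Lt.Nonempty := ⟨κ u.1, by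
      show ι (κ u.1) ∈ L
      rw [hκ _ huX]
      exact u.2.resolve_right huX⟩
    refine ⟨inferInstance, gr_conn hc' hℓ' hne, gl_pos hc' hℓ', ?_, ?_⟩
    · intro a b hab
      refine le_gl hab fun w hw => ?_
      rw [gr_dist hc' hℓ']
      refine hwalk w fun z hz hzX => ?_
      rcases hw z hz (hX' z hzX) with h1 | h1
      · exact hK a (h1 ▸ hzX)
      · exact hK b (h1 ▸ hzX)
    · intro a b
      rw [gr_dist hc hℓ, gr_dist hc' hℓ']
      have h1 := hfar (κ a.1.1) (κ b.1.1)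
      rwa [hκ _ (hK a), hκ _ (hK b)] at h1
  choose κ' hκ' using hpiece
  have hl : EmbedsL1 (pathDist (gr G' Lt) (gl G' ℓ' Lt)) K' := by
    have h1 : pathDist (gr G' Lt) (gl G' ℓ' Lt) = fun a b : Lt => pathDist G' ℓ' a b := by
      funext a b
      exact gr_dist hc' hℓ' a b
    rw [h1]
    exact hleaf
  have hR : H341W.Rounds (fun W' G' ℓ₁ => EmbedsL1 (pathDist G' ℓ₁) K') n 0 1 (gr G L')
      (gl G ℓ L') := by
    refine H341W.Rounds.lanes (X := X') (W := fun _ => _)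
      (G' := fun _ => gr G' Lt) (ℓ' := fun _ => gl G' ℓ' Lt) (κ := κ') ?_ hlanes'
      (fun u hu => hκ' u hu) (fun u _ => H341W.Rounds.leaf hl)
    obtain ⟨x, hx⟩ := hX
    exact ⟨⟨x, hX' x hx⟩, hx⟩
  have h3 := H341W.rounds_distortion _ (C := K') hK'
    (fun W' _ G' ℓ₁ _ _ hQ => hQ) n 0 1 L' (gr G L') (gl G ℓ L') hH hHpos hR
  have h4 : EmbedsL1 (fun a b : L => pathDist G ℓ a b)
      (5000000 * (K' + ((1 : ℕ) : ℝ) * (((0 : ℕ) : ℝ) + Real.log ((n : ℝ) + 2)))) :=
    Tight.embeds_restrict (fun x : L => (⟨x.1, Or.inl x.2⟩ : L'))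
      (fun x y => gr_dist hc hℓ _ _) h3
  have h5 : 5000000 * (K' + ((1 : ℕ) : ℝ) * (((0 : ℕ) : ℝ) + Real.log ((n : ℝ) + 2))) =
      5000000 * (K' + Real.log ((n : ℝ) + 2)) := by
    push_cast
    ring
  rw [h5] at h4
  exact h4

end Vale.Agent.P235.R2.H90.Term
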