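import Vale.Agent.P235.R2.H90.TermFinal
import Vale.Agent.P235.R2.H611.T5d

/-!
# P235: terminals on surfaces, slopes at least `1 / D` (helper90)
-/

namespace Vale.Agent.P235.R2.H90.TermFinal

open Vale.Agent.P235 SimpleGraph Vale.Agent.P235.Red
open Vale.Agent.P235.R2.H582.GL Vale.Agent.P235.R2.H582.FewT

/-- **Terminals on surfaces.**  `G` is a finite connected graph on an orientable surface of Euler
genus at most `g`, with positive lengths, `L` is any set of vertices (terminals), `h` is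
nonexpansive on `L` for the metric of `G`; every terminal outside of `A` has a neighbour in `L` with
slope at least `1 / D` downwards, every terminal has one upwards, or is in `B`, or is on a face
of `M`. -/
theorem surfL {C : ℝ} (hC1 : 1 ≤ C) (hMS : MStarLL C) (V : Type) [Finite V]
    (G : SimpleGraph V) (σ : Equiv.Perm G.Dart) (ℓ : Sym2 V → ℝ) (h : V → ℝ) (L : Set V)
    (A B : Finset V) (M : Finset G.Dart) (g : ℕ) (D : ℝ) (hD : 1 ≤ D)
    (hc : G.Connected) (hσ : SurfMap g G σ) (hℓ : ∀ e ∈ G.edgeSet, 0 < ℓ e)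
    (h1 : ∀ u ∈ L, ∀ v ∈ L, |h u - h v| ≤ pathDist G ℓ u v)
    (hlow : ∀ v ∈ L, (∃ u ∈ L, G.Adj v u ∧ ℓ s(v, u) ≤ D * (h v - h u)) ∨ v ∈ A)
    (hhigh : ∀ v ∈ L, (∃ u ∈ L, G.Adj v u ∧ ℓ s(v, u) ≤ D * (h u - h v)) ∨ v ∈ B ∨
      ∃ m ∈ M, v ∈ onFace σ m) :
    EmbedsL1 (fun u v : L => pathDist G ℓ u v) (2 * 10 ^ 30 * C * D *
      ((ll (Nat.card V) : ℝ) + 1 + Real.log ((g + A.card : ℕ) + 2) +
        √(Real.log ((B.card + M.card : ℕ) + 2)))) := by
  obtain ⟨ℓ', k1, k2, k3, k4, k5⟩ := T5.exists_tight_lengths (A := (A : Set V))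
    (B := {v | v ∈ B ∨ ∃ m ∈ M, v ∈ onFace σ m}) hD hc hℓ h1
    (fun v hv hvA => (hlow v hv).resolve_right fun h2 => hvA (Finset.mem_coe.2 h2))
    (fun v hv hvB => (hhigh v hv).resolve_right hvB)
  have hE := surfL_tight hC1 hMS V G σ ℓ' h L A B M g hc hσ k1 k2
    (fun v hv hvA => by
      obtain ⟨u, h2, h3, h4, h5⟩ := k3 v hv fun h6 => hvA (Finset.mem_coe.1 h6)
      exact ⟨u, h4, h2.symm, by rw [Sym2.eq_swap]; exact h3⟩)
    (fun v hv => by
      by_cases hvB : v ∈ {v | v ∈ B ∨ ∃ m ∈ M, v ∈ onFace σ m}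
      · exact Or.inr hvB
      · obtain ⟨u, h2, h3, h4, h5⟩ := k4 v hv hvB
        exact Or.inl ⟨u, h5, h2, h3⟩)
  have hK : (0 : ℝ) ≤ 2 * 10 ^ 30 * C *
      ((ll (Nat.card V) : ℝ) + 1 + Real.log ((g + A.card : ℕ) + 2) +
        √(Real.log ((B.card + M.card : ℕ) + 2))) := by
    have h2 := Real.sqrt_nonneg (Real.log ((B.card + M.card : ℕ) + 2))
    have h3 : 0 ≤ Real.log (((g + A.card : ℕ) : ℝ) + 2) := Real.log_nonneg (by
      have : (0 : ℝ) ≤ ((g + A.card : ℕ) : ℝ) := Nat.cast_nonneg _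
      linarith)
    positivity
  have h4 := k5 _ hK hE
  have h5 : 2 * 10 ^ 30 * C * ((ll (Nat.card V) : ℝ) + 1 + Real.log ((g + A.card : ℕ) + 2) +
        √(Real.log ((B.card + M.card : ℕ) + 2))) * D = 2 * 10 ^ 30 * C * D *
      ((ll (Nat.card V) : ℝ) + 1 + Real.log ((g + A.card : ℕ) + 2) +
        √(Real.log ((B.card + M.card : ℕ) + 2))) := by ring
  rwa [h5] at h4

end Vale.Agent.P235.R2.H90.TermFinal
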