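import Vale.Agent.P235.R2.H90.Term
import Vale.Agent.P235.R2.H90.LiftL
import Vale.Agent.P235.R2.H90.Final
import Vale.Agent.P235.R2.H611.T5e

/-!
# P235: terminals on surfaces (helper90)

`G` on a surface, `L` any set of vertices, `h` nonexpansive on `L`, few vertices of `L` without a
tight edge down in `L`, few vertices and faces which cover the vertices of `L` without a tight edge
up in `L`: the metric of `G` on `L`.
-/

set_option linter.unusedSectionVars false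
set_option linter.unusedDecidableInType false
set_option linter.unusedFintypeInType false

namespace Vale.Agent.P235.R2.H90.TermFinal

open Vale.Agent.P235 SimpleGraph Vale.Agent.P235.Red Vale.Agent.P235.R2.H90.Cut
  Vale.Agent.P235.R2.H90.Gam Vale.Agent.P235.R2.H90.Lift Vale.Agent.P235.R2.H90.LiftL
  Vale.Agent.P235.R2.H90.Outer Vale.Agent.P235.R2.H90.Surf Vale.Agent.P235.R2.H90.Term
  Vale.Agent.P235.R2.H90.Final
open Vale.Agent.P235.R2.H582 (embeds_mono ll_mono)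

/-- two adjacent sources: lower one of them -/
theorem lowerL {V : Type} [Finite V] {G : SimpleGraph V} {ℓ : Sym2 V → ℝ}
    {h : V → ℝ} {a b : V} {L : Set V} {R : V → Prop} (haL : a ∈ L) (hbL : b ∈ L)
    (hc : G.Connected) (hℓ : ∀ e ∈ G.edgeSet, 0 < ℓ e)
    (hlip : ∀ u v, G.Adj u v → |h u - h v| ≤ ℓ s(u, v)) (hab : G.Adj a b)
    (hlow : ∀ v ∈ L, v ≠ a → v ≠ b → ∃ u ∈ L, G.Adj v u ∧ ℓ s(v, u) ≤ h v - h u)
    (hmin : ∀ u ∈ L, G.Adj a u → h a - h u < ℓ s(a, u))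
    (hhigh : ∀ v ∈ L, (∃ u ∈ L, G.Adj v u ∧ ℓ s(v, u) ≤ h u - h v) ∨ R v) :
    ∃ (ℓ' : Sym2 V → ℝ) (h' : V → ℝ), (∀ e ∈ G.edgeSet, 0 < ℓ' e) ∧
      (∀ u v, G.Adj u v → |h' u - h' v| ≤ ℓ' s(u, v)) ∧
      (∀ v ∈ L, v ≠ a → ∃ u ∈ L, G.Adj v u ∧ ℓ' s(v, u) ≤ h' v - h' u) ∧
      (∀ v ∈ L, (∃ u ∈ L, G.Adj v u ∧ ℓ' s(v, u) ≤ h' u - h' v) ∨ R v) ∧
      (∀ x y, G.Adj x y → ℓ s(x, y) ≤ ℓ' s(x, y)) ∧
      ∀ x y, x ≠ a → y ≠ a → ℓ' s(x, y) = ℓ s(x, y) := by
  classical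
  have := hc.nonempty
  obtain ⟨m, hm⟩ := Finite.exists_max fun v : V => ℓ s(a, v) - h v
  set R : ℝ := ℓ s(a, m) - h m with hR
  have hpos : ∀ u v, G.Adj u v → 0 < ℓ s(u, v) := fun u v ha => hℓ _ (G.mem_edgeSet.2 ha)
  have hRv : ∀ v, ℓ s(a, v) ≤ h v + R := fun v => by
    have := hm v
    beta_reduce at this
    rw [hR]
    linarith
  let h' : V → ℝ := fun v => if v = a then -R else h v
  let ℓ' : Sym2 V → ℝ := fun e => if a ∈ e then R2.H168.hlen h' e else ℓ e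
  have ha' : h' a = -R := if_pos rfl
  have hv' : ∀ v, v ≠ a → h' v = h v := fun v hv => if_neg hv
  have e1 : ∀ v, G.Adj a v → ℓ' s(a, v) = h v + R := by
    intro v hav
    show (if a ∈ s(a, v) then R2.H168.hlen h' s(a, v) else ℓ s(a, v)) = _
    rw [if_pos (Sym2.mem_mk_left a v), R2.H168.hlen_mk, ha', hv' v hav.ne']
    have h1 := hRv v
    have h2 := hpos _ _ hav
    rw [abs_sub_comm, abs_of_pos (by linarith)]
    ring
  have e2 : ∀ x y, x ≠ a → y ≠ a → ℓ' s(x, y) = ℓ s(x, y) := by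
    intro x y hx hy
    refine if_neg ?_
    rw [Sym2.mem_iff]
    rintro (h1 | h1)
    · exact hx h1.symm
    · exact hy h1.symm
  have e3 : ∀ v, G.Adj v a → ℓ' s(v, a) = h v + R := fun v hva => by
    rw [Sym2.eq_swap]
    exact e1 v hva.symm
  refine ⟨ℓ', h', ?_, ?_, ?_, ?_, ?_, e2⟩
  · intro e he
    induction e with
    | _ x y =>
      have hxy : G.Adj x y := he
      by_cases hx : x = a
      · subst hx
        rw [e1 y hxy]
        exact lt_of_lt_of_le (hpos _ _ hxy) (hRv y)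
      · by_cases hy : y = a
        · subst hy
          rw [e3 x hxy]
          exact lt_of_lt_of_le (hpos _ _ hxy.symm) (hRv x)
        · rw [e2 x y hx hy]
          exact hpos _ _ hxy
  · intro x y hxy
    by_cases hx : x = a
    · subst hx
      rw [e1 y hxy, ha', hv' y hxy.ne']
      have h1 := hRv y
      have h2 := hpos _ _ hxy
      rw [abs_sub_comm, abs_of_pos (by linarith)]
      linarith
    · by_cases hy : y = a
      · subst hy
        rw [e3 x hxy, ha', hv' x hxy.ne]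
        have h1 := hRv x
        have h2 := hpos _ _ hxy.symm
        rw [abs_of_pos (by linarith)]
        linarith
      · rw [e2 x y hx hy, hv' x hx, hv' y hy]
        exact hlip x y hxy
  · intro v hvL hv
    by_cases hb : v = b
    · subst hb
      refine ⟨a, haL, hab.symm, ?_⟩
      rw [e3 v hab.symm, ha', hv' v hv]
      linarith
    · obtain ⟨u, huL, hu, h1⟩ := hlow v hvL hv hb
      refine ⟨u, huL, hu, ?_⟩
      by_cases hua : u = a
      · subst hua
        rw [e3 v hu, ha', hv' v hv]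
        linarith
      · rw [e2 v u hv hua, hv' v hv, hv' u hua]
        exact h1
  · intro v hvL
    by_cases hv : v = a
    · subst hv
      refine Or.inl ⟨b, hbL, hab, ?_⟩
      rw [e1 b hab, ha', hv' b hab.ne']
      linarith
    · rcases hhigh v hvL with ⟨u, huL, hu, h1⟩ | h1
      · refine Or.inl ⟨u, huL, hu, ?_⟩
        have hua : u ≠ a := by
          rintro rfl
          have h2 := hmin v hvL hu.symm
          rw [Sym2.eq_swap] at h2
          linarith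
        rw [e2 v u hv hua, hv' v hv, hv' u hua]
        exact h1
      · exact Or.inr h1
  · intro x y hxy
    by_cases hx : x = a
    · subst hx
      rw [e1 y hxy]
      exact hRv y
    · by_cases hy : y = a
      · subst hy
        rw [e3 x hxy, Sym2.eq_swap]
        exact hRv x
      · rw [e2 x y hx hy]

/-- **terminals on surfaces, tight form** -/
theorem surfL_tight {C : ℝ} (hC1 : 1 ≤ C) (hMS : MStarLL C) (V : Type) [Finite V]
    (G : SimpleGraph V) (σ : Equiv.Perm G.Dart) (ℓ : Sym2 V → ℝ) (h : V → ℝ) (L : Set V)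
    (A B : Finset V) (M : Finset G.Dart) (g : ℕ) (hc : G.Connected) (hσ : SurfMap g G σ)
    (hℓ : ∀ e ∈ G.edgeSet, 0 < ℓ e)
    (h1 : ∀ u ∈ L, ∀ v ∈ L, |h u - h v| ≤ pathDist G ℓ u v)
    (hlow : ∀ v ∈ L, v ∉ A → ∃ u ∈ L, G.Adj v u ∧ ℓ s(v, u) ≤ h v - h u)
    (hhigh : ∀ v ∈ L, (∃ u ∈ L, G.Adj v u ∧ ℓ s(v, u) ≤ h u - h v) ∨ v ∈ B ∨
      ∃ m ∈ M, v ∈ onFace σ m) :
    EmbedsL1 (fun u v : L => pathDist G ℓ u v) (2 * 10 ^ 30 * C *
      ((ll (Nat.card V) : ℝ) + 1 + Real.log ((g + A.card : ℕ) + 2) +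
        √(Real.log ((B.card + M.card : ℕ) + 2)))) := by
  classical
  have hFin : Finite G.Dart := Tight.fin_dart
  have hg0 : (0 : ℝ) ≤ ((g + A.card : ℕ) : ℝ) := Nat.cast_nonneg _
  have hL0 : (0 : ℝ) ≤ ll (Nat.card V) := Nat.cast_nonneg _
  have hx : 0 ≤ Real.log (((g + A.card : ℕ) : ℝ) + 2) := Real.log_nonneg (by linarith)
  have hy := Real.sqrt_nonneg (Real.log (((B.card + M.card : ℕ) : ℝ) + 2))
  set x := Real.log (((g + A.card : ℕ) : ℝ) + 2) with hxdef
  set y := √(Real.log (((B.card + M.card : ℕ) : ℝ) + 2)) with hydef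
  set T : ℝ := (ll (Nat.card V) : ℝ) + 1 + x + y with hT
  have hT1 : 1 ≤ T := by rw [hT]; linarith
  have hCT : 1 ≤ C * T := by nlinarith
  have hTCT : T ≤ C * T := by nlinarith
  have hnn : ∀ a b : L, 0 ≤ pathDist G ℓ a b := fun a b => pd_nonneg hℓ _ _
  have hpos : ∀ u v, G.Adj u v → 0 < ℓ s(u, v) := fun u v ha => hℓ _ (G.mem_edgeSet.2 ha)
  rcases L.eq_empty_or_nonempty with rfl | hL
  · exact (IsL1.zero (V := (∅ : Set V))).embeds (fun a => a.2.elim) (fun a => a.2.elim)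
  by_cases hne : Nonempty G.Dart
  swap
  · have hsub := subsingleton_of_no_dart hc hne
    exact Tight.embeds_restrict (fun a : L => a.1) (fun _ _ => rfl)
      (distortion_subsingleton G hc.nonempty ℓ hℓ)
  obtain ⟨k, hk, hkl, hko⟩ := T5.exists_mcshane hc hℓ hL h1
  let A2 : Finset V := A.filter fun a => a ∈ L ∧ ∀ u ∈ L, G.Adj a u → k a - k u < ℓ s(a, u)
  have hA2 : A2.card ≤ A.card := Finset.card_filter_le _ _
  have hAL : (A2 : Set V) ⊆ L := fun a ha => (Finset.mem_filter.1 (Finset.mem_coe.1 ha)).2.1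
  have hmin : ∀ a ∈ A2, ∀ u ∈ L, G.Adj a u → k a - k u < ℓ s(a, u) :=
    fun a ha => (Finset.mem_filter.1 ha).2.2
  have hpar : ∀ v, ∃ u, v ∉ A2 → G.Adj v u ∧ ℓ s(v, u) ≤ k v - k u ∧ (v ∈ L → u ∈ L) := by
    intro v
    by_cases hv : v ∈ A2
    · exact ⟨v, fun h2 => absurd hv h2⟩
    · by_cases hvL : v ∈ L
      · by_cases hvA : v ∈ A
        · have h2 : ¬ ∀ u ∈ L, G.Adj v u → k v - k u < ℓ s(v, u) := fun h2 =>
            hv (Finset.mem_filter.2 ⟨hvA, hvL, h2⟩)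
          push Not at h2
          obtain ⟨u, h3, h4, h5⟩ := h2
          exact ⟨u, fun _ => ⟨h4, h5, fun _ => h3⟩⟩
        · obtain ⟨u, h3, h4, h5⟩ := hlow v hvL hvA
          exact ⟨u, fun _ => ⟨h4, by rw [hk v hvL, hk u h3]; exact h5, fun _ => h3⟩⟩
      · obtain ⟨u, h3, h4⟩ := hko v hvL
        refine ⟨u, fun _ => ⟨h3.symm, ?_, fun h5 => absurd h5 hvL⟩⟩
        rw [Sym2.eq_swap]
        linarith
  choose p hp0 using hpar
  have hmc : ∀ v, v ∉ (A2 : Set V) → v ∉ A2 := fun v hv h2 => hv (Finset.mem_coe.2 h2)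
  have hplow : ∀ v, v ∉ (A2 : Set V) → ℓ s(v, p v) ≤ k v - k (p v) := fun v hv =>
    (hp0 v (hmc v hv)).2.1
  have hpL : ∀ v ∈ L, v ∉ (A2 : Set V) → p v ∈ L := fun v hvL hv =>
    (hp0 v (hmc v hv)).2.2 hvL
  have hp : Par G k (A2 : Set V) p := by
    refine ⟨fun v hv => (hp0 v (hmc v hv)).1, fun v hv => ?_⟩
    have h2 := hpos _ _ (hp0 v (hmc v hv)).1
    have h3 := hplow v hv
    linarith
  have hAne : (A2 : Set V).Nonempty := by
    have := hc.nonempty
    obtain ⟨v0, hv0⟩ := Finite.exists_min k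
    refine ⟨v0, ?_⟩
    by_contra hcon
    have h2 := hp.lt v0 hcon
    have h3 := hv0 (p v0)
    linarith
  have hkh : ∀ v ∈ L, (∃ u ∈ L, G.Adj v u ∧ ℓ s(v, u) ≤ k u - k v) ∨ v ∈ B ∨
      ∃ m ∈ M, v ∈ onFace σ m := by
    intro v hv
    rcases hhigh v hv with ⟨u, h2, h3, h4⟩ | h2
    · exact Or.inl ⟨u, h2, h3, by rw [hk v hv, hk u h2]; exact h4⟩
    · exact Or.inr h2
  have hv : ∀ v, ∃ d : G.Dart, d.fst = v := by
    intro v
    obtain ⟨d0⟩ := hne
    obtain ⟨w, hw⟩ : ∃ w, G.Adj v w := by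
      by_cases hv : v = d0.fst
      · exact ⟨d0.snd, hv ▸ d0.adj⟩
      · obtain ⟨pw⟩ := hc.preconnected v d0.fst
        cases pw with
        | nil => exact absurd rfl hv
        | cons hadj _ => exact ⟨_, hadj⟩
    exact ⟨⟨(v, w), hw⟩, rfl⟩
  have hlipd : ∀ (ℓ₁ : Sym2 V → ℝ) (k₁ : V → ℝ), (∀ u v, G.Adj u v → |k₁ u - k₁ v| ≤ ℓ₁ s(u, v)) →
      ∀ u v, |k₁ u - k₁ v| ≤ pathDist G ℓ₁ u v := fun ℓ₁ k₁ h2 u v =>
    R2.H582.Wd.lip_pdE hc h2 u v
  have hfin : ∀ n : ℝ, Real.log (n + 2) ≤ 2 + x → 5000000 * (27 * 10 ^ 22 * (C * T) +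
      Real.log (n + 2)) ≤ 2 * 10 ^ 30 * C * T := by
    intro n hn
    have h4 : 2 + x ≤ 2 * (C * T) := by
      have h6 : 2 + x ≤ 2 * T := by rw [hT]; linarith
      linarith
    have h5 : 2 * 10 ^ 30 * C * T = 2 * 10 ^ 30 * (C * T) := by ring
    rw [h5]
    linarith
  have hone : ∀ (ℓ₁ : Sym2 V → ℝ) (k₁ : V → ℝ) (s : V), PlaneMap G σ →
      (∀ e ∈ G.edgeSet, 0 < ℓ₁ e) → (∀ u v, G.Adj u v → |k₁ u - k₁ v| ≤ ℓ₁ s(u, v)) →
      (∀ v ∈ L, v ≠ s → ∃ u ∈ L, G.Adj v u ∧ ℓ₁ s(v, u) ≤ k₁ v - k₁ u) →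
      (∀ v ∈ L, (∃ u ∈ L, G.Adj v u ∧ ℓ₁ s(v, u) ≤ k₁ u - k₁ v) ∨ v ∈ B ∨
        ∃ m ∈ M, v ∈ onFace σ m) →
      EmbedsL1 (fun u v : L => pathDist G ℓ₁ u v) (27 * 10 ^ 22 * (C * T)) := by
    intro ℓ₁ k₁ s hP hℓ₁ hlip₁ hlow₁ hhigh₁
    have h2 := T5.peaks hC1 hMS V G σ ℓ₁ k₁ L {s} B M 1 le_rfl hc hP hℓ₁ (Or.inl ⟨s, rfl⟩)
      (fun u _ v _ => hlipd ℓ₁ k₁ hlip₁ u v)
      (fun v hvL hvs => by
        obtain ⟨u, h3, h4, h5⟩ := hlow₁ v hvL hvs
        exact ⟨u, h3, h4, by rwa [one_mul]⟩)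
      (fun v hvL => by
        rcases hhigh₁ v hvL with ⟨u, h3, h4, h5⟩ | h3
        · exact Or.inl ⟨u, h3, h4, by rwa [one_mul]⟩
        · exact Or.inr h3)
    refine embeds_mono (fun a b => pd_nonneg hℓ₁ _ _) ?_ h2
    have h4 : (ll (Nat.card V) : ℝ) + 1 + y ≤ 9 * T := by
      rw [hT]
      linarith
    have h5 := mul_le_mul_of_nonneg_left h4 (show (0 : ℝ) ≤ 3 * (10 ^ 22 * C * 1) by positivity)
    refine h5.trans (le_of_eq ?_)
    ring
  rcases exists_cut2 hc hne hσ hAne hp with ⟨hP, hA1 | ⟨a, b, hA3, hab⟩⟩ |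
    ⟨C₀, hs, hN, hGne, hQ, hAX, hcut⟩
  · -- one source
    obtain ⟨s, hs⟩ := hAne
    have h2 : ∀ v, v ≠ s → v ∉ (A2 : Set V) := by
      intro v hvs hvA
      exact hvs ((Set.ncard_le_one (Set.toFinite _)).1 hA1 v hvA s hs)
    refine embeds_mono hnn ?_ (hone ℓ k s hP hℓ hkl
      (fun v hvL hvs => ⟨p v, hpL v hvL (h2 v hvs), hp.adj v (h2 v hvs), hplow v (h2 v hvs)⟩) hkh)
    have h5 : 2 * 10 ^ 30 * C * T = 2 * 10 ^ 30 * (C * T) := by ring
    rw [h5]
    linarith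
  · -- two adjacent sources
    have haA : a ∈ A2 := by
      have : a ∈ (A2 : Set V) := by rw [hA3]; exact Or.inl rfl
      exact Finset.mem_coe.1 this
    have haL : a ∈ L := hAL (Finset.mem_coe.2 haA)
    have hbL : b ∈ L := hAL (by rw [hA3]; exact Or.inr rfl)
    obtain ⟨ℓ', k', hp', hlip', hlow', hhigh', hle, heq⟩ := lowerL (L := L)
      (R := fun v => v ∈ B ∨ ∃ m ∈ M, v ∈ onFace σ m) haL hbL hc hℓ hkl hab
      (fun v hvL h2 h3 => by
        have h4 : v ∉ (A2 : Set V) := by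
          rw [hA3]
          exact fun h4 => h4.elim h2 h3
        exact ⟨p v, hpL v hvL h4, hp.adj v h4, hplow v h4⟩)
      (fun u huL hu => hmin a haA u huL hu) hkh
    have h2 := hone ℓ' k' a hP hp' hlip' hlow' hhigh'
    have h3 := round_terminals (K' := 27 * 10 ^ 22 * (C * T)) (by linarith) hc hℓ (L := L)
      (X := {a}) ⟨a, rfl⟩ (n := 1)
      ⟨k, 1, fun _ => {a}, le_rfl, hlipd ℓ k hkl, fun _ => ⟨a, rfl⟩, by
        intro _ x hx y hy
        rw [Set.mem_singleton_iff.1 hx, Set.mem_singleton_iff.1 hy, pd_self hℓ]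
        exact abs_nonneg _, by rw [Set.iUnion_const]⟩
      (G' := G) (ℓ' := ℓ') hc hp' (ι := id) (κ := id)
      (fun u v huv => (pd_adj hℓ huv).trans (hle u v huv)) (fun _ _ => rfl)
      (fun x y hx hy hxy => ⟨hxy, le_of_eq (heq x y hx hy)⟩) h2
    refine embeds_mono hnn (hfin _ ?_) h3
    refine le_trans (Real.log_le_log (by positivity) ?_) (num_log (k := g + A.card))
    have h4 : 1 ≤ A.card := (Finset.card_pos.2 ⟨a, haA⟩).trans_le hA2
    have h5 : (1 : ℝ) ≤ ((g + A.card : ℕ) : ℝ) := by exact_mod_cast (by omega : 1 ≤ g + A.card)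
    push_cast at h5 ⊢
    linarith
  · -- the cut
    have hCD : CD σ (Gm (A2 : Set V) p C₀) := ⟨hσ.fst, hσ.cyc, Gm_symm hs⟩
    obtain ⟨hconn, hPl, hout⟩ := hcut hCD hN
    have hX := XX_Gm (C₀ := C₀) hp
    obtain ⟨e0, he0⟩ := hGne
    have hfinW : Finite (W σ (Gm (A2 : Set V) p C₀)) := inferInstance
    let ℓ' : Sym2 (W σ (Gm (A2 : Set V) p C₀)) → ℝ := fun e => ℓ (e.map pr)
    have hℓ' : ∀ e ∈ (Gt hCD).edgeSet, 0 < ℓ' e := by
      intro e he
      induction e with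
      | _ a b => exact hℓ _ (G.mem_edgeSet.2 (pr_adj hCD he))
    have hBTf : (BTL σ (A2 : Set V) p C₀ L (B : Set V)).Finite := Set.toFinite _
    rw [Set.ncard_coe_finset] at hQ
    have hQ2 : (QQ (A2 : Set V) p C₀).ncard ≤ 2 * (g + A.card) := by omega
    have hb : hBTf.toFinset.card ≤ B.card + 4 * (2 * (g + A.card)) := by
      rw [← Set.ncard_eq_toFinset_card _ hBTf]
      have h2 := card_BTL (C₀ := C₀) hp hCD hpL hAL (B : Set V)
      rw [Set.ncard_coe_finset] at h2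
      omega
    have hW : Nat.card (W σ (Gm (A2 : Set V) p C₀)) ≤ 2 * Nat.card V + 2 * (g + A.card) := by
      have h2 := card_W hCD hv
      have h3 := card_Gm (C₀ := C₀) hp
      rw [← Nat.card_coe_set_eq] at h3
      rw [hX] at h2
      have h4 : (YY (A2 : Set V) p C₀ \ (A2 : Set V)).ncard ≤ (YY (A2 : Set V) p C₀).ncard :=
        Set.ncard_le_ncard Set.sdiff_subset (Set.toFinite _)
      have h5 : (YY (A2 : Set V) p C₀).ncard ≤ Nat.card V := by
        rw [← Set.ncard_univ]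
        exact Set.ncard_le_ncard (Set.subset_univ _) (Set.toFinite _)
      omega
    have hfar : ∀ u v, |k (pr u) - k (pr v)| ≤ pathDist (Gt hCD) ℓ' u v := fun u v =>
      R2.H582.Wd.lip_pdE hconn (h := fun w => k (pr w))
        (fun u v ha => hkl _ _ (pr_adj hCD ha)) u v
    have h2 := T5.peaks hC1 hMS (W σ (Gm (A2 : Set V) p C₀)) (Gt hCD) (Cut.sg hCD hN) ℓ'
      (fun w => k (pr w)) {w | pr w ∈ L} (onFace (Cut.sg hCD hN)
        (Cut.psi hCD (Sum.inr ⟨e0, he0⟩))) hBTf.toFinset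
      (M.image fun m => Cut.psi hCD (Sum.inl m)) 1 le_rfl hconn hPl hℓ'
      (Or.inr ⟨_, rfl, fun m hm => by
        obtain ⟨m', -, rfl⟩ := Finset.mem_image.1 hm
        exact not_outer hCD hN _ _⟩)
      (fun u _ v _ => hfar u v)
      (fun w hwL hw => by
        have h3 : pr w ∉ XX (Gm (A2 : Set V) p C₀) := by
          intro h3
          rcases w_cases hCD w with ⟨d, h4, rfl⟩ | ⟨e, rfl⟩
          · rw [pr_tau hCD] at h3
            exact h4 h3
          · exact hw (corner_outer hCD hN hout ⟨e0, he0⟩ e)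
        obtain ⟨u, h4, h5, h6⟩ := lift_lowL hp hCD hpL hplow w hwL h3 fun h4 => h3 (hAX h4)
        exact ⟨u, h4, h5, by rw [one_mul]; exact h6⟩)
      (fun w hwL => by
        by_cases hw1 : w ∈ hBTf.toFinset
        · exact Or.inr (Or.inl hw1)
        · by_cases hw2 : ∃ m ∈ M.image fun m => Cut.psi hCD (Sum.inl m),
              w ∈ onFace (Cut.sg hCD hN) m
          · exact Or.inr (Or.inr hw2)
          · refine Or.inl ?_
            push Not at hw2
            obtain ⟨u, h4, h5, h6⟩ := lift_highL hp hCD hplow (L := L) (B := (B : Set V))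
              (M := (M : Set G.Dart)) hN
              (fun v h3 h4 h5 => by
                rcases hkh v h3 with h6 | h6 | ⟨m, h6, h7⟩
                · exact h6
                · exact absurd (Finset.mem_coe.2 h6) h4
                · exact absurd h7 (h5 m (Finset.mem_coe.2 h6))) w hwL
              (fun h3 => hw1 (hBTf.mem_toFinset.2 h3))
              (fun m h3 => hw2 _ (Finset.mem_image.2 ⟨m, Finset.mem_coe.1 h3, rfl⟩))
            exact ⟨u, h4, h5, by rw [one_mul]; exact h6⟩)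
    have h3 : EmbedsL1 (fun a b : {w : W σ (Gm (A2 : Set V) p C₀) | pr w ∈ L} =>
        pathDist (Gt hCD) ℓ' a b) (27 * 10 ^ 22 * (C * T)) := by
      refine embeds_mono (fun a b => pd_nonneg hℓ' _ _) ?_ h2
      have h4 : (ll (Nat.card (W σ (Gm (A2 : Set V) p C₀))) : ℝ) ≤
          ll (Nat.card V) + 4 + 2 * x := num_ll hW
      have h5 : √(Real.log ((hBTf.toFinset.card + (M.image fun m =>
          Cut.psi hCD (Sum.inl m)).card : ℕ) + 2)) ≤ 2 + (2 + x) + y := by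
        refine (num_sqrt (k := 2 * (g + A.card)) hb Finset.card_image_le).trans ?_
        have h6 : Real.log (((2 * (g + A.card) : ℕ) : ℝ) + 2) ≤ 2 + x := by
          have h7 := num_log (k := g + A.card)
          rwa [Nat.cast_mul, Nat.cast_ofNat]
        linarith
      have h6 : (ll (Nat.card (W σ (Gm (A2 : Set V) p C₀))) : ℝ) + 1 +
          √(Real.log ((hBTf.toFinset.card + (M.image fun m =>
          Cut.psi hCD (Sum.inl m)).card : ℕ) + 2)) ≤ 9 * T := by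
        rw [hT]
        linarith
      have h7 := mul_le_mul_of_nonneg_left h6 (show (0 : ℝ) ≤ 3 * (10 ^ 22 * C * 1) by positivity)
      refine h7.trans (le_of_eq ?_)
      ring
    choose dd hdd using hv
    have h4 := round_terminals (K' := 27 * 10 ^ 22 * (C * T)) (by linarith) hc hℓ (L := L)
      (X := XX (Gm (A2 : Set V) p C₀)) ⟨e0.fst, mem_XX he0⟩
      (n := (QQ (A2 : Set V) p C₀).ncard) (by
        rw [hX]
        exact lanes_YY hp hc hℓ hkl hplow le_rfl)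
      (G' := Gt hCD) (ℓ' := ℓ') hconn hℓ' (ι := pr) (κ := fun v => tau σ _ (dd v))
      (fun u v huv => pd_adj hℓ (pr_adj hCD huv))
      (fun v _ => by rw [pr_tau hCD, hdd])
      (fun x y hx hy hxy => by
        have e1 : tau σ (Gm (A2 : Set V) p C₀) (⟨(x, y), hxy⟩ : G.Dart) = tau σ _ (dd x) :=
          tau_out hCD (by rw [hdd]; exact hx) (hdd x).symm
        have e2 : tau σ (Gm (A2 : Set V) p C₀) (faceNext σ (⟨(x, y), hxy⟩ : G.Dart)) =
            tau σ _ (dd y) :=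
          tau_out hCD (by rw [hdd]; exact hy)
            ((Cut.faceNext_fst hCD (⟨(x, y), hxy⟩ : G.Dart)).trans (hdd y).symm)
        have e3 := adj_tau hCD (⟨(x, y), hxy⟩ : G.Dart)
        rw [e1, e2] at e3
        refine ⟨e3, le_of_eq ?_⟩
        show ℓ s(pr (tau σ _ (dd x)), pr (tau σ _ (dd y))) = _
        rw [pr_tau hCD, pr_tau hCD, hdd, hdd]) h3
    refine embeds_mono hnn (hfin _ ?_) h4
    refine le_trans (Real.log_le_log (by positivity) ?_) (num_log (k := g + A.card))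
    have h5 : (((QQ (A2 : Set V) p C₀).ncard : ℕ) : ℝ) ≤ 2 * ((g + A.card : ℕ) : ℝ) := by
      exact_mod_cast hQ2
    linarith

end Vale.Agent.P235.R2.H90.TermFinal
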