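import Vale.Agent.P235.R2.H90.UlgA
import Vale.Agent.P235.R2.H90.UlgE
import Vale.Agent.P235.R2.H718.UlgB
import Vale.Agent.P235.R2.H907.UlgC
import Vale.Agent.P235.R2.H934.UlgD
import Vale.Agent.P235.R2.H907.VarK
import Vale.Agent.P235.R2.H341.KrPf

/-!
# P235: the union of `m` sets at the price `log m`, graphs without a `K_r` minor (helper90)
-/

set_option autoImplicit false

namespace Vale.Agent.P235.Ulg

open Vale.Agent.P235

/-- the rows together -/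
theorem union_rows : RowE := rowE rowA rowB rowC rowD

/-- **Unions.**  `G` has no `K_r` minor, the metric on each of `m` sets has distortion at most `B`:
the metric on the union has distortion `O((r + 2) ^ 3 B log (m + 2))`. -/
theorem union_log {V : Type} [Finite V] {G : SimpleGraph V} {ℓ : Sym2 V → ℝ} {r : ℕ}
    (hc : G.Connected) (hK : ¬ H134.IsMinor (⊤ : SimpleGraph (Fin r)) G)
    (hℓ : ∀ e ∈ G.edgeSet, 0 < ℓ e) {m : ℕ} {X : Fin m → Set V} {B : ℝ}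
    (hB : 1 ≤ B) (hE : ∀ i, EmbedsL1 (fun u v : X i => pathDist G ℓ u v) B) :
    EmbedsL1 (fun u v : ↥(⋃ i, X i) => pathDist G ℓ u v)
      (12 * 10 ^ 9 * ((r : ℝ) + 2) ^ 3 * B * Real.log ((m : ℝ) + 2)) := by
  have hr : (1 : ℝ) ≤ ((r : ℝ) + 2) ^ 3 := one_le_pow₀ (by
    have : (0 : ℝ) ≤ r := Nat.cast_nonneg r
    linarith)
  have hV : Var G ℓ ((1000 * ((r : ℝ) + 2) ^ 3) ^ 2) := by
    intro τ hτ0 hτ
    obtain ⟨N, h1, h2, h3⟩ := R2.H907.VarK.rowVarK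
      (R2.H907.KprPadK.rowPadK Kpr.rowPot Kpr.rowCount (Kr.rowK2 Kr.rowK1)) V G ℓ r hc hK hℓ τ
      hτ0 hτ
    refine ⟨N, h1, h2, fun x y h4 h5 => ?_⟩
    have h6 := h3 x y h4 h5
    have h7 : (1000 * ((r : ℝ) + 2) ^ 3) ^ 2 = 10 ^ 6 * ((r : ℝ) + 2) ^ 6 := by ring
    rw [h7]
    exact h6
  have h1 := union_rows V G ℓ hc hℓ (200 * ((r : ℝ) + 2) ^ 3) (by linarith)
    (Pf.retr_all hc hK hℓ) (1000 * ((r : ℝ) + 2) ^ 3) (by linarith) hV m X B hB hE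
  have h2 : 10 ^ 7 * (200 * ((r : ℝ) + 2) ^ 3 + 1000 * ((r : ℝ) + 2) ^ 3) * B *
      Real.log ((m : ℝ) + 2) = 12 * 10 ^ 9 * ((r : ℝ) + 2) ^ 3 * B * Real.log ((m : ℝ) + 2) := by
    ring
  rwa [h2] at h1

end Vale.Agent.P235.Ulg
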